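import Vale.Agent.H40.SKWhp

/-!
Definitions for the resolvent method: the coupling matrix of the Sherrington-Kirkpatrick model
as a real symmetric matrix, its quadratic form, its resolvent and the normalised trace of the
resolvent.
-/

namespace Vale.Agent.H40.SK

open MeasureTheory ProbabilityTheory Real

/-- The coupling matrix: symmetric with zero diagonal, entry `g (i,k) / √n` for `i < k`. -/
noncomputable def Jmat (n : ℕ) (g : Fin n × Fin n → ℝ) : Matrix (Fin n) (Fin n) ℝ :=
  fun i k => if i < k then g (i, k) / √(n : ℝ) else if k < i then g (k, i) / √(n : ℝ) else 0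

/-- The quadratic form `vᵀ J v` of the coupling matrix. -/
noncomputable def qform (n : ℕ) (g : Fin n × Fin n → ℝ) (v : Fin n → ℝ) : ℝ :=
  ∑ i, ∑ k, Jmat n g i k * v i * v k

/-- The resolvent ` (ζ - J)⁻¹` of the coupling matrix, as a complex matrix. -/
noncomputable def resolvent (n : ℕ) (ζ : ℂ) (g : Fin n × Fin n → ℝ) :
    Matrix (Fin n) (Fin n) ℂ :=
  (ζ • (1 : Matrix (Fin n) (Fin n) ℂ) - (Jmat n g).map (fun r : ℝ => (r : ℂ)))⁻¹

/-- The normalised trace ` (1/n) tr (ζ - J)⁻¹` of the resolvent. -/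
noncomputable def stieltjes (n : ℕ) (ζ : ℂ) (g : Fin n × Fin n → ℝ) : ℂ :=
  (n : ℂ)⁻¹ * ∑ a, resolvent n ζ g a a

/-- The set of disorders whose coupling matrix has an eigenvalue above `a`:
`vᵀ J v > a |v|²` for some vector `v`. -/
def edgeBad (n : ℕ) (a : ℝ) : Set (Fin n × Fin n → ℝ) :=
  {g | ∃ v : Fin n → ℝ, a * ∑ i, v i ^ 2 < qform n g v}

/-- The set of disorders for which the normalised resolvent trace at `τ + 1/τ` is farther
than `ρ` from `1/τ`. -/
def stieltjesBad (n : ℕ) (τ : ℂ) (ρ : ℝ) : Set (Fin n × Fin n → ℝ) :=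
  {g | ρ < ‖stieltjes n (τ + τ⁻¹) g - τ⁻¹‖}

end Vale.Agent.H40.SK
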