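import Vale.Agent.H40.Res.SF

/-!
TASK RES-D2B.  From the bound `E max_{u ∈ T} uᵀ J u ≤ 2` for finite sets `T` of unit vectors
(`integral_sup_qform_le`, stub of `SF.lean`, black box) to a tail bound for the largest
eigenvalue: for `n ≥ 1`, `a > 2`, `0 ≤ b < 2`,
`P(edgeBad n a) ≤ ((2 - b) + 2 P((edgeBad n b)ᶜ)) / (a - 2)`.

Black boxes from `JmatAlg.lean`: `continuous_qform`, `qform_smul`, `Jmat_diag`, `qform_eq_sum`.

Proof.  `em_markov_finite`: Markov inequality for the maximum `m` of the quadratic form over a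
finite set of unit vectors containing a vector with vanishing form, using the pointwise bound
`(a - b) 1{a < m} ≤ (m - b) + b 1{m < b}` (valid as `m ≥ 0`).  `em_limit`: increasing finite
sets built from a sequence of unit vectors which detects every violation, continuity of the
measure along increasing unions and decreasing intersections.  `edge_markov`: the sequence is
a dense sequence of the unit sphere.
-/

namespace Vale.Agent.H40.SK

open MeasureTheory ProbabilityTheory Real Filter Topology

/-- The quadratic form is continuous in the vector. -/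
lemma em_continuous_qform_vec (n : ℕ) (g : Fin n × Fin n → ℝ) :
    Continuous (fun v : Fin n → ℝ => qform n g v) := by
  unfold qform
  exact continuous_finsetSum _ (fun i _ => continuous_finsetSum _ (fun k _ =>
    (continuous_const.mul (continuous_apply i)).mul (continuous_apply k)))

lemma em_single_unit (n : ℕ) (i0 : Fin n) :
    ∑ i, (Pi.single i0 (1 : ℝ) : Fin n → ℝ) i ^ 2 = 1 := by
  rw [Finset.sum_eq_single i0]
  · simp
  · intro b _ hb
    simp [hb]
  · intro h
    exact absurd (Finset.mem_univ _) h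

lemma em_qform_single (n : ℕ) (g : Fin n × Fin n → ℝ) (i0 : Fin n) :
    qform n g (Pi.single i0 (1 : ℝ)) = 0 := by
  unfold qform
  rw [Finset.sum_eq_single i0]
  · rw [Finset.sum_eq_single i0]
    · simp [Jmat_diag]
    · intro b _ hb
      simp [hb]
    · intro h
      exact absurd (Finset.mem_univ _) h
  · intro b _ hb
    apply Finset.sum_eq_zero
    intro k _
    simp [Pi.single_apply, hb]
  · intro h
    exact absurd (Finset.mem_univ _) h

/-- From a vector violating the bound `c` to a unit vector violating it. -/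
lemma em_unit_of_gt (n : ℕ) (g : Fin n × Fin n → ℝ) (c : ℝ)
    (h : ∃ v : Fin n → ℝ, c * ∑ i, v i ^ 2 < qform n g v) :
    ∃ u : Fin n → ℝ, ∑ i, u i ^ 2 = 1 ∧ c < qform n g u := by
  obtain ⟨v, hv⟩ := h
  have hs0 : 0 ≤ ∑ i, v i ^ 2 := Finset.sum_nonneg (fun i _ => sq_nonneg _)
  rcases hs0.eq_or_lt with hs | hs
  · exfalso
    have hz : ∀ i, v i = 0 := by
      intro i
      have := (Finset.sum_eq_zero_iff_of_nonneg (fun i _ => sq_nonneg (v i))).mp hs.symm i
        (Finset.mem_univ i)
      exact pow_eq_zero_iff (two_ne_zero) |>.mp this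
    have hq : qform n g v = 0 := by
      unfold qform
      apply Finset.sum_eq_zero
      intro i _
      apply Finset.sum_eq_zero
      intro k _
      rw [hz i, hz k]
      ring
    rw [← hs, hq, mul_zero] at hv
    exact lt_irrefl _ hv
  · refine ⟨fun i => (√(∑ i, v i ^ 2))⁻¹ * v i, ?_, ?_⟩
    · have h1 : ∀ i, ((√(∑ i, v i ^ 2))⁻¹ * v i) ^ 2 = (∑ i, v i ^ 2)⁻¹ * v i ^ 2 := by
        intro i
        rw [mul_pow, inv_pow, Real.sq_sqrt hs0]
      simp only [h1]
      rw [← Finset.mul_sum]
      exact inv_mul_cancel₀ hs.ne'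
    · rw [qform_smul, inv_pow, Real.sq_sqrt hs0]
      rw [inv_mul_eq_div, lt_div_iff₀ hs]
      exact hv

lemma em_continuous_sup (n : ℕ) (T : Finset (Fin n → ℝ)) (hT : T.Nonempty) :
    Continuous (fun g : Fin n × Fin n → ℝ => T.sup' hT (fun u => qform n g u)) :=
  Continuous.finset_sup'_apply hT (fun u _ => continuous_qform u)

lemma em_integrable_qform (n : ℕ) (u : Fin n → ℝ) :
    Integrable (fun g : Fin n × Fin n → ℝ => qform n g u) (stdGauss (Fin n × Fin n)) := by
  have h1 : (fun g : Fin n × Fin n → ℝ => qform n g u) = fun g => ∑ p : Fin n × Fin n,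
      (if p.1 < p.2 then 2 * (√(n : ℝ))⁻¹ * u p.1 * u p.2 else 0) * g p := by
    funext g
    exact qform_eq_sum g u
  rw [h1]
  apply integrable_finsetSum
  intro p _
  have hid : Integrable (fun g : Fin n × Fin n → ℝ => g p) (stdGauss (Fin n × Fin n)) :=
    integrable_eval (μ := fun _ : Fin n × Fin n => gaussianReal 0 1) (i := p)
      (memLp_id_gaussianReal 1 |>.integrable le_rfl)
  exact hid.const_mul _

/-- Markov step for a fixed finite set of unit vectors containing a vector with zero form. -/
lemma em_markov_finite (n : ℕ) (T : Finset (Fin n → ℝ)) (hT : T.Nonempty)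
    (hunit : ∀ u ∈ T, ∑ i, u i ^ 2 = 1) (e : Fin n → ℝ) (heT : e ∈ T)
    (he : ∀ g, qform n g e = 0) (a b : ℝ) (ha : 2 < a) (hb : b < 2) :
    (stdGauss (Fin n × Fin n)).real {g | a < T.sup' hT (fun u => qform n g u)}
      ≤ ((2 - b) + 2 * (stdGauss (Fin n × Fin n)).real
          {g | T.sup' hT (fun u => qform n g u) < b}) / (a - 2) := by
  have hcont := em_continuous_sup n T hT
  have hmeas := hcont.measurable
  have hm0 : ∀ g, 0 ≤ T.sup' hT (fun u => qform n g u) := by
    intro g
    have h1 : qform n g e ≤ T.sup' hT (fun u => qform n g u) :=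
      Finset.le_sup' (fun u => qform n g u) heT
    rw [he g] at h1
    exact h1
  have hm_int : Integrable (fun g : Fin n × Fin n → ℝ => T.sup' hT (fun u => qform n g u))
      (stdGauss (Fin n × Fin n)) := by
    refine Integrable.mono' (g := fun g => ∑ u ∈ T, |qform n g u|)
      (integrable_finsetSum _ (fun u _ => (em_integrable_qform n u).abs))
      hcont.aestronglyMeasurable (ae_of_all _ (fun g => ?_))
    rw [Real.norm_eq_abs, abs_of_nonneg (hm0 g)]
    apply Finset.sup'_le
    intro u hu
    exact (le_abs_self _).trans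
      (Finset.single_le_sum (f := fun u => |qform n g u|) (fun u _ => abs_nonneg _) hu)
  have hA : MeasurableSet {g : Fin n × Fin n → ℝ | a < T.sup' hT (fun u => qform n g u)} :=
    measurableSet_lt measurable_const hmeas
  have hB : MeasurableSet {g : Fin n × Fin n → ℝ | T.sup' hT (fun u => qform n g u) < b} :=
    measurableSet_lt hmeas measurable_const
  have hI1 : Integrable (fun g : Fin n × Fin n → ℝ =>
      (a - b) * Set.indicator {g | a < T.sup' hT (fun u => qform n g u)} (fun _ => (1 : ℝ)) g)
      (stdGauss (Fin n × Fin n)) :=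
    ((integrable_const (1 : ℝ)).indicator hA).const_mul _
  have hI2a : Integrable (fun g : Fin n × Fin n → ℝ => T.sup' hT (fun u => qform n g u) - b)
      (stdGauss (Fin n × Fin n)) := hm_int.sub (integrable_const b)
  have hI2b : Integrable (fun g : Fin n × Fin n → ℝ =>
      b * Set.indicator {g | T.sup' hT (fun u => qform n g u) < b} (fun _ => (1 : ℝ)) g)
      (stdGauss (Fin n × Fin n)) :=
    ((integrable_const (1 : ℝ)).indicator hB).const_mul _
  have hpt : ∀ g : Fin n × Fin n → ℝ,
      (a - b) * Set.indicator {g | a < T.sup' hT (fun u => qform n g u)} (fun _ => (1 : ℝ)) g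
        ≤ (T.sup' hT (fun u => qform n g u) - b)
          + b * Set.indicator {g | T.sup' hT (fun u => qform n g u) < b} (fun _ => (1 : ℝ)) g := by
    intro g
    have h0 := hm0 g
    by_cases h1 : a < T.sup' hT (fun u => qform n g u)
    · have h2 : ¬ T.sup' hT (fun u => qform n g u) < b := by linarith
      rw [Set.indicator_of_mem (by exact h1), Set.indicator_of_notMem (by exact h2)]
      linarith
    · by_cases h2 : T.sup' hT (fun u => qform n g u) < b
      · rw [Set.indicator_of_notMem (by exact h1), Set.indicator_of_mem (by exact h2)]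
        linarith
      · rw [Set.indicator_of_notMem (by exact h1), Set.indicator_of_notMem (by exact h2)]
        linarith
  have key := integral_mono hI1 (hI2a.add hI2b) hpt
  rw [integral_const_mul, integral_indicator_const _ hA, integral_add' hI2a hI2b,
    integral_sub hm_int (integrable_const b), integral_const_mul, integral_indicator_const _ hB,
    integral_const] at key
  simp only [smul_eq_mul, mul_one, probReal_univ, one_mul] at key
  have h2 := integral_sup_qform_le n T hT hunit
  have hA0 : 0 ≤ (stdGauss (Fin n × Fin n)).real {g | a < T.sup' hT (fun u => qform n g u)} :=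
    measureReal_nonneg
  have hB0 : 0 ≤ (stdGauss (Fin n × Fin n)).real {g | T.sup' hT (fun u => qform n g u) < b} :=
    measureReal_nonneg
  rw [le_div_iff₀ (by linarith)]
  nlinarith [mul_nonneg (sub_nonneg.mpr hb.le) hA0, mul_nonneg (sub_nonneg.mpr hb.le) hB0]

/-- The limit step, for a sequence of unit vectors that detects every violation. -/
lemma em_limit (n : ℕ) (e : Fin n → ℝ) (he1 : ∑ i, e i ^ 2 = 1) (he : ∀ g, qform n g e = 0)
    (seq : ℕ → (Fin n → ℝ)) (hunit : ∀ j, ∑ i, seq j i ^ 2 = 1)
    (hdense : ∀ (g : Fin n × Fin n → ℝ) (c : ℝ),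
      (∃ v : Fin n → ℝ, c * ∑ i, v i ^ 2 < qform n g v) → ∃ j, c < qform n g (seq j))
    (a b : ℝ) (ha : 2 < a) (hb : b < 2) :
    (stdGauss (Fin n × Fin n)).real (edgeBad n a)
      ≤ ((2 - b) + 2 * (stdGauss (Fin n × Fin n)).real (edgeBad n b)ᶜ) / (a - 2) := by
  classical
  obtain ⟨T, hTdef⟩ : ∃ T : ℕ → Finset (Fin n → ℝ),
      T = fun N => insert e ((Finset.range (N + 1)).image seq) := ⟨_, rfl⟩
  have hTe : ∀ N, e ∈ T N := by
    intro N
    rw [hTdef]
    exact Finset.mem_insert_self _ _
  have hTne : ∀ N, (T N).Nonempty := fun N => ⟨e, hTe N⟩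
  have hTunit : ∀ N, ∀ u ∈ T N, ∑ i, u i ^ 2 = 1 := by
    intro N u hu
    rw [hTdef] at hu
    simp only [Finset.mem_insert, Finset.mem_image, Finset.mem_range] at hu
    rcases hu with rfl | ⟨j, _, rfl⟩
    · exact he1
    · exact hunit j
  have hTmono : ∀ N M, N ≤ M → T N ⊆ T M := by
    intro N M hNM
    rw [hTdef]
    exact Finset.insert_subset_insert _
      (Finset.image_subset_image (Finset.range_subset_range.mpr (by omega)))
  have hTseq : ∀ j, seq j ∈ T j := by
    intro j
    rw [hTdef]
    exact Finset.mem_insert_of_mem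
      (Finset.mem_image_of_mem _ (Finset.mem_range.mpr (Nat.lt_succ_self j)))
  have hstep : ∀ N, (stdGauss (Fin n × Fin n)).real
        {g | a < (T N).sup' (hTne N) (fun u => qform n g u)}
      ≤ ((2 - b) + 2 * (stdGauss (Fin n × Fin n)).real
          {g | (T N).sup' (hTne N) (fun u => qform n g u) < b}) / (a - 2) :=
    fun N => em_markov_finite n (T N) (hTne N) (hTunit N) e (hTe N) he a b ha hb
  have hmono : ∀ N M, N ≤ M → ∀ g : Fin n × Fin n → ℝ,
      (T N).sup' (hTne N) (fun u => qform n g u) ≤ (T M).sup' (hTne M) (fun u => qform n g u) :=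
    fun N M hNM g => Finset.sup'_mono (fun u => qform n g u) (hTmono N M hNM) (hTne N)
  have hAmono : Monotone (fun N => {g : Fin n × Fin n → ℝ |
      a < (T N).sup' (hTne N) (fun u => qform n g u)}) := by
    intro N M hNM g hg
    exact lt_of_lt_of_le hg (hmono N M hNM g)
  have hBanti : Antitone (fun N => {g : Fin n × Fin n → ℝ |
      (T N).sup' (hTne N) (fun u => qform n g u) < b}) := by
    intro N M hNM g hg
    exact lt_of_le_of_lt (hmono N M hNM g) hg
  have hBmeas : ∀ N, MeasurableSet {g : Fin n × Fin n → ℝ |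
      (T N).sup' (hTne N) (fun u => qform n g u) < b} :=
    fun N => measurableSet_lt (em_continuous_sup n (T N) (hTne N)).measurable measurable_const
  have hAlim : Tendsto (fun N => (stdGauss (Fin n × Fin n)).real
        {g | a < (T N).sup' (hTne N) (fun u => qform n g u)}) atTop
      (𝓝 ((stdGauss (Fin n × Fin n)).real
        (⋃ N, {g | a < (T N).sup' (hTne N) (fun u => qform n g u)}))) :=
    (ENNReal.tendsto_toReal (measure_ne_top _ _)).comp
      (tendsto_measure_iUnion_atTop (μ := stdGauss (Fin n × Fin n)) hAmono)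
  have hBlim : Tendsto (fun N => (stdGauss (Fin n × Fin n)).real
        {g | (T N).sup' (hTne N) (fun u => qform n g u) < b}) atTop
      (𝓝 ((stdGauss (Fin n × Fin n)).real
        (⋂ N, {g | (T N).sup' (hTne N) (fun u => qform n g u) < b}))) :=
    (ENNReal.tendsto_toReal (measure_ne_top _ _)).comp
      (tendsto_measure_iInter_atTop (μ := stdGauss (Fin n × Fin n))
        (fun N => (hBmeas N).nullMeasurableSet) hBanti ⟨0, measure_ne_top _ _⟩)
  have hlim : (stdGauss (Fin n × Fin n)).real
        (⋃ N, {g | a < (T N).sup' (hTne N) (fun u => qform n g u)})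
      ≤ ((2 - b) + 2 * (stdGauss (Fin n × Fin n)).real
          (⋂ N, {g | (T N).sup' (hTne N) (fun u => qform n g u) < b})) / (a - 2) :=
    le_of_tendsto_of_tendsto' hAlim (((hBlim.const_mul 2).const_add (2 - b)).div_const (a - 2))
      hstep
  have hsubA : edgeBad n a ⊆ ⋃ N, {g | a < (T N).sup' (hTne N) (fun u => qform n g u)} := by
    intro g hg
    obtain ⟨j, hj⟩ := hdense g a hg
    rw [Set.mem_iUnion]
    exact ⟨j, lt_of_lt_of_le hj (Finset.le_sup' (fun u => qform n g u) (hTseq j))⟩
  have hsubB : (⋂ N, {g : Fin n × Fin n → ℝ | (T N).sup' (hTne N) (fun u => qform n g u) < b})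
      ⊆ (edgeBad n b)ᶜ := by
    intro g hg hbad
    rw [Set.mem_iInter] at hg
    obtain ⟨j, hj⟩ := hdense g b hbad
    have h1 : qform n g (seq j) ≤ (T j).sup' (hTne j) (fun u => qform n g u) :=
      Finset.le_sup' (fun u => qform n g u) (hTseq j)
    have h2 : (T j).sup' (hTne j) (fun u => qform n g u) < b := hg j
    linarith
  have h1 : (stdGauss (Fin n × Fin n)).real (edgeBad n a)
      ≤ (stdGauss (Fin n × Fin n)).real
        (⋃ N, {g | a < (T N).sup' (hTne N) (fun u => qform n g u)}) :=
    measureReal_mono hsubA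
  have h2 : (stdGauss (Fin n × Fin n)).real
        (⋂ N, {g | (T N).sup' (hTne N) (fun u => qform n g u) < b})
      ≤ (stdGauss (Fin n × Fin n)).real (edgeBad n b)ᶜ :=
    measureReal_mono hsubB
  have ha2 : 0 < a - 2 := by linarith
  calc (stdGauss (Fin n × Fin n)).real (edgeBad n a)
      ≤ ((2 - b) + 2 * (stdGauss (Fin n × Fin n)).real
          (⋂ N, {g | (T N).sup' (hTne N) (fun u => qform n g u) < b})) / (a - 2) :=
        h1.trans hlim
    _ ≤ ((2 - b) + 2 * (stdGauss (Fin n × Fin n)).real (edgeBad n b)ᶜ) / (a - 2) := by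
        apply div_le_div_of_nonneg_right _ ha2.le
        linarith

/-- Tail bound for the largest eigenvalue of the coupling matrix. -/
theorem edge_markov (n : ℕ) (hn : 1 ≤ n) (a b : ℝ) (ha : 2 < a) (hb0 : 0 ≤ b) (hb : b < 2) :
    (stdGauss (Fin n × Fin n)).real (edgeBad n a)
      ≤ ((2 - b) + 2 * (stdGauss (Fin n × Fin n)).real (edgeBad n b)ᶜ) / (a - 2) := by
  have _hb0 := hb0
  have : Nonempty {u : Fin n → ℝ // ∑ i, u i ^ 2 = 1} :=
    ⟨⟨Pi.single (⟨0, hn⟩ : Fin n) 1, em_single_unit n _⟩⟩
  obtain ⟨seq, hseq⟩ := TopologicalSpace.exists_dense_seq {u : Fin n → ℝ // ∑ i, u i ^ 2 = 1}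
  refine em_limit n (Pi.single (⟨0, hn⟩ : Fin n) 1) (em_single_unit n _)
    (fun g => em_qform_single n g _) (fun j => (seq j).1) (fun j => (seq j).2) ?_ a b ha hb
  intro g c h
  obtain ⟨u, hu1, hu2⟩ := em_unit_of_gt n g c h
  have hO : IsOpen {x : {u : Fin n → ℝ // ∑ i, u i ^ 2 = 1} | c < qform n g x.1} :=
    isOpen_lt continuous_const ((em_continuous_qform_vec n g).comp continuous_subtype_val)
  obtain ⟨j, hj⟩ := hseq.exists_mem_open hO ⟨⟨u, hu1⟩, hu2⟩
  exact ⟨j, hj⟩

end Vale.Agent.H40.SK
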