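import Vale.Agent.H40.Res.LowerEdge
import Vale.Agent.H40.Res.EdgeMarkov

/-!
TASK RES-D2C.  No eigenvalue of the coupling matrix above `a > 2`, with probability tending to
one.

Proof sketch.  By `edge_markov` (stub of `EdgeMarkov.lean`) for `n ≥ 1` and `0 ≤ b < 2`:
`P(edgeBad n a) ≤ ((2 - b) + 2 P((edgeBad n b)ᶜ)) / (a - 2)`, and by `lowerEdge_tendsto`
(stub of `LowerEdge.lean`) the second probability tends to `0`.  Given `e > 0` choose `b < 2`
with `0 ≤ b` and ` (2 - b)/(a - 2) < e/2`; then eventually `2 P((edgeBad n b)ᶜ)/(a - 2) < e/2`.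
-/

namespace Vale.Agent.H40.SK

open MeasureTheory ProbabilityTheory Real

/-- No eigenvalue above `a > 2`, with probability tending to one. -/
theorem edge_tendsto (a : ℝ) (ha : 2 < a) :
    Filter.Tendsto (fun n : ℕ => (stdGauss (Fin n × Fin n)).real (edgeBad n a))
      Filter.atTop (nhds 0) := by
  have ha2 : 0 < a - 2 := by linarith
  rw [tendsto_order]
  refine ⟨fun c hc => Filter.Eventually.of_forall fun n =>
    lt_of_lt_of_le hc measureReal_nonneg, fun e he => ?_⟩
  have hpos : 0 < e * (a - 2) := mul_pos he ha2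
  obtain ⟨δ, hδpos, hδ2, hδe⟩ : ∃ δ : ℝ, 0 < δ ∧ δ ≤ 2 ∧ δ ≤ e * (a - 2) / 4 :=
    ⟨min 2 (e * (a - 2) / 4), lt_min (by norm_num) (by linarith), min_le_left _ _,
      min_le_right _ _⟩
  have hb0 : (0 : ℝ) ≤ 2 - δ := by linarith
  have hb : 2 - δ < 2 := by linarith
  have hlow := lowerEdge_tendsto (2 - δ) hb
  have hev : ∀ᶠ n : ℕ in Filter.atTop,
      (stdGauss (Fin n × Fin n)).real (edgeBad n (2 - δ))ᶜ < e * (a - 2) / 4 :=
    (tendsto_order.1 hlow).2 _ (by linarith)
  filter_upwards [hev, Filter.eventually_ge_atTop 1] with n hn h1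
  have hm := edge_markov n h1 a (2 - δ) ha hb0 hb
  refine lt_of_le_of_lt hm ?_
  rw [div_lt_iff₀ ha2]
  linarith

end Vale.Agent.H40.SK
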