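import Vale.Agent.H40.Res.IsingDefs

/-!
TASK RES-EBAD.  Crude bound for the residual, valid for every disorder.

Black boxes (stubs of `Resolvent.lean`): `resolvent_symm`, `resolvent_opNorm_le`,
`resolvent_entry_le`, `norm_stieltjes_le`; from landed files: `abs_corr_gibbs_le`, `corr_swap`,
`corrSq_le` (`W ≤ n²`), `gibbs_pos`, `gibbs_sum`.

Same estimates as in `IsingGood.lean` (read its header), with `1/η`, `η = Im ζ > 0`, in place of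
`1/δ` (`resolvent_opNorm_le`): `|tG2M| ≤ n/η²`, `|dGM| ≤ n/η²`, `|tGM2| ≤ W/η ≤ n²/η`,
`|four - W tGM2| ≤ 2 n² W/η`, `|tGM| ≤ n/η`, `|s| ≤ 1/η`.  With `ω = wgt > 0`:
`‖resid‖ ≤ n ω + (ω/n)(3n/η²) + (β/n) ω n²/η + (4βθ/η) n ω + ω (‖ζ‖ + β + 1/η) n/η
         ≤ n ω (1 + 3/η² + (2β + 4βθ + ‖ζ‖ + 1/η)/η)`     (using `n ≥ 1`).
-/

namespace Vale.Agent.H40.SK

open MeasureTheory ProbabilityTheory Real

/-- Cauchy-Schwarz for complex vectors, squared form. -/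
lemma ebad_cs_sq {n : ℕ} (u w : Fin n → ℂ) :
    ‖∑ a, u a * w a‖ ^ 2 ≤ (∑ a, ‖u a‖ ^ 2) * (∑ a, ‖w a‖ ^ 2) := by
  have h1 : ‖∑ a, u a * w a‖ ≤ ∑ a, ‖u a‖ * ‖w a‖ := by
    refine (norm_sum_le _ _).trans (le_of_eq ?_)
    exact Finset.sum_congr rfl fun a _ => norm_mul _ _
  have h2 : (∑ a, ‖u a‖ * ‖w a‖) ^ 2 ≤ (∑ a, ‖u a‖ ^ 2) * (∑ a, ‖w a‖ ^ 2) :=
    Finset.sum_mul_sq_le_sq_mul_sq _ _ _
  exact (pow_le_pow_left₀ (norm_nonneg _) h1 2).trans h2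

/-- Cauchy-Schwarz with explicit bounds. -/
lemma ebad_cs {n : ℕ} (u w : Fin n → ℂ) (P Q C : ℝ) (hu : ∑ a, ‖u a‖ ^ 2 ≤ P)
    (hw : ∑ a, ‖w a‖ ^ 2 ≤ Q) (hC : 0 ≤ C) (hPQ : P * Q ≤ C ^ 2) :
    ‖∑ a, u a * w a‖ ≤ C := by
  have h0 : 0 ≤ ∑ a, ‖w a‖ ^ 2 := Finset.sum_nonneg fun a _ => sq_nonneg _
  have h0' : 0 ≤ ∑ a, ‖u a‖ ^ 2 := Finset.sum_nonneg fun a _ => sq_nonneg _
  have h3 : ‖∑ a, u a * w a‖ ^ 2 ≤ C ^ 2 :=
    (ebad_cs_sq u w).trans ((mul_le_mul hu hw h0 (h0'.trans hu)).trans hPQ)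
  exact (pow_le_pow_iff_left₀ (norm_nonneg _) hC two_ne_zero).mp h3

/-- Product bound from squared bounds. -/
lemma ebad_prod (A B : ℂ) (P Q C : ℝ) (hA : ‖A‖ ^ 2 ≤ P) (hB : ‖B‖ ^ 2 ≤ Q) (hC : 0 ≤ C)
    (hPQ : P * Q ≤ C ^ 2) : ‖A * B‖ ≤ C := by
  have h3 : ‖A * B‖ ^ 2 ≤ C ^ 2 := by
    rw [norm_mul, mul_pow]
    exact (mul_le_mul hA hB (sq_nonneg _) ((sq_nonneg _).trans hA)).trans hPQ
  exact (pow_le_pow_iff_left₀ (norm_nonneg _) hC two_ne_zero).mp h3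

/-- The operator norm bound of the resolvent in a convenient form. -/
lemma ebad_G {n : ℕ} (ζ : ℂ) (hζ : 0 < ζ.im) (g : Fin n × Fin n → ℝ) (v : Fin n → ℂ) (P : ℝ)
    (hv : ∑ b, ‖v b‖ ^ 2 ≤ P) :
    ∑ a, ‖∑ b, resolvent n ζ g a b * v b‖ ^ 2 ≤ P / ζ.im ^ 2 :=
  (resolvent_opNorm_le ζ hζ.ne' g v).trans (div_le_div_of_nonneg_right hv (sq_nonneg _))

/-- Squared norm of the spin vector. -/
lemma ebad_spin {n : ℕ} (x : Fin n → Bool) : ∑ a, ‖(spin (x a) : ℂ)‖ ^ 2 = (n : ℝ) := by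
  simp [Complex.norm_real, abs_spin]

/-- Gibbs averages of bounded functions. -/
lemma ebad_avg {n : ℕ} (β : ℝ) (g : Fin n × Fin n → ℝ) (F : (Fin n → Bool) → ℂ) (B : ℝ)
    (hF : ∀ x, ‖F x‖ ≤ B) : ‖∑ x, (gibbs n β g x : ℂ) * F x‖ ≤ B := by
  calc ‖∑ x, (gibbs n β g x : ℂ) * F x‖ ≤ ∑ x, ‖(gibbs n β g x : ℂ) * F x‖ := norm_sum_le _ _
    _ ≤ ∑ x, gibbs n β g x * B := by
        refine Finset.sum_le_sum fun x _ => ?_
        rw [norm_mul, Complex.norm_real, Real.norm_of_nonneg (gibbs_pos n β g x).le]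
        exact mul_le_mul_of_nonneg_left (hF x) (gibbs_pos n β g x).le
    _ = B := by rw [← Finset.sum_mul, gibbs_sum, one_mul]

/-- The correlation as a complex Gibbs average. -/
lemma ebad_corr {n : ℕ} (μ : (Fin n → Bool) → ℝ) (a b : Fin n) :
    (corr μ (a, b) : ℂ) = ∑ x, (μ x : ℂ) * ((spin (x a) : ℂ) * (spin (x b) : ℂ)) := by
  unfold corr
  push_cast
  rfl

lemma ebad_comm3 {α β γ : Type*} [Fintype α] [Fintype β] [Fintype γ] (f : α → β → γ → ℂ) :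
    ∑ a, ∑ b, ∑ x, f a b x = ∑ x, ∑ a, ∑ b, f a b x := by
  calc ∑ a, ∑ b, ∑ x, f a b x = ∑ a, ∑ x, ∑ b, f a b x :=
        Finset.sum_congr rfl fun a _ => Finset.sum_comm
    _ = ∑ x, ∑ a, ∑ b, f a b x := Finset.sum_comm

lemma ebad_comm4 {α β γ δ : Type*} [Fintype α] [Fintype β] [Fintype γ] [Fintype δ]
    (f : α → β → γ → δ → ℂ) :
    ∑ a, ∑ b, ∑ c, ∑ x, f a b c x = ∑ x, ∑ a, ∑ b, ∑ c, f a b c x := by
  calc ∑ a, ∑ b, ∑ c, ∑ x, f a b c x = ∑ a, ∑ x, ∑ b, ∑ c, f a b c x :=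
        Finset.sum_congr rfl fun a _ => ebad_comm3 (fun b c x => f a b c x)
    _ = ∑ x, ∑ a, ∑ b, ∑ c, f a b c x := Finset.sum_comm

/-- `tr (G M)` as a Gibbs average of quadratic forms. -/
lemma ebad_tGM_eq (n : ℕ) (ζ : ℂ) (β : ℝ) (g : Fin n × Fin n → ℝ) :
    tGM n ζ β g = ∑ x, (gibbs n β g x : ℂ) *
      ∑ a, (spin (x a) : ℂ) * ∑ b, resolvent n ζ g a b * (spin (x b) : ℂ) := by
  unfold tGM
  simp only [ebad_corr, Finset.mul_sum]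
  rw [ebad_comm3]
  refine Finset.sum_congr rfl fun x _ => Finset.sum_congr rfl fun a _ =>
    Finset.sum_congr rfl fun b _ => ?_
  ring

/-- `tr (G² M)` as a Gibbs average. -/
lemma ebad_tG2M_eq (n : ℕ) (ζ : ℂ) (β : ℝ) (g : Fin n × Fin n → ℝ) :
    tG2M n ζ β g = ∑ x, (gibbs n β g x : ℂ) *
      ∑ a, (spin (x a) : ℂ) * ∑ b, resolvent n ζ g a b *
        ∑ c, resolvent n ζ g b c * (spin (x c) : ℂ) := by
  unfold tG2M
  simp only [ebad_corr, Finset.mul_sum]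
  rw [ebad_comm4]
  refine Finset.sum_congr rfl fun x _ => Finset.sum_congr rfl fun a _ =>
    Finset.sum_congr rfl fun b _ => Finset.sum_congr rfl fun c _ => ?_
  ring

/-- `∑_i G_ii (G M)_ii` as a Gibbs average. -/
lemma ebad_dGM_eq (n : ℕ) (ζ : ℂ) (β : ℝ) (g : Fin n × Fin n → ℝ) :
    dGM n ζ β g = ∑ x, (gibbs n β g x : ℂ) *
      ∑ i, (resolvent n ζ g i i * (spin (x i) : ℂ)) *
        ∑ j, resolvent n ζ g i j * (spin (x j) : ℂ) := by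
  unfold dGM
  simp only [ebad_corr, Finset.mul_sum]
  rw [ebad_comm3]
  refine Finset.sum_congr rfl fun x _ => Finset.sum_congr rfl fun a _ =>
    Finset.sum_congr rfl fun b _ => ?_
  ring

/-- `tr (G M²)` as a sum over columns. -/
lemma ebad_tGM2_eq (n : ℕ) (ζ : ℂ) (β : ℝ) (g : Fin n × Fin n → ℝ) :
    tGM2 n ζ β g = ∑ c, ∑ a, (corr (gibbs n β g) (c, a) : ℂ) *
      ∑ b, resolvent n ζ g a b * (corr (gibbs n β g) (b, c) : ℂ) := by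
  unfold tGM2
  simp only [Finset.mul_sum]
  rw [ebad_comm3]
  refine Finset.sum_congr rfl fun x _ => Finset.sum_congr rfl fun a _ =>
    Finset.sum_congr rfl fun b _ => ?_
  ring

/-- Row form: `|M v|² ≤ W |v|²`. -/
lemma ebad_Mv {n : ℕ} (μ : (Fin n → Bool) → ℝ) (v : Fin n → ℂ) :
    ∑ a, ‖∑ b, (corr μ (a, b) : ℂ) * v b‖ ^ 2 ≤ corrSq μ * ∑ b, ‖v b‖ ^ 2 := by
  calc ∑ a, ‖∑ b, (corr μ (a, b) : ℂ) * v b‖ ^ 2
      ≤ ∑ a, (∑ b, ‖(corr μ (a, b) : ℂ)‖ ^ 2) * ∑ b, ‖v b‖ ^ 2 :=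
        Finset.sum_le_sum fun a _ => ebad_cs_sq _ _
    _ = corrSq μ * ∑ b, ‖v b‖ ^ 2 := by
        rw [← Finset.sum_mul]
        congr 1
        unfold corrSq
        rw [Fintype.sum_prod_type]
        refine Finset.sum_congr rfl fun a _ => Finset.sum_congr rfl fun b _ => ?_
        rw [Complex.norm_real, Real.norm_eq_abs, sq_abs]

/-- Column form: `|Mᵀ v|² ≤ W |v|²`. -/
lemma ebad_Mv' {n : ℕ} (μ : (Fin n → Bool) → ℝ) (v : Fin n → ℂ) :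
    ∑ c, ‖∑ a, (corr μ (a, c) : ℂ) * v a‖ ^ 2 ≤ corrSq μ * ∑ b, ‖v b‖ ^ 2 := by
  have h : ∀ a c : Fin n, corr μ (a, c) = corr μ (c, a) := fun a c => corr_swap μ (c, a)
  calc ∑ c, ‖∑ a, (corr μ (a, c) : ℂ) * v a‖ ^ 2
      = ∑ c, ‖∑ a, (corr μ (c, a) : ℂ) * v a‖ ^ 2 := by
        refine Finset.sum_congr rfl fun c _ => ?_
        congr 2
        refine Finset.sum_congr rfl fun a _ => ?_
        rw [h a c]
    _ ≤ corrSq μ * ∑ b, ‖v b‖ ^ 2 := ebad_Mv μ v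

lemma ebad_tGM_le (n : ℕ) (ζ : ℂ) (hζ : 0 < ζ.im) (β : ℝ) (g : Fin n × Fin n → ℝ) :
    ‖tGM n ζ β g‖ ≤ (n : ℝ) / ζ.im := by
  rw [ebad_tGM_eq]
  refine ebad_avg β g _ _ fun x => ?_
  refine ebad_cs _ _ (n : ℝ) ((n : ℝ) / ζ.im ^ 2) _ (ebad_spin x).le
    (ebad_G ζ hζ g _ _ (ebad_spin x).le) (by positivity) (le_of_eq ?_)
  field_simp

lemma ebad_tG2M_le (n : ℕ) (ζ : ℂ) (hζ : 0 < ζ.im) (β : ℝ) (g : Fin n × Fin n → ℝ) :
    ‖tG2M n ζ β g‖ ≤ (n : ℝ) / ζ.im ^ 2 := by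
  rw [ebad_tG2M_eq]
  refine ebad_avg β g _ _ fun x => ?_
  refine ebad_cs _ _ (n : ℝ) ((n : ℝ) / ζ.im ^ 2 / ζ.im ^ 2) _ (ebad_spin x).le
    (ebad_G ζ hζ g _ _ (ebad_G ζ hζ g _ _ (ebad_spin x).le)) (by positivity) (le_of_eq ?_)
  field_simp

lemma ebad_dGM_le (n : ℕ) (ζ : ℂ) (hζ : 0 < ζ.im) (β : ℝ) (g : Fin n × Fin n → ℝ) :
    ‖dGM n ζ β g‖ ≤ (n : ℝ) / ζ.im ^ 2 := by
  rw [ebad_dGM_eq]
  refine ebad_avg β g _ _ fun x => ?_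
  have hu : ∑ i, ‖resolvent n ζ g i i * (spin (x i) : ℂ)‖ ^ 2 ≤ (n : ℝ) / ζ.im ^ 2 := by
    calc ∑ i, ‖resolvent n ζ g i i * (spin (x i) : ℂ)‖ ^ 2 ≤ ∑ _i : Fin n, 1 / ζ.im ^ 2 := by
          refine Finset.sum_le_sum fun i _ => ?_
          rw [norm_mul, Complex.norm_real, Real.norm_eq_abs, abs_spin, mul_one]
          have h := resolvent_entry_le ζ hζ.ne' g i i
          rw [abs_of_pos hζ] at h
          calc ‖resolvent n ζ g i i‖ ^ 2 ≤ (1 / ζ.im) ^ 2 :=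
                pow_le_pow_left₀ (norm_nonneg _) h 2
            _ = 1 / ζ.im ^ 2 := by rw [one_div, one_div, inv_pow]
      _ = (n : ℝ) / ζ.im ^ 2 := by simp [div_eq_mul_inv]
  refine ebad_cs _ _ _ _ _ hu (ebad_G ζ hζ g _ _ (ebad_spin x).le) (by positivity) (le_of_eq ?_)
  field_simp

lemma ebad_tGM2_le (n : ℕ) (ζ : ℂ) (hζ : 0 < ζ.im) (β : ℝ) (g : Fin n × Fin n → ℝ) :
    ‖tGM2 n ζ β g‖ ≤ corrSq (gibbs n β g) / ζ.im := by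
  rw [ebad_tGM2_eq]
  have hrow : ∀ c : Fin n, ∑ a, ‖(corr (gibbs n β g) (c, a) : ℂ)‖ ^ 2
      = ∑ a, corr (gibbs n β g) (c, a) ^ 2 := fun c =>
    Finset.sum_congr rfl fun a _ => by rw [Complex.norm_real, Real.norm_eq_abs, sq_abs]
  have hcol : ∀ c : Fin n, ∑ b, ‖(corr (gibbs n β g) (b, c) : ℂ)‖ ^ 2
      = ∑ a, corr (gibbs n β g) (c, a) ^ 2 := fun c =>
    Finset.sum_congr rfl fun b _ => by
      rw [Complex.norm_real, Real.norm_eq_abs, sq_abs, ← corr_swap (gibbs n β g) (c, b)]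
      rfl
  calc ‖∑ c, ∑ a, (corr (gibbs n β g) (c, a) : ℂ) *
          ∑ b, resolvent n ζ g a b * (corr (gibbs n β g) (b, c) : ℂ)‖
      ≤ ∑ c, ‖∑ a, (corr (gibbs n β g) (c, a) : ℂ) *
          ∑ b, resolvent n ζ g a b * (corr (gibbs n β g) (b, c) : ℂ)‖ := norm_sum_le _ _
    _ ≤ ∑ c, (∑ a, corr (gibbs n β g) (c, a) ^ 2) / ζ.im := by
        refine Finset.sum_le_sum fun c _ => ?_
        have hR : 0 ≤ ∑ a, corr (gibbs n β g) (c, a) ^ 2 :=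
          Finset.sum_nonneg fun a _ => sq_nonneg _
        refine ebad_cs _ _ (∑ a, corr (gibbs n β g) (c, a) ^ 2)
          ((∑ a, corr (gibbs n β g) (c, a) ^ 2) / ζ.im ^ 2) _
          (hrow c).le (ebad_G ζ hζ g _ _ (hcol c).le) (div_nonneg hR hζ.le) (le_of_eq ?_)
        field_simp
    _ = corrSq (gibbs n β g) / ζ.im := by
        rw [← Finset.sum_div]
        congr 1
        unfold corrSq
        rw [Fintype.sum_prod_type]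

lemma ebad_four_le (n : ℕ) (ζ : ℂ) (hζ : 0 < ζ.im) (β : ℝ) (g : Fin n × Fin n → ℝ) :
    ‖four n ζ β g‖ ≤ (n : ℝ) ^ 2 * corrSq (gibbs n β g) / ζ.im := by
  have hW0 : 0 ≤ corrSq (gibbs n β g) := Finset.sum_nonneg fun p _ => sq_nonneg _
  have hA : ∀ x : Fin n → Bool,
      (∑ a, ∑ b, (corr (gibbs n β g) (a, b) : ℂ) * (spin (x a) : ℂ) * (spin (x b) : ℂ))
        = ∑ a, (spin (x a) : ℂ) * ∑ b, (corr (gibbs n β g) (a, b) : ℂ) * (spin (x b) : ℂ) := by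
    intro x
    refine Finset.sum_congr rfl fun a _ => ?_
    rw [Finset.mul_sum]
    refine Finset.sum_congr rfl fun b _ => ?_
    ring
  have hB : ∀ x : Fin n → Bool,
      (∑ a, ∑ b, (∑ c, (corr (gibbs n β g) (a, c) : ℂ) * resolvent n ζ g c b)
          * (spin (x a) : ℂ) * (spin (x b) : ℂ))
        = ∑ c, (∑ a, (corr (gibbs n β g) (a, c) : ℂ) * (spin (x a) : ℂ))
            * ∑ b, resolvent n ζ g c b * (spin (x b) : ℂ) := by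
    intro x
    calc (∑ a, ∑ b, (∑ c, (corr (gibbs n β g) (a, c) : ℂ) * resolvent n ζ g c b)
          * (spin (x a) : ℂ) * (spin (x b) : ℂ))
        = ∑ a, ∑ b, ∑ c, (corr (gibbs n β g) (a, c) : ℂ) * resolvent n ζ g c b
          * (spin (x a) : ℂ) * (spin (x b) : ℂ) := by
          simp only [Finset.sum_mul]
      _ = ∑ c, ∑ a, ∑ b, (corr (gibbs n β g) (a, c) : ℂ) * resolvent n ζ g c b
          * (spin (x a) : ℂ) * (spin (x b) : ℂ) := ebad_comm3 _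
      _ = ∑ c, (∑ a, (corr (gibbs n β g) (a, c) : ℂ) * (spin (x a) : ℂ))
            * ∑ b, resolvent n ζ g c b * (spin (x b) : ℂ) := by
          refine Finset.sum_congr rfl fun c _ => ?_
          rw [Finset.sum_mul_sum]
          refine Finset.sum_congr rfl fun a _ => Finset.sum_congr rfl fun b _ => ?_
          ring
  have hfour : four n ζ β g = ∑ x, (gibbs n β g x : ℂ) *
      ((∑ a, (spin (x a) : ℂ) * ∑ b, (corr (gibbs n β g) (a, b) : ℂ) * (spin (x b) : ℂ))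
        * (∑ c, (∑ a, (corr (gibbs n β g) (a, c) : ℂ) * (spin (x a) : ℂ))
            * ∑ b, resolvent n ζ g c b * (spin (x b) : ℂ))) := by
    unfold four
    refine Finset.sum_congr rfl fun x _ => ?_
    rw [hA x, hB x, mul_assoc]
  rw [hfour]
  refine ebad_avg β g _ _ fun x => ?_
  have h1 : ‖∑ a, (spin (x a) : ℂ) *
      ∑ b, (corr (gibbs n β g) (a, b) : ℂ) * (spin (x b) : ℂ)‖ ^ 2
      ≤ (n : ℝ) * (corrSq (gibbs n β g) * (n : ℝ)) := by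
    refine (ebad_cs_sq _ _).trans ?_
    rw [ebad_spin x]
    refine mul_le_mul_of_nonneg_left ?_ (Nat.cast_nonneg n)
    have h := ebad_Mv (gibbs n β g) (fun b => (spin (x b) : ℂ))
    rwa [ebad_spin x] at h
  have h2 : ‖∑ c, (∑ a, (corr (gibbs n β g) (a, c) : ℂ) * (spin (x a) : ℂ))
            * ∑ b, resolvent n ζ g c b * (spin (x b) : ℂ)‖ ^ 2
      ≤ (corrSq (gibbs n β g) * (n : ℝ)) * ((n : ℝ) / ζ.im ^ 2) := by
    refine (ebad_cs_sq _ _).trans ?_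
    have h3 := ebad_Mv' (gibbs n β g) (fun b => (spin (x b) : ℂ))
    rw [ebad_spin x] at h3
    exact mul_le_mul h3 (ebad_G ζ hζ g _ _ (ebad_spin x).le)
      (Finset.sum_nonneg fun a _ => sq_nonneg _) (mul_nonneg hW0 (Nat.cast_nonneg n))
  refine ebad_prod _ _ _ _ _ h1 h2 (div_nonneg (mul_nonneg (sq_nonneg _) hW0) hζ.le)
    (le_of_eq ?_)
  field_simp

/-- The inequality behind the bound of the derivative of the weight. -/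
lemma ebad_dwgt (n : ℕ) (hn : 1 ≤ n) (β κ θ : ℝ) (hκ : 0 < κ) (hθ : 0 ≤ θ)
    (g : Fin n × Fin n → ℝ) :
    |dwgt n β κ θ g| * corrSq (gibbs n β g) ≤ θ * wgt n β κ θ g := by
  have hn0 : (0 : ℝ) < n := by exact_mod_cast hn
  have hW0 : 0 ≤ corrSq (gibbs n β g) := Finset.sum_nonneg fun p _ => sq_nonneg _
  have hbase : 0 < corrSq (gibbs n β g) / (n : ℝ) ^ 2 + κ :=
    add_pos_of_nonneg_of_pos (div_nonneg hW0 (sq_nonneg _)) hκ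
  have hp : 0 < (corrSq (gibbs n β g) / (n : ℝ) ^ 2 + κ) ^ (-θ - 1) :=
    Real.rpow_pos_of_pos hbase _
  have hsplit : (corrSq (gibbs n β g) / (n : ℝ) ^ 2 + κ) ^ (-θ)
      = (corrSq (gibbs n β g) / (n : ℝ) ^ 2 + κ) ^ (-θ - 1)
        * (corrSq (gibbs n β g) / (n : ℝ) ^ 2 + κ) := by
    calc (corrSq (gibbs n β g) / (n : ℝ) ^ 2 + κ) ^ (-θ)
        = (corrSq (gibbs n β g) / (n : ℝ) ^ 2 + κ) ^ ((-θ - 1) + 1) := by
          congr 1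
          ring
      _ = _ := Real.rpow_add_one hbase.ne' _
  unfold dwgt wgt
  rw [hsplit, abs_div, abs_mul, abs_neg, abs_of_nonneg hθ, abs_of_pos hp,
    abs_of_pos (by positivity : (0 : ℝ) < (n : ℝ) ^ 2)]
  have e : θ * (corrSq (gibbs n β g) / (n : ℝ) ^ 2 + κ) ^ (-θ - 1) / (n : ℝ) ^ 2
        * corrSq (gibbs n β g)
      = θ * ((corrSq (gibbs n β g) / (n : ℝ) ^ 2 + κ) ^ (-θ - 1)
        * (corrSq (gibbs n β g) / (n : ℝ) ^ 2)) := by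
    ring
  rw [e]
  exact mul_le_mul_of_nonneg_left (mul_le_mul_of_nonneg_left (by linarith) hp.le) hθ

/-- The final assembly, as an inequality between abstract quantities. -/
lemma ebad_final (n : ℕ) (hn : 1 ≤ n) (ζ : ℂ) (hζ : 0 < ζ.im) (β θ ω ω' W : ℝ)
    (hβ : 0 ≤ β) (hω : 0 < ω) (hW0 : 0 ≤ W) (hWn : W ≤ (n : ℝ) ^ 2)
    (hK : |ω'| * W ≤ θ * ω) (X1 X2 X3 X4 X5 S : ℂ)
    (h1 : ‖X1‖ ≤ (n : ℝ) / ζ.im ^ 2) (h2 : ‖X2‖ ≤ (n : ℝ) / ζ.im ^ 2)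
    (h3 : ‖X3‖ ≤ W / ζ.im) (h4 : ‖X4‖ ≤ (n : ℝ) ^ 2 * W / ζ.im)
    (h5 : ‖X5‖ ≤ (n : ℝ) / ζ.im) (h6 : ‖S‖ ≤ 1 / ζ.im) :
    ‖(n : ℂ) * (ω : ℂ) + (n : ℂ)⁻¹ * (ω : ℂ) * (X1 - 2 * X2)
        - ((β : ℂ) / (n : ℂ)) * (ω : ℂ) * X3
        + (2 * (β : ℂ) / (n : ℂ)) * (ω' : ℂ) * (X4 - (W : ℂ) * X3)
        - (ω : ℂ) * ((ζ - (β : ℂ) - S) * X5)‖
      ≤ (n : ℝ) * ω * (1 + 3 / ζ.im ^ 2 + (2 * β + 4 * β * θ + ‖ζ‖ + 1 / ζ.im) / ζ.im) := by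
  have hn1 : (1 : ℝ) ≤ n := by exact_mod_cast hn
  have hn0 : (0 : ℝ) < n := by linarith
  have hη2 : 0 < ζ.im ^ 2 := by positivity
  have e1 : ‖(n : ℂ) * (ω : ℂ)‖ = n * ω := by
    rw [norm_mul, Complex.norm_natCast, Complex.norm_real, Real.norm_of_nonneg hω.le]
  have e2 : ‖(n : ℂ)⁻¹ * (ω : ℂ) * (X1 - 2 * X2)‖
      ≤ (n : ℝ)⁻¹ * ω * (3 * ((n : ℝ) / ζ.im ^ 2)) := by
    rw [norm_mul, norm_mul, norm_inv, Complex.norm_natCast, Complex.norm_real,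
      Real.norm_of_nonneg hω.le]
    refine mul_le_mul_of_nonneg_left ?_ (by positivity)
    calc ‖X1 - 2 * X2‖ ≤ ‖X1‖ + ‖2 * X2‖ := norm_sub_le _ _
      _ = ‖X1‖ + 2 * ‖X2‖ := by rw [norm_mul, Complex.norm_two]
      _ ≤ 3 * ((n : ℝ) / ζ.im ^ 2) := by linarith
  have e3 : ‖((β : ℂ) / (n : ℂ)) * (ω : ℂ) * X3‖ ≤ β / n * ω * (W / ζ.im) := by
    rw [norm_mul, norm_mul, norm_div, Complex.norm_natCast, Complex.norm_real,
      Complex.norm_real, Real.norm_of_nonneg hω.le, Real.norm_of_nonneg hβ]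
    exact mul_le_mul_of_nonneg_left h3 (by positivity)
  have e4 : ‖(2 * (β : ℂ) / (n : ℂ)) * (ω' : ℂ) * (X4 - (W : ℂ) * X3)‖
      ≤ 2 * β / n * |ω'| * ((n : ℝ) ^ 2 * W / ζ.im + W * (W / ζ.im)) := by
    rw [norm_mul, norm_mul, norm_div, norm_mul, Complex.norm_two, Complex.norm_natCast,
      Complex.norm_real, Complex.norm_real, Real.norm_of_nonneg hβ, Real.norm_eq_abs]
    refine mul_le_mul_of_nonneg_left ?_ (by positivity)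
    calc ‖X4 - (W : ℂ) * X3‖ ≤ ‖X4‖ + ‖(W : ℂ) * X3‖ := norm_sub_le _ _
      _ = ‖X4‖ + W * ‖X3‖ := by rw [norm_mul, Complex.norm_real, Real.norm_of_nonneg hW0]
      _ ≤ (n : ℝ) ^ 2 * W / ζ.im + W * (W / ζ.im) :=
          add_le_add h4 (mul_le_mul_of_nonneg_left h3 hW0)
  have e5 : ‖(ω : ℂ) * ((ζ - (β : ℂ) - S) * X5)‖
      ≤ ω * ((‖ζ‖ + β + 1 / ζ.im) * ((n : ℝ) / ζ.im)) := by
    rw [norm_mul, norm_mul, Complex.norm_real, Real.norm_of_nonneg hω.le]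
    refine mul_le_mul_of_nonneg_left ?_ hω.le
    have h7 : ‖ζ - (β : ℂ) - S‖ ≤ ‖ζ‖ + β + 1 / ζ.im := by
      have a1 : ‖ζ - (β : ℂ) - S‖ ≤ ‖ζ - (β : ℂ)‖ + ‖S‖ := norm_sub_le _ _
      have a2 : ‖ζ - (β : ℂ)‖ ≤ ‖ζ‖ + ‖(β : ℂ)‖ := norm_sub_le _ _
      rw [Complex.norm_real, Real.norm_of_nonneg hβ] at a2
      linarith
    exact mul_le_mul h7 h5 (norm_nonneg _) (by positivity)
  have htri : ‖(n : ℂ) * (ω : ℂ) + (n : ℂ)⁻¹ * (ω : ℂ) * (X1 - 2 * X2)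
        - ((β : ℂ) / (n : ℂ)) * (ω : ℂ) * X3
        + (2 * (β : ℂ) / (n : ℂ)) * (ω' : ℂ) * (X4 - (W : ℂ) * X3)
        - (ω : ℂ) * ((ζ - (β : ℂ) - S) * X5)‖
      ≤ ‖(n : ℂ) * (ω : ℂ)‖ + ‖(n : ℂ)⁻¹ * (ω : ℂ) * (X1 - 2 * X2)‖
        + ‖((β : ℂ) / (n : ℂ)) * (ω : ℂ) * X3‖
        + ‖(2 * (β : ℂ) / (n : ℂ)) * (ω' : ℂ) * (X4 - (W : ℂ) * X3)‖
        + ‖(ω : ℂ) * ((ζ - (β : ℂ) - S) * X5)‖ := by
    refine (norm_sub_le _ _).trans (add_le_add_left ?_ _)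
    refine (norm_add_le _ _).trans (add_le_add_left ?_ _)
    refine (norm_sub_le _ _).trans (add_le_add_left ?_ _)
    exact norm_add_le _ _
  have f2 : (n : ℝ)⁻¹ * ω * (3 * ((n : ℝ) / ζ.im ^ 2)) ≤ n * ω * (3 / ζ.im ^ 2) := by
    have e : (n : ℝ)⁻¹ * ω * (3 * ((n : ℝ) / ζ.im ^ 2)) = ω * (3 / ζ.im ^ 2) := by
      field_simp
    rw [e]
    exact mul_le_mul_of_nonneg_right (le_mul_of_one_le_left hω.le hn1) (by positivity)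
  have f3 : β / n * ω * (W / ζ.im) ≤ n * ω * (β / ζ.im) := by
    calc β / n * ω * (W / ζ.im) ≤ β / n * ω * ((n : ℝ) ^ 2 / ζ.im) :=
          mul_le_mul_of_nonneg_left (div_le_div_of_nonneg_right hWn hζ.le) (by positivity)
      _ = n * ω * (β / ζ.im) := by field_simp
  have f4 : 2 * β / n * |ω'| * ((n : ℝ) ^ 2 * W / ζ.im + W * (W / ζ.im))
      ≤ n * ω * (4 * β * θ / ζ.im) := by
    have g1 : W * (W / ζ.im) ≤ (n : ℝ) ^ 2 * W / ζ.im := by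
      rw [← mul_div_assoc]
      exact div_le_div_of_nonneg_right (mul_le_mul_of_nonneg_right hWn hW0) hζ.le
    calc 2 * β / n * |ω'| * ((n : ℝ) ^ 2 * W / ζ.im + W * (W / ζ.im))
        ≤ 2 * β / n * |ω'| * (2 * ((n : ℝ) ^ 2 * W / ζ.im)) :=
          mul_le_mul_of_nonneg_left (by linarith) (by positivity)
      _ = 4 * β * n / ζ.im * (|ω'| * W) := by field_simp; ring
      _ ≤ 4 * β * n / ζ.im * (θ * ω) := mul_le_mul_of_nonneg_left hK (by positivity)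
      _ = n * ω * (4 * β * θ / ζ.im) := by ring
  have f5 : (n : ℝ) * ω * (1 + 3 / ζ.im ^ 2 + (2 * β + 4 * β * θ + ‖ζ‖ + 1 / ζ.im) / ζ.im)
      = n * ω + n * ω * (3 / ζ.im ^ 2) + n * ω * (β / ζ.im) + n * ω * (4 * β * θ / ζ.im)
        + ω * ((‖ζ‖ + β + 1 / ζ.im) * ((n : ℝ) / ζ.im)) := by
    field_simp
    ring
  rw [f5]
  linarith

/-- Crude bound for the residual. -/
theorem norm_resid_le (n : ℕ) (hn : 1 ≤ n) (ζ : ℂ) (hζ : 0 < ζ.im) (β κ θ : ℝ)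
    (hβ : 0 ≤ β) (hκ : 0 < κ) (hθ : 0 ≤ θ) (g : Fin n × Fin n → ℝ) :
    ‖resid n ζ β κ θ g‖ ≤ (n : ℝ) * wgt n β κ θ g *
      (1 + 3 / ζ.im ^ 2 + (2 * β + 4 * β * θ + ‖ζ‖ + 1 / ζ.im) / ζ.im) := by
  have hW0 : 0 ≤ corrSq (gibbs n β g) := Finset.sum_nonneg fun p _ => sq_nonneg _
  have hω : 0 < wgt n β κ θ g :=
    Real.rpow_pos_of_pos (add_pos_of_nonneg_of_pos (div_nonneg hW0 (sq_nonneg _)) hκ) _
  have h6 : ‖stieltjes n ζ g‖ ≤ 1 / ζ.im := by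
    have h := norm_stieltjes_le ζ hζ.ne' g
    rwa [abs_of_pos hζ] at h
  unfold resid
  exact ebad_final n hn ζ hζ β θ _ _ _ hβ hω hW0 (corrSq_le β g)
    (ebad_dwgt n hn β κ θ hκ hθ g) _ _ _ _ _ _ (ebad_tG2M_le n ζ hζ β g)
    (ebad_dGM_le n ζ hζ β g) (ebad_tGM2_le n ζ hζ β g) (ebad_four_le n ζ hζ β g)
    (ebad_tGM_le n ζ hζ β g) h6

end Vale.Agent.H40.SK
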