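import Vale.Agent.H40.Res.IsingDefs

/-!
TASK RES-EGOOD.  Pointwise lower bound for the real part of the residual when the coupling
matrix has no eigenvalue above `a < Re ζ` and `Re (ζ - β - s) ≤ 0` (`s = stieltjes n ζ g`).

Black boxes (stubs of `Resolvent.lean`): `resolvent_symm`, `resolvent_opNorm_le_of_edge`,
`resolvent_qform_im`, `resolvent_qform_re_nonneg`, `stieltjes_im_nonpos`,
`stieltjes_im_ge_of_edge`; from landed files: `abs_corr_gibbs_le`, `corr_swap`, `corrSq_le`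
(`W ≤ n²`), `gibbs_pos`, `gibbs_sum`, `corr` (definition: `M_ab = ∑_x μ(x) s_a(x) s_b(x)`).

Notation: `δ = Re ζ - a > 0`, `η = Im ζ > 0`, `μ = gibbs n β g`, `M_ab = corr μ (a,b)`,
`W = corrSq μ = ∑_{a,b} M_ab²`, `w = W/n²`, `ω = wgt > 0`, `ω' = dwgt`, `G = resolvent n ζ g`,
`x` = the real vector of spins of a configuration (`|x|² = n`).  Off `edgeBad n a`:
`|G v| ≤ |v|/δ` for complex `v` (`resolvent_opNorm_le_of_edge`), hence `|uᵀ G v| ≤ |u| |v| / δ`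
and `|G_ab| ≤ 1/δ`.
Bounds of the five terms of `resid` (real parts):
(i)   `tG2M = ∑_x μ(x) ∑_a ((G x)_a)²`, so `|tG2M| ≤ n/δ²`.
(ii)  `dGM = ∑_i G_ii (G M)_ii`, ` (G M)_ii = ∑_x μ(x) x_i (G x)_i`,
      `∑_i |(G M)_ii| ≤ ∑_x μ(x) √n |G x| ≤ n/δ`, `|G_ii| ≤ 1/δ`, so `|dGM| ≤ n/δ²`.
(iii) `tGM2 = ∑_c (M e_c)ᵀ G (M e_c)`, so `|tGM2| ≤ ∑_c |M e_c|²/δ = W/δ`.
(iv)  `four = ∑_x μ(x) (xᵀ M x) ((M x)ᵀ (G x))`, `|M x|² ≤ W n` (Cauchy-Schwarz),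
      `|xᵀ M x| ≤ n √W`, `|(M x)ᵀ G x| ≤ √(W n) √n/δ`, so `|four| ≤ n² W/δ`; with (iii) and
      `W ≤ n²`: `|four - W tGM2| ≤ 2 n² W/δ`.  And `|ω'| = θ (w+κ)^(-θ-1)/n²`, so
      ` (2β/n) |ω'| 2 n² W/δ = (4βθ/δ) n ω * w/(w+κ) ≤ (4βθ/δ) n ω`.
(v)   `tGM = ∑_x μ(x) xᵀ G x`; `Re (xᵀ G x) ≥ 0` (`resolvent_qform_re_nonneg`) and
      `Im (xᵀ G x) = -η |G x|² ∈ [-η n/δ², 0]` (`resolvent_qform_im`); `Im s ∈ [-η/δ², 0]`.
      `Re ((ζ - β - s) tGM) = (Re ζ - β - Re s) Re tGM - (η - Im s) Im tGM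
          ≤ 0 + (η + η/δ²)(η n/δ²) = n η² (1 + 1/δ²)/δ²`.
Total: `Re resid ≥ n ω - (ω/n)(3n/δ²) - (β/n) ω W/δ - (4βθ/δ) n ω - ω n η² (1 + 1/δ²)/δ²`.
-/

namespace Vale.Agent.H40.SK

open MeasureTheory ProbabilityTheory Real

section egood

variable {n : ℕ}

/-- Cauchy-Schwarz for complex finite sums, squared form. -/
lemma egood_cs {ι : Type*} [Fintype ι] (u z : ι → ℂ) :
    ‖∑ c, u c * z c‖ ^ 2 ≤ (∑ c, ‖u c‖ ^ 2) * (∑ c, ‖z c‖ ^ 2) := by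
  have h1 : ‖∑ c, u c * z c‖ ≤ ∑ c, ‖u c‖ * ‖z c‖ :=
    (norm_sum_le _ _).trans (Finset.sum_le_sum fun c _ => (norm_mul _ _).le)
  exact (pow_le_pow_left₀ (norm_nonneg _) h1 2).trans
    (Finset.sum_mul_sq_le_sq_mul_sq _ _ _)

lemma egood_norm_spin (b : Bool) : ‖(spin b : ℂ)‖ ^ 2 = 1 := by
  rw [Complex.norm_real, Real.norm_eq_abs, sq_abs, spin_sq]

lemma egood_norm_spin_one (b : Bool) : ‖(spin b : ℂ)‖ = 1 := by
  have h := egood_norm_spin b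
  have h2 : ‖(spin b : ℂ)‖ ^ 2 = 1 ^ 2 := by rw [h]; norm_num
  exact (sq_eq_sq₀ (norm_nonneg _) zero_le_one).mp h2

lemma egood_sum_norm_spin (x : Fin n → Bool) : ∑ b, ‖(spin (x b) : ℂ)‖ ^ 2 = n := by
  rw [Finset.sum_congr rfl fun b _ => egood_norm_spin (x b)]
  simp

lemma egood_norm_real_sq (r : ℝ) : ‖(r : ℂ)‖ ^ 2 = r ^ 2 := by
  rw [Complex.norm_real, Real.norm_eq_abs, sq_abs]

/-- The vector `G x` for the spin vector of the configuration `x`. -/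
noncomputable def egood_Gx (n : ℕ) (ζ : ℂ) (g : Fin n × Fin n → ℝ) (x : Fin n → Bool)
    (c : Fin n) : ℂ :=
  ∑ b, resolvent n ζ g c b * (spin (x b) : ℂ)

/-- The vector `M x` for the spin vector of the configuration `x`. -/
noncomputable def egood_Mx (n : ℕ) (β : ℝ) (g : Fin n × Fin n → ℝ) (x : Fin n → Bool)
    (c : Fin n) : ℂ :=
  ∑ a, (corr (gibbs n β g) (c, a) : ℂ) * (spin (x a) : ℂ)

lemma egood_corr_symm (β : ℝ) (g : Fin n × Fin n → ℝ) (a b : Fin n) :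
    corr (gibbs n β g) (a, b) = corr (gibbs n β g) (b, a) :=
  (corr_swap (gibbs n β g) (b, a)).symm ▸ rfl

lemma egood_corrSq_eq (β : ℝ) (g : Fin n × Fin n → ℝ) :
    corrSq (gibbs n β g) = ∑ c, ∑ a, corr (gibbs n β g) (c, a) ^ 2 := by
  unfold corrSq
  rw [Fintype.sum_prod_type]

lemma egood_corrSq_nonneg (β : ℝ) (g : Fin n × Fin n → ℝ) : 0 ≤ corrSq (gibbs n β g) := by
  unfold corrSq
  exact Finset.sum_nonneg fun p _ => sq_nonneg _

/-- `|G x|² ≤ n / D²` under an operator norm bound `D⁻¹`. -/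
lemma egood_Gx_le {ζ : ℂ} {g : Fin n × Fin n → ℝ} {D : ℝ}
    (hop : ∀ v : Fin n → ℂ,
      ∑ c, ‖∑ b, resolvent n ζ g c b * v b‖ ^ 2 ≤ (∑ b, ‖v b‖ ^ 2) / D ^ 2)
    (x : Fin n → Bool) : ∑ c, ‖egood_Gx n ζ g x c‖ ^ 2 ≤ (n : ℝ) / D ^ 2 := by
  have h := hop (fun b => (spin (x b) : ℂ))
  rw [egood_sum_norm_spin] at h
  exact h

/-- Bilinear bound `|uᵀ G v|² ≤ |u|² |v|² / D²`. -/
lemma egood_bilin {ζ : ℂ} {g : Fin n × Fin n → ℝ} {D : ℝ}
    (hop : ∀ v : Fin n → ℂ,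
      ∑ c, ‖∑ b, resolvent n ζ g c b * v b‖ ^ 2 ≤ (∑ b, ‖v b‖ ^ 2) / D ^ 2)
    (u v : Fin n → ℂ) :
    ‖∑ c, u c * ∑ b, resolvent n ζ g c b * v b‖ ^ 2
      ≤ (∑ c, ‖u c‖ ^ 2) * ((∑ b, ‖v b‖ ^ 2) / D ^ 2) :=
  (egood_cs u _).trans
    (mul_le_mul_of_nonneg_left (hop v) (Finset.sum_nonneg fun _ _ => sq_nonneg _))

/-- Entry bound `|G_ab| ≤ 1/D`. -/
lemma egood_entry_le {ζ : ℂ} {g : Fin n × Fin n → ℝ} {D : ℝ} (hD : 0 < D)
    (hop : ∀ v : Fin n → ℂ,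
      ∑ c, ‖∑ b, resolvent n ζ g c b * v b‖ ^ 2 ≤ (∑ b, ‖v b‖ ^ 2) / D ^ 2)
    (a b : Fin n) : ‖resolvent n ζ g a b‖ ≤ 1 / D := by
  classical
  have h := hop (fun j => if j = b then 1 else 0)
  have h1 : ∀ c, ∑ j, resolvent n ζ g c j * (if j = b then (1 : ℂ) else 0)
      = resolvent n ζ g c b := by
    intro c
    simp
  have h2 : ∑ j : Fin n, ‖(if j = b then (1 : ℂ) else 0)‖ ^ 2 = 1 := by
    have : ∀ j : Fin n, ‖(if j = b then (1 : ℂ) else 0)‖ ^ 2 = if j = b then 1 else 0 := by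
      intro j
      split_ifs <;> simp
    simp_rw [this]
    simp
  simp_rw [h1] at h
  rw [h2] at h
  have h3 : ‖resolvent n ζ g a b‖ ^ 2 ≤ ∑ c, ‖resolvent n ζ g c b‖ ^ 2 :=
    Finset.single_le_sum (f := fun c => ‖resolvent n ζ g c b‖ ^ 2) (fun c _ => sq_nonneg _)
      (Finset.mem_univ a)
  have h4 : ‖resolvent n ζ g a b‖ ^ 2 ≤ (1 / D) ^ 2 := by
    rw [one_div_pow]
    exact h3.trans h
  exact (sq_le_sq₀ (norm_nonneg _) (by positivity)).mp h4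

/-- `∑_i |(G x)_i| ≤ n / D`. -/
lemma egood_Gx_l1_le {ζ : ℂ} {g : Fin n × Fin n → ℝ} {D : ℝ} (hD : 0 < D)
    (hop : ∀ v : Fin n → ℂ,
      ∑ c, ‖∑ b, resolvent n ζ g c b * v b‖ ^ 2 ≤ (∑ b, ‖v b‖ ^ 2) / D ^ 2)
    (x : Fin n → Bool) : ∑ c, ‖egood_Gx n ζ g x c‖ ≤ (n : ℝ) / D := by
  have h1 : (∑ c, (1 : ℝ) * ‖egood_Gx n ζ g x c‖) ^ 2
      ≤ (∑ _c : Fin n, (1 : ℝ) ^ 2) * ∑ c, ‖egood_Gx n ζ g x c‖ ^ 2 :=
    Finset.sum_mul_sq_le_sq_mul_sq _ _ _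
  have h2 : (∑ _c : Fin n, (1 : ℝ) ^ 2) = n := by simp
  have h3 : (∑ c, ‖egood_Gx n ζ g x c‖) ^ 2 ≤ ((n : ℝ) / D) ^ 2 := by
    have h4 := egood_Gx_le hop x
    simp only [one_mul] at h1
    rw [h2] at h1
    refine h1.trans ?_
    rw [div_pow, sq (n : ℝ), mul_div_assoc]
    exact mul_le_mul_of_nonneg_left h4 (Nat.cast_nonneg n)
  exact (sq_le_sq₀ (Finset.sum_nonneg fun c _ => norm_nonneg _) (by positivity)).mp h3

/-- `|M x|² ≤ W n`. -/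
lemma egood_Mx_le (β : ℝ) (g : Fin n × Fin n → ℝ) (x : Fin n → Bool) :
    ∑ c, ‖egood_Mx n β g x c‖ ^ 2 ≤ corrSq (gibbs n β g) * n := by
  rw [egood_corrSq_eq, Finset.sum_mul]
  refine Finset.sum_le_sum fun c _ => ?_
  unfold egood_Mx
  refine (egood_cs _ _).trans ?_
  rw [egood_sum_norm_spin]
  simp_rw [egood_norm_real_sq]
  exact le_rfl

/-- A Gibbs average of quantities bounded by `B` is bounded by `B`. -/
lemma egood_avg_le (β : ℝ) (g : Fin n × Fin n → ℝ) (T : (Fin n → Bool) → ℂ) (B : ℝ)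
    (hT : ∀ x, ‖T x‖ ≤ B) : ‖∑ x, (gibbs n β g x : ℂ) * T x‖ ≤ B := by
  calc ‖∑ x, (gibbs n β g x : ℂ) * T x‖
      ≤ ∑ x, ‖(gibbs n β g x : ℂ) * T x‖ := norm_sum_le _ _
    _ = ∑ x, gibbs n β g x * ‖T x‖ := by
        refine Finset.sum_congr rfl fun x _ => ?_
        rw [norm_mul, Complex.norm_real, Real.norm_eq_abs, abs_of_pos (gibbs_pos n β g x)]
    _ ≤ ∑ x, gibbs n β g x * B :=
        Finset.sum_le_sum fun x _ => mul_le_mul_of_nonneg_left (hT x) (gibbs_pos n β g x).le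
    _ = B := by rw [← Finset.sum_mul, gibbs_sum, one_mul]

lemma egood_corr_cast (β : ℝ) (g : Fin n × Fin n → ℝ) (a b : Fin n) :
    (corr (gibbs n β g) (a, b) : ℂ)
      = ∑ x, (gibbs n β g x : ℂ) * ((spin (x a) : ℂ) * (spin (x b) : ℂ)) := by
  unfold corr
  push_cast
  rfl

/-- Expansion of a trace against the correlation matrix as a Gibbs average. -/
lemma egood_expand (β : ℝ) (g : Fin n × Fin n → ℝ) (K : Fin n → Fin n → ℂ) :
    ∑ a, ∑ c, K a c * (corr (gibbs n β g) (c, a) : ℂ)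
      = ∑ x, (gibbs n β g x : ℂ) * ∑ a, ∑ c, K a c * (spin (x c) : ℂ) * (spin (x a) : ℂ) := by
  simp_rw [egood_corr_cast, Finset.mul_sum]
  calc ∑ a, ∑ c, ∑ x, K a c * ((gibbs n β g x : ℂ) * ((spin (x c) : ℂ) * (spin (x a) : ℂ)))
      = ∑ a, ∑ x, ∑ c, K a c * ((gibbs n β g x : ℂ) * ((spin (x c) : ℂ) * (spin (x a) : ℂ))) :=
        Finset.sum_congr rfl fun a _ => Finset.sum_comm
    _ = ∑ x, ∑ a, ∑ c, K a c * ((gibbs n β g x : ℂ) * ((spin (x c) : ℂ) * (spin (x a) : ℂ))) :=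
        Finset.sum_comm
    _ = ∑ x, ∑ a, ∑ c, (gibbs n β g x : ℂ) * (K a c * (spin (x c) : ℂ) * (spin (x a) : ℂ)) := by
        refine Finset.sum_congr rfl fun x _ => Finset.sum_congr rfl fun a _ =>
          Finset.sum_congr rfl fun c _ => ?_
        ring

/-- `tr (G M)` as a Gibbs average of quadratic forms. -/
lemma egood_tGM_eq (ζ : ℂ) (β : ℝ) (g : Fin n × Fin n → ℝ) :
    tGM n ζ β g = ∑ x, (gibbs n β g x : ℂ)
      * ∑ c, ∑ b, (spin (x c) : ℂ) * resolvent n ζ g c b * (spin (x b) : ℂ) := by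
  unfold tGM
  rw [egood_expand β g (fun a c => resolvent n ζ g a c)]
  refine Finset.sum_congr rfl fun x _ => ?_
  congr 1
  refine Finset.sum_congr rfl fun a _ => Finset.sum_congr rfl fun c _ => ?_
  ring

/-- `tr (G² M)` as a Gibbs average. -/
lemma egood_tG2M_eq (ζ : ℂ) (β : ℝ) (g : Fin n × Fin n → ℝ)
    (hsymm : ∀ a b, resolvent n ζ g a b = resolvent n ζ g b a) :
    tG2M n ζ β g = ∑ x, (gibbs n β g x : ℂ)
      * ∑ b, egood_Gx n ζ g x b * egood_Gx n ζ g x b := by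
  have h0 : tG2M n ζ β g = ∑ a, ∑ c, (∑ b, resolvent n ζ g a b * resolvent n ζ g b c)
      * (corr (gibbs n β g) (c, a) : ℂ) := by
    unfold tG2M
    refine Finset.sum_congr rfl fun a _ => ?_
    rw [Finset.sum_comm]
    refine Finset.sum_congr rfl fun c _ => ?_
    rw [Finset.sum_mul]
  rw [h0, egood_expand β g (fun a c => ∑ b, resolvent n ζ g a b * resolvent n ζ g b c)]
  refine Finset.sum_congr rfl fun x _ => ?_
  congr 1
  unfold egood_Gx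
  simp_rw [Finset.sum_mul_sum, Finset.sum_mul]
  calc ∑ a, ∑ c, ∑ b, resolvent n ζ g a b * resolvent n ζ g b c * (spin (x c) : ℂ)
        * (spin (x a) : ℂ)
      = ∑ a, ∑ b, ∑ c, resolvent n ζ g a b * resolvent n ζ g b c * (spin (x c) : ℂ)
        * (spin (x a) : ℂ) := Finset.sum_congr rfl fun a _ => Finset.sum_comm
    _ = ∑ b, ∑ a, ∑ c, resolvent n ζ g a b * resolvent n ζ g b c * (spin (x c) : ℂ)
        * (spin (x a) : ℂ) := Finset.sum_comm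
    _ = ∑ b, ∑ a, ∑ c, resolvent n ζ g b a * (spin (x a) : ℂ)
        * (resolvent n ζ g b c * (spin (x c) : ℂ)) := by
        refine Finset.sum_congr rfl fun b _ => Finset.sum_congr rfl fun a _ =>
          Finset.sum_congr rfl fun c _ => ?_
        rw [hsymm a b]
        ring

/-- `∑_i G_ii (G M)_ii` as a Gibbs average. -/
lemma egood_dGM_eq (ζ : ℂ) (β : ℝ) (g : Fin n × Fin n → ℝ) :
    dGM n ζ β g = ∑ x, (gibbs n β g x : ℂ)
      * ∑ i, resolvent n ζ g i i * ((spin (x i) : ℂ) * egood_Gx n ζ g x i) := by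
  have h0 : dGM n ζ β g = ∑ i, ∑ j, (resolvent n ζ g i i * resolvent n ζ g i j)
      * (corr (gibbs n β g) (j, i) : ℂ) := by
    unfold dGM
    refine Finset.sum_congr rfl fun i _ => ?_
    rw [Finset.mul_sum]
    refine Finset.sum_congr rfl fun j _ => ?_
    ring
  rw [h0, egood_expand β g (fun i j => resolvent n ζ g i i * resolvent n ζ g i j)]
  refine Finset.sum_congr rfl fun x _ => ?_
  congr 1
  unfold egood_Gx
  refine Finset.sum_congr rfl fun i _ => ?_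
  rw [Finset.mul_sum, Finset.mul_sum]
  refine Finset.sum_congr rfl fun j _ => ?_
  ring

/-- `tr (G M²)` column by column. -/
lemma egood_tGM2_eq (ζ : ℂ) (β : ℝ) (g : Fin n × Fin n → ℝ) :
    tGM2 n ζ β g = ∑ c, ∑ a, (corr (gibbs n β g) (a, c) : ℂ)
      * ∑ b, resolvent n ζ g a b * (corr (gibbs n β g) (b, c) : ℂ) := by
  unfold tGM2
  simp_rw [Finset.mul_sum]
  calc ∑ a, ∑ b, ∑ c, resolvent n ζ g a b * (corr (gibbs n β g) (b, c) : ℂ)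
        * (corr (gibbs n β g) (c, a) : ℂ)
      = ∑ a, ∑ c, ∑ b, resolvent n ζ g a b * (corr (gibbs n β g) (b, c) : ℂ)
        * (corr (gibbs n β g) (c, a) : ℂ) := Finset.sum_congr rfl fun a _ => Finset.sum_comm
    _ = ∑ c, ∑ a, ∑ b, resolvent n ζ g a b * (corr (gibbs n β g) (b, c) : ℂ)
        * (corr (gibbs n β g) (c, a) : ℂ) := Finset.sum_comm
    _ = ∑ c, ∑ a, ∑ b, (corr (gibbs n β g) (a, c) : ℂ)
        * (resolvent n ζ g a b * (corr (gibbs n β g) (b, c) : ℂ)) := by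
        refine Finset.sum_congr rfl fun c _ => Finset.sum_congr rfl fun a _ =>
          Finset.sum_congr rfl fun b _ => ?_
        rw [egood_corr_symm β g c a]
        ring

/-- The first factor of `four`. -/
lemma egood_four_fst (β : ℝ) (g : Fin n × Fin n → ℝ) (x : Fin n → Bool) :
    ∑ a, ∑ b, (corr (gibbs n β g) (a, b) : ℂ) * (spin (x a) : ℂ) * (spin (x b) : ℂ)
      = ∑ a, (spin (x a) : ℂ) * egood_Mx n β g x a := by
  unfold egood_Mx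
  refine Finset.sum_congr rfl fun a _ => ?_
  rw [Finset.mul_sum]
  refine Finset.sum_congr rfl fun b _ => ?_
  ring

/-- The second factor of `four`. -/
lemma egood_four_snd (ζ : ℂ) (β : ℝ) (g : Fin n × Fin n → ℝ) (x : Fin n → Bool) :
    ∑ a, ∑ b, (∑ c, (corr (gibbs n β g) (a, c) : ℂ) * resolvent n ζ g c b)
        * (spin (x a) : ℂ) * (spin (x b) : ℂ)
      = ∑ c, egood_Mx n β g x c * egood_Gx n ζ g x c := by
  unfold egood_Mx egood_Gx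
  simp_rw [Finset.sum_mul_sum, Finset.sum_mul]
  calc ∑ a, ∑ b, ∑ c, (corr (gibbs n β g) (a, c) : ℂ) * resolvent n ζ g c b
        * (spin (x a) : ℂ) * (spin (x b) : ℂ)
      = ∑ a, ∑ c, ∑ b, (corr (gibbs n β g) (a, c) : ℂ) * resolvent n ζ g c b
        * (spin (x a) : ℂ) * (spin (x b) : ℂ) := Finset.sum_congr rfl fun a _ => Finset.sum_comm
    _ = ∑ c, ∑ a, ∑ b, (corr (gibbs n β g) (a, c) : ℂ) * resolvent n ζ g c b
        * (spin (x a) : ℂ) * (spin (x b) : ℂ) := Finset.sum_comm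
    _ = ∑ c, ∑ a, ∑ b, (corr (gibbs n β g) (c, a) : ℂ) * (spin (x a) : ℂ)
        * (resolvent n ζ g c b * (spin (x b) : ℂ)) := by
        refine Finset.sum_congr rfl fun c _ => Finset.sum_congr rfl fun a _ =>
          Finset.sum_congr rfl fun b _ => ?_
        rw [egood_corr_symm β g a c]
        ring

end egood

section egood2

variable {n : ℕ}

/-- `|tr (G² M)| ≤ n / D²`. -/
lemma egood_norm_tG2M_le {ζ : ℂ} {g : Fin n × Fin n → ℝ} {D : ℝ} (β : ℝ)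
    (hsymm : ∀ a b, resolvent n ζ g a b = resolvent n ζ g b a)
    (hop : ∀ v : Fin n → ℂ,
      ∑ c, ‖∑ b, resolvent n ζ g c b * v b‖ ^ 2 ≤ (∑ b, ‖v b‖ ^ 2) / D ^ 2) :
    ‖tG2M n ζ β g‖ ≤ (n : ℝ) / D ^ 2 := by
  rw [egood_tG2M_eq ζ β g hsymm]
  refine egood_avg_le β g _ _ fun x => ?_
  calc ‖∑ b, egood_Gx n ζ g x b * egood_Gx n ζ g x b‖
      ≤ ∑ b, ‖egood_Gx n ζ g x b * egood_Gx n ζ g x b‖ := norm_sum_le _ _
    _ = ∑ b, ‖egood_Gx n ζ g x b‖ ^ 2 := by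
        refine Finset.sum_congr rfl fun b _ => ?_
        rw [norm_mul, sq]
    _ ≤ (n : ℝ) / D ^ 2 := egood_Gx_le hop x

/-- `|∑_i G_ii (G M)_ii| ≤ n / D²`. -/
lemma egood_norm_dGM_le {ζ : ℂ} {g : Fin n × Fin n → ℝ} {D : ℝ} (β : ℝ) (hD : 0 < D)
    (hop : ∀ v : Fin n → ℂ,
      ∑ c, ‖∑ b, resolvent n ζ g c b * v b‖ ^ 2 ≤ (∑ b, ‖v b‖ ^ 2) / D ^ 2) :
    ‖dGM n ζ β g‖ ≤ (n : ℝ) / D ^ 2 := by
  rw [egood_dGM_eq ζ β g]
  refine egood_avg_le β g _ _ fun x => ?_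
  calc ‖∑ i, resolvent n ζ g i i * ((spin (x i) : ℂ) * egood_Gx n ζ g x i)‖
      ≤ ∑ i, ‖resolvent n ζ g i i * ((spin (x i) : ℂ) * egood_Gx n ζ g x i)‖ :=
        norm_sum_le _ _
    _ ≤ ∑ i, (1 / D) * ‖egood_Gx n ζ g x i‖ := by
        refine Finset.sum_le_sum fun i _ => ?_
        rw [norm_mul, norm_mul, egood_norm_spin_one, one_mul]
        exact mul_le_mul_of_nonneg_right (egood_entry_le hD hop i i) (norm_nonneg _)
    _ = (1 / D) * ∑ i, ‖egood_Gx n ζ g x i‖ := by rw [Finset.mul_sum]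
    _ ≤ (1 / D) * ((n : ℝ) / D) :=
        mul_le_mul_of_nonneg_left (egood_Gx_l1_le hD hop x) (by positivity)
    _ = (n : ℝ) / D ^ 2 := by
        field_simp

/-- `|tr (G M²)| ≤ W / D`. -/
lemma egood_norm_tGM2_le {ζ : ℂ} {g : Fin n × Fin n → ℝ} {D : ℝ} (β : ℝ) (hD : 0 < D)
    (hop : ∀ v : Fin n → ℂ,
      ∑ c, ‖∑ b, resolvent n ζ g c b * v b‖ ^ 2 ≤ (∑ b, ‖v b‖ ^ 2) / D ^ 2) :
    ‖tGM2 n ζ β g‖ ≤ corrSq (gibbs n β g) / D := by
  rw [egood_tGM2_eq ζ β g]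
  have hcol : ∀ c, ‖∑ a, (corr (gibbs n β g) (a, c) : ℂ)
      * ∑ b, resolvent n ζ g a b * (corr (gibbs n β g) (b, c) : ℂ)‖
      ≤ (∑ a, corr (gibbs n β g) (c, a) ^ 2) / D := by
    intro c
    have h := egood_bilin hop (fun a => (corr (gibbs n β g) (a, c) : ℂ))
      (fun b => (corr (gibbs n β g) (b, c) : ℂ))
    simp only [egood_norm_real_sq] at h
    have hs : ∑ a, corr (gibbs n β g) (a, c) ^ 2 = ∑ a, corr (gibbs n β g) (c, a) ^ 2 :=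
      Finset.sum_congr rfl fun a _ => by rw [egood_corr_symm β g a c]
    rw [hs] at h
    have hnn : 0 ≤ ∑ a, corr (gibbs n β g) (c, a) ^ 2 :=
      Finset.sum_nonneg fun a _ => sq_nonneg _
    refine (sq_le_sq₀ (norm_nonneg _) (div_nonneg hnn hD.le)).mp ?_
    refine h.trans (le_of_eq ?_)
    rw [div_pow]
    ring
  calc ‖∑ c, ∑ a, (corr (gibbs n β g) (a, c) : ℂ)
        * ∑ b, resolvent n ζ g a b * (corr (gibbs n β g) (b, c) : ℂ)‖
      ≤ ∑ c, ‖∑ a, (corr (gibbs n β g) (a, c) : ℂ)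
        * ∑ b, resolvent n ζ g a b * (corr (gibbs n β g) (b, c) : ℂ)‖ := norm_sum_le _ _
    _ ≤ ∑ c, (∑ a, corr (gibbs n β g) (c, a) ^ 2) / D :=
        Finset.sum_le_sum fun c _ => hcol c
    _ = corrSq (gibbs n β g) / D := by rw [← Finset.sum_div, ← egood_corrSq_eq]

/-- `|four| ≤ n² W / D`. -/
lemma egood_norm_four_le {ζ : ℂ} {g : Fin n × Fin n → ℝ} {D : ℝ} (β : ℝ) (hD : 0 < D)
    (hop : ∀ v : Fin n → ℂ,
      ∑ c, ‖∑ b, resolvent n ζ g c b * v b‖ ^ 2 ≤ (∑ b, ‖v b‖ ^ 2) / D ^ 2) :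
    ‖four n ζ β g‖ ≤ (n : ℝ) ^ 2 * corrSq (gibbs n β g) / D := by
  have hW := egood_corrSq_nonneg β g
  have hWn : 0 ≤ corrSq (gibbs n β g) * n := mul_nonneg hW (Nat.cast_nonneg n)
  have h0 : four n ζ β g = ∑ x, (gibbs n β g x : ℂ)
      * ((∑ a, (spin (x a) : ℂ) * egood_Mx n β g x a)
        * (∑ c, egood_Mx n β g x c * egood_Gx n ζ g x c)) := by
    unfold four
    refine Finset.sum_congr rfl fun x _ => ?_
    rw [egood_four_fst, egood_four_snd, mul_assoc]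
  rw [h0]
  refine egood_avg_le β g _ _ fun x => ?_
  have hA : ‖∑ a, (spin (x a) : ℂ) * egood_Mx n β g x a‖ ^ 2
      ≤ (n : ℝ) * (corrSq (gibbs n β g) * n) := by
    refine (egood_cs _ _).trans ?_
    rw [egood_sum_norm_spin]
    exact mul_le_mul_of_nonneg_left (egood_Mx_le β g x) (Nat.cast_nonneg n)
  have hB : ‖∑ c, egood_Mx n β g x c * egood_Gx n ζ g x c‖ ^ 2
      ≤ (corrSq (gibbs n β g) * n) * ((n : ℝ) / D ^ 2) := by
    refine (egood_cs _ _).trans ?_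
    exact mul_le_mul (egood_Mx_le β g x) (egood_Gx_le hop x)
      (Finset.sum_nonneg fun _ _ => sq_nonneg _) hWn
  refine (sq_le_sq₀ (norm_nonneg _) (div_nonneg (mul_nonneg (sq_nonneg _) hW) hD.le)).mp ?_
  rw [norm_mul, mul_pow]
  calc ‖∑ a, (spin (x a) : ℂ) * egood_Mx n β g x a‖ ^ 2
        * ‖∑ c, egood_Mx n β g x c * egood_Gx n ζ g x c‖ ^ 2
      ≤ ((n : ℝ) * (corrSq (gibbs n β g) * n))
        * ((corrSq (gibbs n β g) * n) * ((n : ℝ) / D ^ 2)) :=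
        mul_le_mul hA hB (sq_nonneg _) (mul_nonneg (Nat.cast_nonneg n) hWn)
    _ = ((n : ℝ) ^ 2 * corrSq (gibbs n β g) / D) ^ 2 := by
        field_simp

lemma egood_tGM_re (ζ : ℂ) (β : ℝ) (g : Fin n × Fin n → ℝ) :
    (tGM n ζ β g).re = ∑ x, gibbs n β g x
      * (∑ c, ∑ b, (spin (x c) : ℂ) * resolvent n ζ g c b * (spin (x b) : ℂ)).re := by
  rw [egood_tGM_eq, Complex.re_sum]
  refine Finset.sum_congr rfl fun x _ => ?_
  rw [Complex.re_ofReal_mul]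

lemma egood_tGM_im (ζ : ℂ) (β : ℝ) (g : Fin n × Fin n → ℝ) :
    (tGM n ζ β g).im = ∑ x, gibbs n β g x
      * (∑ c, ∑ b, (spin (x c) : ℂ) * resolvent n ζ g c b * (spin (x b) : ℂ)).im := by
  rw [egood_tGM_eq, Complex.im_sum]
  refine Finset.sum_congr rfl fun x _ => ?_
  rw [Complex.im_ofReal_mul]

lemma egood_q_im {ζ : ℂ} (hζ : ζ.im ≠ 0) (g : Fin n × Fin n → ℝ) (x : Fin n → Bool) :
    (∑ c, ∑ b, (spin (x c) : ℂ) * resolvent n ζ g c b * (spin (x b) : ℂ)).im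
      = -ζ.im * ∑ c, ‖egood_Gx n ζ g x c‖ ^ 2 :=
  resolvent_qform_im ζ hζ g (fun c => spin (x c))

/-- Real part of the residual. -/
lemma egood_resid_re (n : ℕ) (ζ : ℂ) (β κ θ : ℝ) (g : Fin n × Fin n → ℝ) :
    (resid n ζ β κ θ g).re = (n : ℝ) * wgt n β κ θ g
      + (n : ℝ)⁻¹ * wgt n β κ θ g * (tG2M n ζ β g - 2 * dGM n ζ β g).re
      - β / (n : ℝ) * wgt n β κ θ g * (tGM2 n ζ β g).re
      + 2 * β / (n : ℝ) * dwgt n β κ θ g
          * (four n ζ β g - (corrSq (gibbs n β g) : ℂ) * tGM2 n ζ β g).re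
      - wgt n β κ θ g * ((ζ - (β : ℂ) - stieltjes n ζ g) * tGM n ζ β g).re := by
  have e1 : (n : ℂ) * (wgt n β κ θ g : ℂ) = (((n : ℝ) * wgt n β κ θ g : ℝ) : ℂ) := by
    push_cast; ring
  have e2 : (n : ℂ)⁻¹ * (wgt n β κ θ g : ℂ) = (((n : ℝ)⁻¹ * wgt n β κ θ g : ℝ) : ℂ) := by
    push_cast; ring
  have e3 : ((β : ℂ) / (n : ℂ)) * (wgt n β κ θ g : ℂ)
      = ((β / (n : ℝ) * wgt n β κ θ g : ℝ) : ℂ) := by
    push_cast; ring
  have e4 : (2 * (β : ℂ) / (n : ℂ)) * (dwgt n β κ θ g : ℂ)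
      = ((2 * β / (n : ℝ) * dwgt n β κ θ g : ℝ) : ℂ) := by
    push_cast; ring
  rw [resid, e1, e2, e3, e4]
  simp only [Complex.add_re, Complex.sub_re, Complex.re_ofReal_mul, Complex.ofReal_re]

end egood2

/-- Lower bound for the real part of the residual off `edgeBad n a`. -/
theorem resid_re_ge_of_good (n : ℕ) (hn : 1 ≤ n) (ζ : ℂ) (hζ : 0 < ζ.im) (β κ θ a : ℝ)
    (hβ : 0 ≤ β) (hκ : 0 < κ) (hθ : 0 ≤ θ) (ha : a < ζ.re) (g : Fin n × Fin n → ℝ)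
    (hg : g ∉ edgeBad n a) (hst : ζ.re - β - (stieltjes n ζ g).re ≤ 0) :
    (n : ℝ) * wgt n β κ θ g *
        (1 - 3 / ((n : ℝ) * (ζ.re - a) ^ 2)
          - β * (corrSq (gibbs n β g) / (n : ℝ) ^ 2) / (ζ.re - a)
          - 4 * β * θ / (ζ.re - a)
          - ζ.im ^ 2 * (1 + 1 / (ζ.re - a) ^ 2) / (ζ.re - a) ^ 2)
      ≤ (resid n ζ β κ θ g).re := by
  have hζ' : ζ.im ≠ 0 := hζ.ne'
  have hδ : 0 < ζ.re - a := sub_pos.mpr ha
  have hsymm := resolvent_symm ζ hζ' g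
  have hop : ∀ v : Fin n → ℂ,
      ∑ c, ‖∑ b, resolvent n ζ g c b * v b‖ ^ 2 ≤ (∑ b, ‖v b‖ ^ 2) / (ζ.re - a) ^ 2 :=
    fun v => resolvent_opNorm_le_of_edge ζ hζ' a ha g hg v
  have hN : (1 : ℝ) ≤ (n : ℝ) := by exact_mod_cast hn
  have hN0 : (0 : ℝ) < (n : ℝ) := lt_of_lt_of_le one_pos hN
  have hW0 := egood_corrSq_nonneg β g
  have hWle := corrSq_le β g
  have hbase : 0 < corrSq (gibbs n β g) / (n : ℝ) ^ 2 + κ :=
    add_pos_of_nonneg_of_pos (div_nonneg hW0 (sq_nonneg _)) hκ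
  have hω : 0 < wgt n β κ θ g := Real.rpow_pos_of_pos hbase _
  have hdw : dwgt n β κ θ g
      = -(θ * (wgt n β κ θ g / (corrSq (gibbs n β g) / (n : ℝ) ^ 2 + κ)) / (n : ℝ) ^ 2) := by
    unfold dwgt wgt
    rw [Real.rpow_sub_one hbase.ne']
    ring
  -- the four norm bounds
  have b1 := egood_norm_tG2M_le β hsymm hop
  have b2 := egood_norm_dGM_le β hδ hop
  have b3 := egood_norm_tGM2_le β hδ hop
  have b4 := egood_norm_four_le β hδ hop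
  -- (i) + (ii)
  have h1 : -(3 * (n : ℝ) / (ζ.re - a) ^ 2) ≤ (tG2M n ζ β g - 2 * dGM n ζ β g).re := by
    have hnorm : ‖tG2M n ζ β g - 2 * dGM n ζ β g‖ ≤ 3 * (n : ℝ) / (ζ.re - a) ^ 2 := by
      calc ‖tG2M n ζ β g - 2 * dGM n ζ β g‖
          ≤ ‖tG2M n ζ β g‖ + ‖2 * dGM n ζ β g‖ := norm_sub_le _ _
        _ = ‖tG2M n ζ β g‖ + 2 * ‖dGM n ζ β g‖ := by
            rw [norm_mul]; norm_num
        _ ≤ (n : ℝ) / (ζ.re - a) ^ 2 + 2 * ((n : ℝ) / (ζ.re - a) ^ 2) := by linarith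
        _ = 3 * (n : ℝ) / (ζ.re - a) ^ 2 := by ring
    have := (abs_le.mp ((Complex.abs_re_le_norm _).trans hnorm)).1
    exact this
  -- (iii)
  have h2 : (tGM2 n ζ β g).re ≤ corrSq (gibbs n β g) / (ζ.re - a) :=
    (le_abs_self _).trans ((Complex.abs_re_le_norm _).trans b3)
  -- (iv)
  have h3 : |(four n ζ β g - (corrSq (gibbs n β g) : ℂ) * tGM2 n ζ β g).re|
      ≤ 2 * (n : ℝ) ^ 2 * corrSq (gibbs n β g) / (ζ.re - a) := by
    refine (Complex.abs_re_le_norm _).trans ?_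
    calc ‖four n ζ β g - (corrSq (gibbs n β g) : ℂ) * tGM2 n ζ β g‖
        ≤ ‖four n ζ β g‖ + ‖(corrSq (gibbs n β g) : ℂ) * tGM2 n ζ β g‖ := norm_sub_le _ _
      _ = ‖four n ζ β g‖ + corrSq (gibbs n β g) * ‖tGM2 n ζ β g‖ := by
          rw [norm_mul, Complex.norm_real, Real.norm_eq_abs, abs_of_nonneg hW0]
      _ ≤ (n : ℝ) ^ 2 * corrSq (gibbs n β g) / (ζ.re - a)
          + corrSq (gibbs n β g) * (corrSq (gibbs n β g) / (ζ.re - a)) :=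
          add_le_add b4 (mul_le_mul_of_nonneg_left b3 hW0)
      _ ≤ (n : ℝ) ^ 2 * corrSq (gibbs n β g) / (ζ.re - a)
          + (n : ℝ) ^ 2 * (corrSq (gibbs n β g) / (ζ.re - a)) :=
          add_le_add le_rfl (mul_le_mul_of_nonneg_right hWle (div_nonneg hW0 hδ.le))
      _ = 2 * (n : ℝ) ^ 2 * corrSq (gibbs n β g) / (ζ.re - a) := by ring
  -- (v)
  have hre : 0 ≤ (tGM n ζ β g).re := by
    rw [egood_tGM_re]
    exact Finset.sum_nonneg fun x _ => mul_nonneg (gibbs_pos n β g x).le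
      (resolvent_qform_re_nonneg ζ hζ' a ha g hg (fun c => spin (x c)))
  have him_le : (tGM n ζ β g).im ≤ 0 := by
    rw [egood_tGM_im]
    refine Finset.sum_nonpos fun x _ => ?_
    rw [egood_q_im hζ' g x]
    have hs : 0 ≤ ∑ c, ‖egood_Gx n ζ g x c‖ ^ 2 := Finset.sum_nonneg fun _ _ => sq_nonneg _
    have : -ζ.im * ∑ c, ‖egood_Gx n ζ g x c‖ ^ 2 ≤ 0 := by nlinarith
    exact mul_nonpos_of_nonneg_of_nonpos (gibbs_pos n β g x).le this
  have him_ge : -(ζ.im * ((n : ℝ) / (ζ.re - a) ^ 2)) ≤ (tGM n ζ β g).im := by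
    rw [egood_tGM_im]
    have hsum : -(ζ.im * ((n : ℝ) / (ζ.re - a) ^ 2))
        = ∑ x, gibbs n β g x * -(ζ.im * ((n : ℝ) / (ζ.re - a) ^ 2)) := by
      rw [← Finset.sum_mul, gibbs_sum, one_mul]
    rw [hsum]
    refine Finset.sum_le_sum fun x _ => ?_
    rw [egood_q_im hζ' g x]
    refine mul_le_mul_of_nonneg_left ?_ (gibbs_pos n β g x).le
    have := egood_Gx_le hop x
    nlinarith
  have hsim_le := stieltjes_im_nonpos ζ hζ g
  have hsim_ge := stieltjes_im_ge_of_edge ζ hζ a ha g hg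
  have h4 : ((ζ - (β : ℂ) - stieltjes n ζ g) * tGM n ζ β g).re
      ≤ (n : ℝ) * (ζ.im ^ 2 * (1 + 1 / (ζ.re - a) ^ 2) / (ζ.re - a) ^ 2) := by
    rw [Complex.mul_re]
    simp only [Complex.sub_re, Complex.sub_im, Complex.ofReal_re, Complex.ofReal_im, sub_zero]
    have t1 : (ζ.re - β - (stieltjes n ζ g).re) * (tGM n ζ β g).re ≤ 0 :=
      mul_nonpos_of_nonpos_of_nonneg hst hre
    have t2 : (ζ.im - (stieltjes n ζ g).im) * (-(tGM n ζ β g).im)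
        ≤ (ζ.im + ζ.im / (ζ.re - a) ^ 2) * (ζ.im * ((n : ℝ) / (ζ.re - a) ^ 2)) := by
      refine mul_le_mul ?_ ?_ ?_ ?_
      · linarith
      · linarith
      · linarith
      · have : 0 ≤ ζ.im / (ζ.re - a) ^ 2 := div_nonneg hζ.le (sq_nonneg _)
        linarith
    have t3 : (ζ.im + ζ.im / (ζ.re - a) ^ 2) * (ζ.im * ((n : ℝ) / (ζ.re - a) ^ 2))
        = (n : ℝ) * (ζ.im ^ 2 * (1 + 1 / (ζ.re - a) ^ 2) / (ζ.re - a) ^ 2) := by
      field_simp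
    linarith
  -- assembly
  rw [egood_resid_re]
  have hNω : 0 ≤ (n : ℝ)⁻¹ * wgt n β κ θ g := mul_nonneg (inv_nonneg.mpr hN0.le) hω.le
  have ta : -((n : ℝ) * wgt n β κ θ g * (3 / ((n : ℝ) * (ζ.re - a) ^ 2)))
      ≤ (n : ℝ)⁻¹ * wgt n β κ θ g * (tG2M n ζ β g - 2 * dGM n ζ β g).re := by
    have := mul_le_mul_of_nonneg_left h1 hNω
    refine le_trans (le_of_eq ?_) this
    field_simp
  have tb : β / (n : ℝ) * wgt n β κ θ g * (tGM2 n ζ β g).re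
      ≤ (n : ℝ) * wgt n β κ θ g * (β * (corrSq (gibbs n β g) / (n : ℝ) ^ 2) / (ζ.re - a)) := by
    have hc : 0 ≤ β / (n : ℝ) * wgt n β κ θ g := mul_nonneg (div_nonneg hβ hN0.le) hω.le
    have := mul_le_mul_of_nonneg_left h2 hc
    refine le_trans this (le_of_eq ?_)
    field_simp
  have tc : -((n : ℝ) * wgt n β κ θ g * (4 * β * θ / (ζ.re - a)))
      ≤ 2 * β / (n : ℝ) * dwgt n β κ θ g
          * (four n ζ β g - (corrSq (gibbs n β g) : ℂ) * tGM2 n ζ β g).re := by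
    rw [hdw]
    set R3 := (four n ζ β g - (corrSq (gibbs n β g) : ℂ) * tGM2 n ζ β g).re with hR3
    set base := corrSq (gibbs n β g) / (n : ℝ) ^ 2 + κ with hbasedef
    have hc : 0 ≤ 2 * β / (n : ℝ) * (θ * (wgt n β κ θ g / base) / (n : ℝ) ^ 2) :=
      mul_nonneg (div_nonneg (mul_nonneg zero_le_two hβ) hN0.le)
        (div_nonneg (mul_nonneg hθ (div_nonneg hω.le hbase.le)) (sq_nonneg _))
    have hR : -(2 * (n : ℝ) ^ 2 * corrSq (gibbs n β g) / (ζ.re - a)) ≤ R3 :=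
      (abs_le.mp h3).1
    have hR' : R3 ≤ 2 * (n : ℝ) ^ 2 * corrSq (gibbs n β g) / (ζ.re - a) := (abs_le.mp h3).2
    have hWb : corrSq (gibbs n β g) / base ≤ (n : ℝ) ^ 2 := by
      rw [div_le_iff₀ hbase]
      have : (n : ℝ) ^ 2 * base = corrSq (gibbs n β g) + κ * (n : ℝ) ^ 2 := by
        rw [hbasedef]; field_simp
      rw [this]
      nlinarith [sq_nonneg (n : ℝ)]
    have key : 2 * β / (n : ℝ) * (θ * (wgt n β κ θ g / base) / (n : ℝ) ^ 2)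
        * (2 * (n : ℝ) ^ 2 * corrSq (gibbs n β g) / (ζ.re - a))
        ≤ (n : ℝ) * wgt n β κ θ g * (4 * β * θ / (ζ.re - a)) := by
      have e : 2 * β / (n : ℝ) * (θ * (wgt n β κ θ g / base) / (n : ℝ) ^ 2)
          * (2 * (n : ℝ) ^ 2 * corrSq (gibbs n β g) / (ζ.re - a))
          = (4 * β * θ * wgt n β κ θ g / ((n : ℝ) * (ζ.re - a)))
            * (corrSq (gibbs n β g) / base) := by
        field_simp
        ring
      rw [e]
      have hc2 : 0 ≤ 4 * β * θ * wgt n β κ θ g / ((n : ℝ) * (ζ.re - a)) :=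
        div_nonneg (mul_nonneg (mul_nonneg (mul_nonneg (by norm_num) hβ) hθ) hω.le)
          (mul_nonneg hN0.le hδ.le)
      refine (mul_le_mul_of_nonneg_left hWb hc2).trans (le_of_eq ?_)
      field_simp
    have h5 := mul_le_mul_of_nonneg_left hR' hc
    have : 2 * β / (n : ℝ) * -(θ * (wgt n β κ θ g / base) / (n : ℝ) ^ 2) * R3
        = -(2 * β / (n : ℝ) * (θ * (wgt n β κ θ g / base) / (n : ℝ) ^ 2) * R3) := by ring
    rw [this]
    linarith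
  have td : wgt n β κ θ g * ((ζ - (β : ℂ) - stieltjes n ζ g) * tGM n ζ β g).re
      ≤ (n : ℝ) * wgt n β κ θ g
        * (ζ.im ^ 2 * (1 + 1 / (ζ.re - a) ^ 2) / (ζ.re - a) ^ 2) := by
    have := mul_le_mul_of_nonneg_left h4 hω.le
    refine le_trans this (le_of_eq ?_)
    ring
  have hexp : (n : ℝ) * wgt n β κ θ g *
        (1 - 3 / ((n : ℝ) * (ζ.re - a) ^ 2)
          - β * (corrSq (gibbs n β g) / (n : ℝ) ^ 2) / (ζ.re - a)
          - 4 * β * θ / (ζ.re - a)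
          - ζ.im ^ 2 * (1 + 1 / (ζ.re - a) ^ 2) / (ζ.re - a) ^ 2)
      = (n : ℝ) * wgt n β κ θ g
        - (n : ℝ) * wgt n β κ θ g * (3 / ((n : ℝ) * (ζ.re - a) ^ 2))
        - (n : ℝ) * wgt n β κ θ g * (β * (corrSq (gibbs n β g) / (n : ℝ) ^ 2) / (ζ.re - a))
        - (n : ℝ) * wgt n β κ θ g * (4 * β * θ / (ζ.re - a))
        - (n : ℝ) * wgt n β κ θ g
          * (ζ.im ^ 2 * (1 + 1 / (ζ.re - a) ^ 2) / (ζ.re - a) ^ 2) := by
    ring
  rw [hexp]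
  linarith

end Vale.Agent.H40.SK
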