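import Vale.Agent.H40.Res.IsingProb
import Vale.Agent.H40.Res.IsingGood
import Vale.Agent.H40.Res.IsingBad

/-!
TASK RES-EFIN2.  Choice of parameters: for `β > 1` the squared overlap is of order `n²` unless
the coupling matrix is atypical.

Black boxes: `prob_corrSq_small` (`IsingProb.lean`), `resid_re_ge_of_good` (`IsingGood.lean`),
`norm_resid_le` (`IsingBad.lean`), `measurableSet_edgeBad` (`JmatAlg.lean`),
`measurableSet_stieltjesBad`, `im_add_inv_pos` (`ResolventDeriv.lean`) -- all stubs.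

Parameters (any valid choice is fine; this one works).
`t = (1 + β)/2 ∈ (1, β)`, `δ₀ = (t - 1)²/t = t + 1/t - 2 > 0`, `a = 2 + δ₀/3`,
`τ = t + s i` with `s > 0` small, `ζ = τ + 1/τ`:
  `Re ζ = t + t/(t² + s²)`, `Im ζ = η = s (1 - 1/(t² + s²)) ∈ (0, s)`, `Re (1/τ) = t/(t² + s²)`,
  `|τ| ≥ t > 1`.  Since `1/t - t/(t² + s²) = s²/(t (t² + s²)) ≤ s²`, taking `s² ≤ δ₀/3` gives
  `Re ζ ≥ 2 + 2δ₀/3`, so `δ := Re ζ - a ≥ δ₀/3`.  Take `s` also so small that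
  `s² (1 + 9/δ₀²) (9/δ₀²) ≤ 1/8`; then `η² (1 + 1/δ²)/δ² ≤ 1/8`.
`ρ = β - t = (β - 1)/2`, `θ = δ₀/(96 β)` (so `4 β θ/δ ≤ 1/8`), `ε = δ₀/(12 β)` (so
`β ε/(δ₀/3) = 1/4`), `n₀` with `27/(n₀ δ₀²) ≤ 1/8` and `n₀ ≥ 1` (so `3/(n δ²) ≤ 1/8` for
`n ≥ n₀`), `C₂ = 1 + 3/η² + (2β + 4βθ + ‖ζ‖ + 1/η)/η`,
`C = max (4 * 2^θ * (β/(δ₀/3))) (1 + 4 * 2^θ * C₂)`.
For `n ≥ n₀`, `0 < ε₁ ≤ ε` apply `prob_corrSq_small` with `δ := δ₀/3` (NOT `Re ζ - a`),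
`A = edgeBad n a ∪ stieltjesBad n τ ρ`:
* `hbad` is `norm_resid_le` (with `κ = ε₁`).
* `hgood`: for `g ∉ A`: `|stieltjes n ζ g - 1/τ| ≤ ρ`, so
  `Re ζ - β - Re (stieltjes) ≤ Re ζ - Re (1/τ) - β + ρ = t - β + ρ = 0`; then
  `resid_re_ge_of_good` gives
  `Re resid ≥ n ω (1 - 3/(n δ'²) - β w/δ' - 4βθ/δ' - η² (1 + 1/δ'²)/δ'²)` with
  `δ' = Re ζ - a ≥ δ₀/3`, and the bracket is at least `5/8 - β w/(δ₀/3)` (`w ≥ 0`, `ω > 0`).
* `P(A) ≤ P(edgeBad n a) + P(stieltjesBad n τ ρ)` (`measureReal_union_le`).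
Then `4 * 2^θ (β/(δ₀/3)) (ε₁/ε)^θ + (1 + 4 * 2^θ C₂) P(A) ≤ C (ε₁/ε)^θ + C (P(..) + P(..))`.
-/

namespace Vale.Agent.H40.SK

open MeasureTheory ProbabilityTheory Real

/-- `corrSq` is a sum of squares. -/
lemma efin2_corrSq_nonneg {n : ℕ} (μ : (Fin n → Bool) → ℝ) : 0 ≤ corrSq μ := by
  unfold corrSq
  exact Finset.sum_nonneg (fun p _ => sq_nonneg _)

/-- The normalised squared overlap is nonnegative. -/
lemma efin2_w_nonneg (n : ℕ) (β : ℝ) (g : Fin n × Fin n → ℝ) :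
    0 ≤ corrSq (gibbs n β g) / (n : ℝ) ^ 2 :=
  div_nonneg (efin2_corrSq_nonneg _) (by positivity)

/-- The weight is positive. -/
lemma efin2_wgt_pos (n : ℕ) (β κ θ : ℝ) (hκ : 0 < κ) (g : Fin n × Fin n → ℝ) :
    0 < wgt n β κ θ g := by
  unfold wgt
  apply Real.rpow_pos_of_pos
  have := efin2_w_nonneg n β g
  linarith

/-- Real parameters: `t ∈ (1, β)`, `3 D = t + 1/t - 2 > 0`, and a small `s > 0`. -/
lemma efin2_params (β : ℝ) (hβ : 1 < β) :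
    ∃ t D s : ℝ, 1 < t ∧ t < β ∧ 0 < D ∧ 0 < s ∧ s ^ 2 ≤ D ∧
      s ^ 2 * (1 + 1 / D ^ 2) / D ^ 2 ≤ 1 / 8 ∧ 3 * D = t + 1 / t - 2 := by
  have ht1 : 1 < (1 + β) / 2 := by linarith
  have htβ : (1 + β) / 2 < β := by linarith
  obtain ⟨t, ht⟩ : ∃ t : ℝ, t = (1 + β) / 2 := ⟨_, rfl⟩
  rw [← ht] at ht1 htβ
  have ht0 : 0 < t := by linarith
  obtain ⟨D, hDdef⟩ : ∃ D : ℝ, D = (t - 1) ^ 2 / (3 * t) := ⟨_, rfl⟩
  have hD : 0 < D := by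
    rw [hDdef]
    apply div_pos
    · have : 0 < t - 1 := by linarith
      positivity
    · linarith
  have h3D : 3 * D = t + 1 / t - 2 := by
    rw [hDdef]
    field_simp
    ring
  obtain ⟨s, hsdef⟩ : ∃ s : ℝ, s = D ^ 2 / (3 * (D ^ 2 + 1)) := ⟨_, rfl⟩
  have hu : 0 < 3 * (D ^ 2 + 1) := by positivity
  have hs : 0 < s := by
    rw [hsdef]
    positivity
  have hs3 : s ≤ 1 / 3 := by
    rw [hsdef, div_le_iff₀ hu]
    nlinarith [sq_nonneg D]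
  have hs6 : s ≤ D / 6 := by
    rw [hsdef, div_le_iff₀ hu]
    nlinarith [sq_nonneg (D - 1), sq_nonneg D]
  have hsD : s ^ 2 ≤ D := by nlinarith
  have hs8 : s ^ 2 * (1 + 1 / D ^ 2) / D ^ 2 = 1 / (9 * (D ^ 2 + 1)) := by
    rw [hsdef]
    field_simp
    ring
  refine ⟨t, D, s, ht1, htβ, hD, hs, hsD, ?_, h3D⟩
  rw [hs8, div_le_div_iff₀ (by positivity) (by norm_num)]
  nlinarith [sq_nonneg D]

/-- The complex parameter `τ = t + s i` and the point `ζ = τ + 1/τ`. -/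
lemma efin2_tau (t D s : ℝ) (ht1 : 1 < t) (hs : 0 < s) (hsD : s ^ 2 ≤ D)
    (h3D : 3 * D = t + 1 / t - 2) :
    ∃ τ : ℂ, 0 < τ.im ∧ 1 < ‖τ‖ ∧ (τ + τ⁻¹).re - (τ⁻¹).re = t ∧
      D ≤ (τ + τ⁻¹).re - (2 + D) ∧ (τ + τ⁻¹).im ≤ s ∧ 0 < (τ + τ⁻¹).im := by
  have ht0 : 0 < t := by linarith
  refine ⟨⟨t, s⟩, hs, ?_, ?_, ?_, ?_, ?_⟩
  · calc (1 : ℝ) < t := ht1
      _ = |(⟨t, s⟩ : ℂ).re| := (abs_of_pos ht0).symm
      _ ≤ ‖(⟨t, s⟩ : ℂ)‖ := Complex.abs_re_le_norm _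
  · simp
  · have hN : 0 < t * t + s * s := by positivity
    have hN1 : 1 ≤ t * (t * t + s * s) := by nlinarith [mul_pos hs hs, mul_pos ht0 ht0]
    have h1 : 1 / t - s ^ 2 ≤ t / (t * t + s * s) := by
      have h2 : 1 / t = t / (t * t + s * s) + s ^ 2 / (t * (t * t + s * s)) := by
        field_simp
      have h3 : s ^ 2 / (t * (t * t + s * s)) ≤ s ^ 2 := div_le_self (sq_nonneg s) hN1
      linarith
    have hre : ((⟨t, s⟩ : ℂ) + (⟨t, s⟩ : ℂ)⁻¹).re = t + t / (t * t + s * s) := by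
      simp [Complex.normSq_apply]
    rw [hre]
    linarith
  · have hN : 0 < t * t + s * s := by positivity
    have him : ((⟨t, s⟩ : ℂ) + (⟨t, s⟩ : ℂ)⁻¹).im = s - s / (t * t + s * s) := by
      simp [Complex.normSq_apply]
      ring
    rw [him]
    have : 0 ≤ s / (t * t + s * s) := by positivity
    linarith
  · apply im_add_inv_pos _ hs
    calc (1 : ℝ) < t := ht1
      _ = |(⟨t, s⟩ : ℂ).re| := (abs_of_pos ht0).symm
      _ ≤ ‖(⟨t, s⟩ : ℂ)‖ := Complex.abs_re_le_norm _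

/-- The bracket of `resid_re_ge_of_good` is at least `5/8 - β w / D`. -/
lemma efin2_bracket (β D s d η w N : ℝ) (hβ : 0 < β) (hD : 0 < D)
    (hs8 : s ^ 2 * (1 + 1 / D ^ 2) / D ^ 2 ≤ 1 / 8) (hd : D ≤ d) (hη0 : 0 < η) (hη : η ≤ s)
    (hw : 0 ≤ w) (hN : 24 / D ^ 2 ≤ N) :
    5 / 8 - β * w / D ≤ 1 - 3 / (N * d ^ 2) - β * w / d - 4 * β * (D / (32 * β)) / d
      - η ^ 2 * (1 + 1 / d ^ 2) / d ^ 2 := by
  have hd0 : 0 < d := lt_of_lt_of_le hD hd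
  have hD2 : D ^ 2 ≤ d ^ 2 := by nlinarith
  have hD2pos : 0 < D ^ 2 := by positivity
  have hN24 : 24 ≤ N * D ^ 2 := by
    rw [div_le_iff₀ hD2pos] at hN
    exact hN
  have hN0 : 0 < N := by
    by_contra h
    have h' : N ≤ 0 := not_lt.mp h
    nlinarith
  have e1 : 3 / (N * d ^ 2) ≤ 1 / 8 := by
    rw [div_le_div_iff₀ (by positivity) (by norm_num)]
    nlinarith
  have e2 : β * w / d ≤ β * w / D :=
    div_le_div_of_nonneg_left (mul_nonneg hβ.le hw) hD hd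
  have e3 : 4 * β * (D / (32 * β)) / d ≤ 1 / 8 := by
    have : 4 * β * (D / (32 * β)) = D / 8 := by
      field_simp
      ring
    rw [this, div_le_div_iff₀ hd0 (by norm_num)]
    linarith
  have e4 : η ^ 2 * (1 + 1 / d ^ 2) / d ^ 2 ≤ s ^ 2 * (1 + 1 / D ^ 2) / D ^ 2 := by
    have hη2 : η ^ 2 ≤ s ^ 2 := by nlinarith
    have hinv : 1 / d ^ 2 ≤ 1 / D ^ 2 := one_div_le_one_div_of_le hD2pos hD2
    have hpos : 0 ≤ 1 + 1 / d ^ 2 := by positivity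
    apply div_le_div₀ (by positivity) _ hD2pos hD2
    apply mul_le_mul hη2 (by linarith) hpos (sq_nonneg s)
  linarith

/-- For `β > 1` the squared overlap is of order `n²` unless the coupling matrix is atypical. -/
theorem corrSq_small_le (β : ℝ) (hβ : 1 < β) :
    ∃ (a : ℝ) (τ : ℂ) (ρ θ C ε : ℝ) (n₀ : ℕ), 2 < a ∧ 0 < τ.im ∧ 1 < ‖τ‖ ∧ 0 < ρ ∧ 0 < θ ∧
      0 < C ∧ 0 < ε ∧ ∀ n : ℕ, n₀ ≤ n → ∀ ε₁ : ℝ, 0 < ε₁ → ε₁ ≤ ε →
        (stdGauss (Fin n × Fin n)).real {g | corrSq (gibbs n β g) ≤ ε₁ * (n : ℝ) ^ 2}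
          ≤ C * (ε₁ / ε) ^ θ + C * ((stdGauss (Fin n × Fin n)).real (edgeBad n a)
              + (stdGauss (Fin n × Fin n)).real (stieltjesBad n τ ρ)) := by
  have hβ0 : 0 < β := by linarith
  obtain ⟨t, D, s, ht1, htβ, hD, hs, hsD, hs8, h3D⟩ := efin2_params β hβ
  obtain ⟨τ, hτim, hτ1, hτre, hτD, hζs, hζim⟩ := efin2_tau t D s ht1 hs hsD h3D
  obtain ⟨θ, hθdef⟩ : ∃ θ : ℝ, θ = D / (32 * β) := ⟨_, rfl⟩
  have hθ : 0 < θ := by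
    rw [hθdef]
    positivity
  obtain ⟨C₂, hC₂def⟩ : ∃ C₂ : ℝ, C₂ = 1 + 3 / (τ + τ⁻¹).im ^ 2
      + (2 * β + 4 * β * θ + ‖τ + τ⁻¹‖ + 1 / (τ + τ⁻¹).im) / (τ + τ⁻¹).im := ⟨_, rfl⟩
  have hC₂ : 0 ≤ C₂ := by
    rw [hC₂def]
    positivity
  have h2θ : 0 < (2 : ℝ) ^ θ := Real.rpow_pos_of_pos (by norm_num) θ
  have hc1 : 0 < 1 + 4 * 2 ^ θ * C₂ := by positivity
  obtain ⟨C, hCdef⟩ : ∃ C : ℝ, C = max (4 * 2 ^ θ * (β / D)) (1 + 4 * 2 ^ θ * C₂) := ⟨_, rfl⟩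
  have hC1 : 4 * 2 ^ θ * (β / D) ≤ C := by
    rw [hCdef]
    exact le_max_left _ _
  have hC2 : 1 + 4 * 2 ^ θ * C₂ ≤ C := by
    rw [hCdef]
    exact le_max_right _ _
  have hC : 0 < C := lt_of_lt_of_le hc1 hC2
  have hε : 0 < D / (4 * β) := by positivity
  refine ⟨2 + D, τ, β - t, θ, C, D / (4 * β), ⌈24 / D ^ 2⌉₊ + 1, by linarith, hτim, hτ1,
    by linarith, hθ, hC, hε, ?_⟩
  intro n hn ε₁ hε₁ hε₁ε
  have hn1 : 1 ≤ n := le_trans (Nat.le_add_left 1 _) hn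
  have hnN : 24 / D ^ 2 ≤ (n : ℝ) := by
    have h1 : 24 / D ^ 2 ≤ (⌈24 / D ^ 2⌉₊ : ℝ) := Nat.le_ceil _
    have h2 : ((⌈24 / D ^ 2⌉₊ + 1 : ℕ) : ℝ) ≤ (n : ℝ) := by exact_mod_cast hn
    push_cast at h2
    linarith
  have hεδ : β * (D / (4 * β)) / D ≤ 1 / 4 := by
    have : β * (D / (4 * β)) / D = 1 / 4 := by
      field_simp
    rw [this]
  have hA : MeasurableSet (edgeBad n (2 + D) ∪ stieltjesBad n τ (β - t)) :=
    (measurableSet_edgeBad (2 + D)).union (measurableSet_stieltjesBad τ hτim hτ1 (β - t))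
  have hgood : ∀ g, g ∉ edgeBad n (2 + D) ∪ stieltjesBad n τ (β - t) →
      (n : ℝ) * wgt n β ε₁ θ g * (5 / 8 - β * (corrSq (gibbs n β g) / (n : ℝ) ^ 2) / D)
        ≤ (resid n (τ + τ⁻¹) β ε₁ θ g).re := by
    intro g hg
    rw [Set.mem_union, not_or] at hg
    obtain ⟨hg1, hg2⟩ := hg
    have hst0 : ‖stieltjes n (τ + τ⁻¹) g - τ⁻¹‖ ≤ β - t := by
      exact not_lt.mp hg2
    have hre : -(β - t) ≤ (stieltjes n (τ + τ⁻¹) g - τ⁻¹).re := by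
      have h1 := Complex.abs_re_le_norm (stieltjes n (τ + τ⁻¹) g - τ⁻¹)
      have h2 := neg_abs_le (stieltjes n (τ + τ⁻¹) g - τ⁻¹).re
      linarith
    rw [Complex.sub_re] at hre
    have hst : (τ + τ⁻¹).re - β - (stieltjes n (τ + τ⁻¹) g).re ≤ 0 := by linarith
    have ha : 2 + D < (τ + τ⁻¹).re := by linarith
    have key := resid_re_ge_of_good n hn1 (τ + τ⁻¹) hζim β ε₁ θ (2 + D) hβ0.le hε₁ hθ.le ha g
      hg1 hst
    refine le_trans ?_ key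
    have hwg : 0 ≤ (n : ℝ) * wgt n β ε₁ θ g :=
      mul_nonneg (Nat.cast_nonneg n) (efin2_wgt_pos n β ε₁ θ hε₁ g).le
    apply mul_le_mul_of_nonneg_left _ hwg
    have hb := efin2_bracket β D s ((τ + τ⁻¹).re - (2 + D)) (τ + τ⁻¹).im
      (corrSq (gibbs n β g) / (n : ℝ) ^ 2) (n : ℝ) hβ0 hD hs8 hτD hζim hζs
      (efin2_w_nonneg n β g) hnN
    rw [hθdef]
    exact hb
  have hbad : ∀ g, ‖resid n (τ + τ⁻¹) β ε₁ θ g‖ ≤ (n : ℝ) * wgt n β ε₁ θ g * C₂ := by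
    intro g
    rw [hC₂def]
    exact norm_resid_le n hn1 (τ + τ⁻¹) hζim β ε₁ θ hβ0.le hε₁ hθ.le g
  have main := prob_corrSq_small n hn1 (τ + τ⁻¹) hζim β θ D (D / (4 * β)) ε₁ C₂ hβ0.le hθ.le hD
    hε hε₁ hε₁ε hεδ hC₂ (edgeBad n (2 + D) ∪ stieltjesBad n τ (β - t)) hA hgood hbad
  have hU := measureReal_union_le (μ := stdGauss (Fin n × Fin n)) (edgeBad n (2 + D))
    (stieltjesBad n τ (β - t))
  have hpow : 0 ≤ (ε₁ / (D / (4 * β))) ^ θ :=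
    Real.rpow_nonneg (div_nonneg hε₁.le hε.le) θ
  have hP0 : 0 ≤ (stdGauss (Fin n × Fin n)).real
      (edgeBad n (2 + D) ∪ stieltjesBad n τ (β - t)) := measureReal_nonneg
  calc (stdGauss (Fin n × Fin n)).real {g | corrSq (gibbs n β g) ≤ ε₁ * (n : ℝ) ^ 2}
      ≤ 4 * 2 ^ θ * (β / D) * (ε₁ / (D / (4 * β))) ^ θ
        + (1 + 4 * 2 ^ θ * C₂)
          * (stdGauss (Fin n × Fin n)).real (edgeBad n (2 + D) ∪ stieltjesBad n τ (β - t)) := main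
    _ ≤ C * (ε₁ / (D / (4 * β))) ^ θ
        + C * (stdGauss (Fin n × Fin n)).real (edgeBad n (2 + D) ∪ stieltjesBad n τ (β - t)) :=
        add_le_add (mul_le_mul_of_nonneg_right hC1 hpow) (mul_le_mul_of_nonneg_right hC2 hP0)
    _ ≤ C * (ε₁ / (D / (4 * β))) ^ θ
        + C * ((stdGauss (Fin n × Fin n)).real (edgeBad n (2 + D))
          + (stdGauss (Fin n × Fin n)).real (stieltjesBad n τ (β - t))) := by
        have := mul_le_mul_of_nonneg_left hU hC.le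
        linarith

end Vale.Agent.H40.SK
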