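import Vale.Agent.H40.Res.Edge
import Vale.Agent.H40.Res.IsingFin

/-!
Slow relaxation and slow mixing of Glauber dynamics for the Sherrington-Kirkpatrick model in the
whole low temperature phase `β > 1`.
-/

namespace Vale.Agent.H40.SK

open MeasureTheory ProbabilityTheory Real

/-- For `β > 1` and `K n → ∞`, the probability that the squared overlap is at most `n² / K n`
tends to zero. -/
theorem corrSq_small_tendsto (β : ℝ) (hβ : 1 < β) (K : ℕ → ℝ)
    (hK : Filter.Tendsto K Filter.atTop Filter.atTop) :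
    Filter.Tendsto (fun n : ℕ => (stdGauss (Fin n × Fin n)).real
      {g | corrSq (gibbs n β g) ≤ (n : ℝ) ^ 2 / K n}) Filter.atTop (nhds 0) := by
  obtain ⟨a, τ, ρ, θ, C, ε, n₀, ha, hτ, hτ1, hρ, hθ, hC, hε, hmain⟩ := corrSq_small_le β hβ
  have hE := edge_tendsto a ha
  have hS := stieltjes_tendsto τ hτ hτ1 ρ hρ
  rw [Metric.tendsto_atTop]
  intro e he
  -- choose ε₁
  have hlim : Filter.Tendsto (fun x : ℝ => C * (x / ε) ^ θ) (nhdsWithin 0 (Set.Ioi 0)) (nhds 0) := by
    have h1 : Filter.Tendsto (fun x : ℝ => x / ε) (nhdsWithin 0 (Set.Ioi 0)) (nhds 0) := by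
      have : Filter.Tendsto (fun x : ℝ => x / ε) (nhds 0) (nhds (0 / ε)) :=
        (continuous_id.div_const ε).tendsto 0
      rw [zero_div] at this
      exact this.mono_left nhdsWithin_le_nhds
    have h2 : Filter.Tendsto (fun x : ℝ => (x / ε) ^ θ) (nhdsWithin 0 (Set.Ioi 0)) (nhds 0) := by
      have h3 := (Real.continuousAt_rpow_const 0 θ (Or.inr hθ.le)).tendsto
      rw [Real.zero_rpow hθ.ne'] at h3
      exact h3.comp h1
    simpa using h2.const_mul C
  have hev : ∀ᶠ x in nhdsWithin (0 : ℝ) (Set.Ioi 0), C * (x / ε) ^ θ < e / 2 :=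
    hlim.eventually (gt_mem_nhds (by positivity))
  have hev2 : ∀ᶠ x in nhdsWithin (0 : ℝ) (Set.Ioi 0), x ≤ ε :=
    Filter.Eventually.filter_mono nhdsWithin_le_nhds (ge_mem_nhds hε)
  obtain ⟨ε₁, ⟨h1, h2⟩, hε₁pos⟩ :=
    ((hev.and hev2).and self_mem_nhdsWithin).exists
  have hε₁ : 0 < ε₁ := hε₁pos
  have hsum : Filter.Tendsto (fun n : ℕ => C * ((stdGauss (Fin n × Fin n)).real (edgeBad n a)
      + (stdGauss (Fin n × Fin n)).real (stieltjesBad n τ ρ))) Filter.atTop (nhds 0) := by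
    simpa using (hE.add hS).const_mul C
  have hev3 : ∀ᶠ n : ℕ in Filter.atTop, C * ((stdGauss (Fin n × Fin n)).real (edgeBad n a)
      + (stdGauss (Fin n × Fin n)).real (stieltjesBad n τ ρ)) < e / 2 :=
    hsum.eventually (gt_mem_nhds (by positivity))
  have hev4 : ∀ᶠ n : ℕ in Filter.atTop, 1 / ε₁ ≤ K n := hK.eventually_ge_atTop _
  obtain ⟨N, hN⟩ := Filter.eventually_atTop.1 ((hev3.and hev4).and (Filter.eventually_ge_atTop n₀))
  refine ⟨N, fun n hn => ?_⟩
  obtain ⟨⟨h3, h4⟩, h5⟩ := hN n hn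
  rw [Real.dist_eq, sub_zero, abs_of_nonneg measureReal_nonneg]
  have hKpos : 0 < K n := lt_of_lt_of_le (by positivity) h4
  have hsub : {g : Fin n × Fin n → ℝ | corrSq (gibbs n β g) ≤ (n : ℝ) ^ 2 / K n}
      ⊆ {g | corrSq (gibbs n β g) ≤ ε₁ * (n : ℝ) ^ 2} := by
    intro g hg
    have hg' : corrSq (gibbs n β g) ≤ (n : ℝ) ^ 2 / K n := hg
    show corrSq (gibbs n β g) ≤ ε₁ * (n : ℝ) ^ 2
    refine le_trans hg' ?_
    rw [div_le_iff₀ hKpos]
    have h6 : 1 ≤ ε₁ * K n := by
      rw [div_le_iff₀ hε₁] at h4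
      linarith
    nlinarith [sq_nonneg (n : ℝ)]
  calc (stdGauss (Fin n × Fin n)).real {g | corrSq (gibbs n β g) ≤ (n : ℝ) ^ 2 / K n}
      ≤ (stdGauss (Fin n × Fin n)).real {g | corrSq (gibbs n β g) ≤ ε₁ * (n : ℝ) ^ 2} :=
        measureReal_mono hsub
    _ ≤ C * (ε₁ / ε) ^ θ + C * ((stdGauss (Fin n × Fin n)).real (edgeBad n a)
          + (stdGauss (Fin n × Fin n)).real (stieltjesBad n τ ρ)) := hmain n h5 ε₁ hε₁ h2
    _ < e := by linarith

/-- The set of disorders with a large squared overlap is contained in the set of disorders with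
a small spectral gap and slow mixing. -/
lemma slow_of_corrSq_gt {n : ℕ} (hn : 1 ≤ n) (β K : ℝ) (hK : 0 < K) :
    ({g | corrSq (gibbs n β g) ≤ (n : ℝ) ^ 2 / K} : Set (Fin n × Fin n → ℝ))ᶜ ⊆
      {g | spectralGap (gibbs n β g) ≤ K / n ∧
        ∀ t : ℝ, 0 ≤ t → t < Real.log 2 * (n / K) →
          ∃ x, 1 / 4 < tvDist (gibbs n β g) t x} := by
  have hnpos : (0 : ℝ) < n := by exact_mod_cast hn
  have hapos : 0 < (n : ℝ) ^ 2 / K := by positivity
  intro g hg
  have hg' : (n : ℝ) ^ 2 / K < corrSq (gibbs n β g) := not_le.1 hg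
  refine ⟨?_, ?_⟩
  · have h1 := spectralGap_le_corrSq hn β g
    have h2 : (n : ℝ) / corrSq (gibbs n β g) ≤ n / ((n : ℝ) ^ 2 / K) :=
      div_le_div_of_nonneg_left hnpos.le hapos hg'.le
    have h3 : (n : ℝ) / ((n : ℝ) ^ 2 / K) = K / n := by
      field_simp
    rw [← h3]
    exact h1.trans h2
  · intro t ht hlt
    refine not_mixed_of_corrSq β g ((n : ℝ) ^ 2 / K) hapos hg'.le t ht ?_
    calc t * n < Real.log 2 * (n / K) * n := mul_lt_mul_of_pos_right hlt hnpos
      _ = Real.log 2 * ((n : ℝ) ^ 2 / K) := by ring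

/-- For every `β > 1` there are `C` and `θ > 0` such that for every fixed `K > 0` and every
`e > 0`, for all large `n`: with disorder probability at least `1 - C K^(-θ) - e`, the spectral
gap is at most `K / n` and no time below `log 2 · n / K` is a mixing time. -/
theorem slow_mixing_fixedK_lowtemp (β : ℝ) (hβ : 1 < β) :
    ∃ C θ : ℝ, 0 < C ∧ 0 < θ ∧ ∀ K : ℝ, 0 < K → ∀ e : ℝ, 0 < e →
      ∀ᶠ n : ℕ in Filter.atTop,
        ENNReal.ofReal (1 - C * K ^ (-θ) - e) ≤
          (Measure.pi (fun _ : Fin n × Fin n => gaussianReal 0 1))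
            {g | spectralGap (gibbs n β g) ≤ K / n ∧
              ∀ t : ℝ, 0 ≤ t → t < Real.log 2 * (n / K) →
                ∃ x, 1 / 4 < tvDist (gibbs n β g) t x} := by
  obtain ⟨a, τ, ρ, θ, C, ε, n₀, ha, hτ, hτ1, hρ, hθ, hC, hε, hmain⟩ := corrSq_small_le β hβ
  have hE := edge_tendsto a ha
  have hS := stieltjes_tendsto τ hτ hτ1 ρ hρ
  have hεθ : 0 < ε ^ (-θ) := Real.rpow_pos_of_pos hε _
  refine ⟨max C 1 * ε ^ (-θ), θ, by positivity, hθ, fun K hK e he => ?_⟩
  have hsum : Filter.Tendsto (fun n : ℕ => C * ((stdGauss (Fin n × Fin n)).real (edgeBad n a)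
      + (stdGauss (Fin n × Fin n)).real (stieltjesBad n τ ρ))) Filter.atTop (nhds 0) := by
    simpa using (hE.add hS).const_mul C
  have hev3 : ∀ᶠ n : ℕ in Filter.atTop, C * ((stdGauss (Fin n × Fin n)).real (edgeBad n a)
      + (stdGauss (Fin n × Fin n)).real (stieltjesBad n τ ρ)) < e :=
    hsum.eventually (gt_mem_nhds he)
  filter_upwards [hev3, Filter.eventually_ge_atTop n₀, Filter.eventually_ge_atTop 1]
    with n h3 h5 hn
  have hKθ : 0 < K ^ (-θ) := Real.rpow_pos_of_pos hK _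
  have hAm : MeasurableSet ({g | corrSq (gibbs n β g) ≤ (n : ℝ) ^ 2 / K} :
      Set (Fin n × Fin n → ℝ)) :=
    measurableSet_le (continuous_corrSq β).measurable measurable_const
  have hcompl : (stdGauss (Fin n × Fin n)).real
      ({g | corrSq (gibbs n β g) ≤ (n : ℝ) ^ 2 / K} : Set (Fin n × Fin n → ℝ))ᶜ
      = 1 - (stdGauss (Fin n × Fin n)).real {g | corrSq (gibbs n β g) ≤ (n : ℝ) ^ 2 / K} :=
    probReal_compl_eq_one_sub hAm
  -- bound for the probability of a small overlap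
  have hbound : (stdGauss (Fin n × Fin n)).real {g | corrSq (gibbs n β g) ≤ (n : ℝ) ^ 2 / K}
      ≤ max C 1 * ε ^ (-θ) * K ^ (-θ) + e := by
    by_cases hcase : 1 / K ≤ ε
    · have h1K : 0 < 1 / K := by positivity
      have hset : {g : Fin n × Fin n → ℝ | corrSq (gibbs n β g) ≤ (n : ℝ) ^ 2 / K}
          = {g | corrSq (gibbs n β g) ≤ 1 / K * (n : ℝ) ^ 2} := by
        ext g
        show corrSq (gibbs n β g) ≤ (n : ℝ) ^ 2 / K ↔ corrSq (gibbs n β g) ≤ 1 / K * (n : ℝ) ^ 2
        rw [show (n : ℝ) ^ 2 / K = 1 / K * (n : ℝ) ^ 2 by ring]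
      have hm := hmain n h5 (1 / K) h1K hcase
      rw [← hset] at hm
      have hpow : (1 / K / ε) ^ θ = ε ^ (-θ) * K ^ (-θ) := by
        rw [show 1 / K / ε = (ε * K)⁻¹ by field_simp, Real.inv_rpow (by positivity),
          Real.mul_rpow hε.le hK.le, Real.rpow_neg hε.le, Real.rpow_neg hK.le, mul_inv]
      rw [hpow] at hm
      have hCm : C * (ε ^ (-θ) * K ^ (-θ)) ≤ max C 1 * ε ^ (-θ) * K ^ (-θ) := by
        have : C ≤ max C 1 := le_max_left _ _
        have hpos : 0 ≤ ε ^ (-θ) * K ^ (-θ) := by positivity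
        nlinarith
      linarith
    · push Not at hcase
      have hεK : ε * K < 1 := by
        rw [lt_div_iff₀ hK] at hcase
        linarith
      have h1 : 1 ≤ (ε * K) ^ (-θ) := by
        rw [Real.rpow_neg (by positivity)]
        rw [one_le_inv₀ (Real.rpow_pos_of_pos (by positivity) _)]
        exact Real.rpow_le_one (by positivity) hεK.le hθ.le
      have h2 : (ε * K) ^ (-θ) = ε ^ (-θ) * K ^ (-θ) := Real.mul_rpow hε.le hK.le
      have h3' : 1 ≤ max C 1 * ε ^ (-θ) * K ^ (-θ) := by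
        have : (1 : ℝ) ≤ max C 1 := le_max_right _ _
        have hpos : 0 ≤ ε ^ (-θ) * K ^ (-θ) := by positivity
        nlinarith
      have : (stdGauss (Fin n × Fin n)).real {g | corrSq (gibbs n β g) ≤ (n : ℝ) ^ 2 / K} ≤ 1 :=
        measureReal_le_one
      linarith
  calc ENNReal.ofReal (1 - max C 1 * ε ^ (-θ) * K ^ (-θ) - e)
      ≤ (stdGauss (Fin n × Fin n))
          ({g | corrSq (gibbs n β g) ≤ (n : ℝ) ^ 2 / K} : Set (Fin n × Fin n → ℝ))ᶜ := by
        rw [ENNReal.ofReal_le_iff_le_toReal (measure_ne_top _ _)]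
        show _ ≤ (stdGauss (Fin n × Fin n)).real _
        rw [hcompl]
        linarith
    _ ≤ _ := measure_mono (slow_of_corrSq_gt hn β K hK)

/-- For every `β > 1` and any sequence `K n → ∞`: with disorder probability tending to one, the
spectral gap is at most `K n / n` and no time below `log 2 · n / K n` is a mixing time. -/
theorem slow_mixing_tendsto_lowtemp (β : ℝ) (hβ : 1 < β) (K : ℕ → ℝ)
    (hK : Filter.Tendsto K Filter.atTop Filter.atTop) :
    Filter.Tendsto (fun n : ℕ => (Measure.pi (fun _ : Fin n × Fin n => gaussianReal 0 1))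
        {g | spectralGap (gibbs n β g) ≤ K n / n ∧
          ∀ t : ℝ, 0 ≤ t → t < Real.log 2 * (n / K n) →
            ∃ x, 1 / 4 < tvDist (gibbs n β g) t x}) Filter.atTop (nhds 1) := by
  have h0 := corrSq_small_tendsto β hβ K hK
  have h2 : Filter.Tendsto (fun n : ℕ => ENNReal.ofReal (1 - (stdGauss (Fin n × Fin n)).real
      {g | corrSq (gibbs n β g) ≤ (n : ℝ) ^ 2 / K n})) Filter.atTop (nhds 1) := by
    have h3 : Filter.Tendsto (fun n : ℕ => 1 - (stdGauss (Fin n × Fin n)).real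
        {g | corrSq (gibbs n β g) ≤ (n : ℝ) ^ 2 / K n}) Filter.atTop (nhds (1 - 0)) :=
      tendsto_const_nhds.sub h0
    have h4 := ENNReal.tendsto_ofReal h3
    simpa using h4
  refine tendsto_of_tendsto_of_tendsto_of_le_of_le' h2 tendsto_const_nhds ?_ ?_
  · filter_upwards [Filter.eventually_ge_atTop 1, hK.eventually_gt_atTop 0] with n hn hKn
    have hnpos : (0 : ℝ) < n := by exact_mod_cast hn
    have hapos : 0 < (n : ℝ) ^ 2 / K n := by positivity
    have hAm : MeasurableSet ({g | corrSq (gibbs n β g) ≤ (n : ℝ) ^ 2 / K n} :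
        Set (Fin n × Fin n → ℝ)) :=
      measurableSet_le (continuous_corrSq β).measurable measurable_const
    have hsub : ({g | corrSq (gibbs n β g) ≤ (n : ℝ) ^ 2 / K n} : Set (Fin n × Fin n → ℝ))ᶜ ⊆
        {g | spectralGap (gibbs n β g) ≤ K n / n ∧
          ∀ t : ℝ, 0 ≤ t → t < Real.log 2 * (n / K n) →
            ∃ x, 1 / 4 < tvDist (gibbs n β g) t x} := by
      intro g hg
      have hg' : (n : ℝ) ^ 2 / K n < corrSq (gibbs n β g) := not_le.1 hg
      refine ⟨?_, ?_⟩
      · have h1 := spectralGap_le_corrSq hn β g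
        have h2 : (n : ℝ) / corrSq (gibbs n β g) ≤ n / ((n : ℝ) ^ 2 / K n) :=
          div_le_div_of_nonneg_left hnpos.le hapos hg'.le
        have h3 : (n : ℝ) / ((n : ℝ) ^ 2 / K n) = K n / n := by
          field_simp
        rw [← h3]
        exact h1.trans h2
      · intro t ht hlt
        refine not_mixed_of_corrSq β g ((n : ℝ) ^ 2 / K n) hapos hg'.le t ht ?_
        calc t * n < Real.log 2 * (n / K n) * n := mul_lt_mul_of_pos_right hlt hnpos
          _ = Real.log 2 * ((n : ℝ) ^ 2 / K n) := by ring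
    have hcompl : (stdGauss (Fin n × Fin n)).real
        ({g | corrSq (gibbs n β g) ≤ (n : ℝ) ^ 2 / K n} : Set (Fin n × Fin n → ℝ))ᶜ
        = 1 - (stdGauss (Fin n × Fin n)).real {g | corrSq (gibbs n β g) ≤ (n : ℝ) ^ 2 / K n} :=
      probReal_compl_eq_one_sub hAm
    calc ENNReal.ofReal (1 - (stdGauss (Fin n × Fin n)).real
          {g | corrSq (gibbs n β g) ≤ (n : ℝ) ^ 2 / K n})
        ≤ (stdGauss (Fin n × Fin n))
            ({g | corrSq (gibbs n β g) ≤ (n : ℝ) ^ 2 / K n} : Set (Fin n × Fin n → ℝ))ᶜ := by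
          rw [ENNReal.ofReal_le_iff_le_toReal (measure_ne_top _ _)]
          show _ ≤ (stdGauss (Fin n × Fin n)).real _
          rw [hcompl]
      _ ≤ _ := measure_mono hsub
  · exact Filter.Eventually.of_forall fun n => prob_le_one

end Vale.Agent.H40.SK
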