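import Vale.Agent.H40.Stein

/-!
TASK RES-A.  Gaussian integration by parts for complex valued functions.

Proof: apply `stein_pi` (real valued, `Vale/Agent/H40/Stein.lean`) to the real part
`fun g => (F g).re` with derivative `fun g => (F' g).re`, and to the imaginary part; then
recombine with `Complex.ext`, moving the real and imaginary part maps `Complex.reCLM`,
`Complex.imCLM` through the integrals.
-/

namespace Vale.Agent.H40

open MeasureTheory ProbabilityTheory Real

variable {ι : Type*} [Fintype ι] [DecidableEq ι]

/-- Gaussian integration by parts in coordinate `k`, complex valued. -/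
lemma stein_pi_complex (k : ι) (F F' : (ι → ℝ) → ℂ) (hF : Measurable F) (hF' : Measurable F')
    (C : ℝ) (hb : ∀ g, ‖F g‖ ≤ C) (hb' : ∀ g, ‖F' g‖ ≤ C)
    (hd : ∀ g u, HasDerivAt (fun v : ℝ => F (Function.update g k v))
      (F' (Function.update g k u)) u) :
    ∫ g, (g k : ℂ) * F g ∂(stdGauss ι) = ∫ g, F' g ∂(stdGauss ι) := by
  have hid : Integrable (fun g : ι → ℝ => g k) (stdGauss ι) :=
    integrable_eval (μ := fun _ : ι => gaussianReal 0 1) (i := k)
      (memLp_id_gaussianReal 1 |>.integrable le_rfl)
  have hidC : Integrable (fun g : ι → ℝ => (g k : ℂ)) (stdGauss ι) := hid.ofReal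
  have hint1 : Integrable (fun g : ι → ℝ => (g k : ℂ) * F g) (stdGauss ι) :=
    hidC.mul_bdd hF.aestronglyMeasurable (ae_of_all _ hb)
  have hint2 : Integrable F' (stdGauss ι) :=
    Integrable.of_bound hF'.aestronglyMeasurable C (ae_of_all _ hb')
  have hre : ∫ g, g k * (F g).re ∂(stdGauss ι) = ∫ g, (F' g).re ∂(stdGauss ι) := by
    apply stein_pi k (fun g => (F g).re) (fun g => (F' g).re)
      (Complex.measurable_re.comp hF) (Complex.measurable_re.comp hF') C
      (fun g => (Complex.abs_re_le_norm _).trans (hb g))
      (fun g => (Complex.abs_re_le_norm _).trans (hb' g))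
    intro g u
    exact Complex.reCLM.hasFDerivAt.comp_hasDerivAt u (hd g u)
  have him : ∫ g, g k * (F g).im ∂(stdGauss ι) = ∫ g, (F' g).im ∂(stdGauss ι) := by
    apply stein_pi k (fun g => (F g).im) (fun g => (F' g).im)
      (Complex.measurable_im.comp hF) (Complex.measurable_im.comp hF') C
      (fun g => (Complex.abs_im_le_norm _).trans (hb g))
      (fun g => (Complex.abs_im_le_norm _).trans (hb' g))
    intro g u
    exact Complex.imCLM.hasFDerivAt.comp_hasDerivAt u (hd g u)
  have r1 := Complex.reCLM.integral_comp_comm hint1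
  have r2 := Complex.reCLM.integral_comp_comm hint2
  have i1 := Complex.imCLM.integral_comp_comm hint1
  have i2 := Complex.imCLM.integral_comp_comm hint2
  simp only [Complex.reCLM_apply, Complex.re_ofReal_mul] at r1 r2
  simp only [Complex.imCLM_apply, Complex.im_ofReal_mul] at i1 i2
  apply Complex.ext
  · rw [← r1, ← r2]
    exact hre
  · rw [← i1, ← i2]
    exact him

end Vale.Agent.H40
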