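import Vale.Agent.H40.Res.ResolventDeriv
import Vale.Agent.H40.Res.SteinC

/-!
Definitions for the Ising part of the resolvent method.  Notation used in the comments:
`M = (⟨x_a x_b⟩)` is the matrix of two-spin correlations `corr (gibbs n β g) (a, b)`,
`W = corrSq (gibbs n β g) = ∑_{a,b} M_ab²`, `G = resolvent n ζ g`.
-/

namespace Vale.Agent.H40.SK

open MeasureTheory ProbabilityTheory Real

/-- The weight ` (W/n² + κ)^(-θ)`. -/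
noncomputable def wgt (n : ℕ) (β κ θ : ℝ) (g : Fin n × Fin n → ℝ) : ℝ :=
  (corrSq (gibbs n β g) / (n : ℝ) ^ 2 + κ) ^ (-θ)

/-- The derivative `-θ (W/n² + κ)^(-θ-1) / n²` of the weight with respect to `W`. -/
noncomputable def dwgt (n : ℕ) (β κ θ : ℝ) (g : Fin n × Fin n → ℝ) : ℝ :=
  -θ * (corrSq (gibbs n β g) / (n : ℝ) ^ 2 + κ) ^ (-θ - 1) / (n : ℝ) ^ 2

/-- `tr (G M)`. -/
noncomputable def tGM (n : ℕ) (ζ : ℂ) (β : ℝ) (g : Fin n × Fin n → ℝ) : ℂ :=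
  ∑ a, ∑ b, resolvent n ζ g a b * (corr (gibbs n β g) (b, a) : ℂ)

/-- `tr (G M²)`. -/
noncomputable def tGM2 (n : ℕ) (ζ : ℂ) (β : ℝ) (g : Fin n × Fin n → ℝ) : ℂ :=
  ∑ a, ∑ b, ∑ c, resolvent n ζ g a b * (corr (gibbs n β g) (b, c) : ℂ)
    * (corr (gibbs n β g) (c, a) : ℂ)

/-- `tr (G² M)`. -/
noncomputable def tG2M (n : ℕ) (ζ : ℂ) (β : ℝ) (g : Fin n × Fin n → ℝ) : ℂ :=
  ∑ a, ∑ b, ∑ c, resolvent n ζ g a b * resolvent n ζ g b c * (corr (gibbs n β g) (c, a) : ℂ)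

/-- `∑_i G_ii (G M)_ii`. -/
noncomputable def dGM (n : ℕ) (ζ : ℂ) (β : ℝ) (g : Fin n × Fin n → ℝ) : ℂ :=
  ∑ i, resolvent n ζ g i i * ∑ j, resolvent n ζ g i j * (corr (gibbs n β g) (j, i) : ℂ)

/-- The Gibbs average `⟨(xᵀ M x) (xᵀ M G x)⟩`. -/
noncomputable def four (n : ℕ) (ζ : ℂ) (β : ℝ) (g : Fin n × Fin n → ℝ) : ℂ :=
  ∑ x : Fin n → Bool, (gibbs n β g x : ℂ)
    * (∑ a, ∑ b, (corr (gibbs n β g) (a, b) : ℂ) * (spin (x a) : ℂ) * (spin (x b) : ℂ))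
    * (∑ a, ∑ b, (∑ c, (corr (gibbs n β g) (a, c) : ℂ) * resolvent n ζ g c b)
        * (spin (x a) : ℂ) * (spin (x b) : ℂ))

/-- The residual of the weighted resolvent identity: its disorder average vanishes. -/
noncomputable def resid (n : ℕ) (ζ : ℂ) (β κ θ : ℝ) (g : Fin n × Fin n → ℝ) : ℂ :=
  (n : ℂ) * (wgt n β κ θ g : ℂ)
    + (n : ℂ)⁻¹ * (wgt n β κ θ g : ℂ) * (tG2M n ζ β g - 2 * dGM n ζ β g)
    - ((β : ℂ) / (n : ℂ)) * (wgt n β κ θ g : ℂ) * tGM2 n ζ β g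
    + (2 * (β : ℂ) / (n : ℂ)) * (dwgt n β κ θ g : ℂ)
        * (four n ζ β g - (corrSq (gibbs n β g) : ℂ) * tGM2 n ζ β g)
    - (wgt n β κ θ g : ℂ) * ((ζ - (β : ℂ) - stieltjes n ζ g) * tGM n ζ β g)

end Vale.Agent.H40.SK
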