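import Vale.Agent.H40.Res.IsingDefs
import Vale.Agent.H40.Res.Eid.Deriv
import Vale.Agent.H40.Res.Eid.Bdd
import Vale.Agent.H40.Res.Eid.Left
import Vale.Agent.H40.Res.Eid.Right

/-!
TASK RES-EID (sub-project).  The weighted resolvent identity for the SK Gibbs measure:
the residual `resid n ζ β κ θ g` (see `IsingDefs.lean`) is a bounded continuous function of the
disorder whose Gaussian average is zero.  In formulas, with `ω = wgt`, `ω' = dwgt`,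
`s = stieltjes`, `W = corrSq`:
`E[ω (ζ - β - s) tGM] = n E[ω] + (1/n) E[ω (tG2M - 2 dGM)] - (β/n) E[ω tGM2]
                          + (2β/n) E[ω' (four - W tGM2)]`.

Black boxes: everything in `JmatAlg.lean`, `Resolvent.lean`, `ResolventDeriv.lean`,
`SteinC.lean` (stubs), and from the landed files `SKGauss.lean`, `SKWhp.lean`:
`corr_hasDerivAt_gen`, `corrSq_hasDerivAt`, `dW`, `corr4`, `abs_corr4_le`, `abs_dW_le`,
`continuous_corr`, `continuous_corr4`, `continuous_corrSq`, `continuous_dW`, `corr_diag`,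
`corr_swap`, `abs_corr_gibbs_le`, `corrSq_le`, `gibbs_sum`, `gibbs_pos`, `upper`, `sum_upper`.

Derivation (the pointwise formulas below were checked numerically by finite differences).
Notation: `M_ab = corr (gibbs n β g) (a,b)` (symmetric, `M_aa = 1`), `G = resolvent n ζ g`
(symmetric), `J = Jmat n g`.  For a pair `p = (i,k)`, `i < k`, `∂_p` is the derivative in `g p`:
  `∂_p G_ab = (√n)⁻¹ (G_ai G_kb + G_ak G_ib)`            (`resolvent_hasDerivAt`),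
  `∂_p M_ab = β (√n)⁻¹ (⟨x_a x_b x_i x_k⟩ - M_ab M_ik)`    (`corr_hasDerivAt_gen`, `corr4`),
  `∂_p W = dW n β p g = 2 β (√n)⁻¹ (∑_{a,b} M_ab ⟨x_a x_b x_i x_k⟩ - W M_ik)` (`corrSq_hasDerivAt`),
  `∂_p ω = ω' * ∂_p W`  (chain rule for `w ↦ (w/n² + κ)^(-θ)`, base positive since `κ > 0`).
Step 1 (left side, pointwise algebra).  By `resolvent_mul_right`,
  `∑_{i,k,j} J_ik G_ji M_kj = ∑_{j,k} (ζ G_jk - δ_jk) M_kj = ζ tGM - n`.
  By `sum_Jmat_mul` the left side equals `∑_{p : p.1 < p.2} g p (√n)⁻¹ Ψ_p`, with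
  `Ψ_p = ∑_j (G_{j,p.1} M_{p.2,j} + G_{j,p.2} M_{p.1,j})`.  Put `Φ_p = ω Ψ_p`.
Step 2 (Gaussian integration by parts, `stein_pi_complex`).  `Φ_p` is bounded with bounded
  derivative in `g p` (for fixed `n, ζ, β, κ, θ`: `|G_ab| ≤ 1/|Im ζ|`, `|M_ab| ≤ 1`,
  `0 < ω ≤ κ^(-θ)` as `θ ≥ 0` and `W ≥ 0`, `|ω'| ≤ θ κ^(-θ-1)/n²`, `|∂_p W|` bounded by
  `abs_dW_le`), and is measurable (continuous), so `E[g p Φ_p] = E[∂_p Φ_p]`.
Step 3 (right side, pointwise algebra).  Summing over `p` with both orientations amounts to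
  summing over ordered pairs `i ≠ k`:  `∑_p √n ∂_p Φ_p = (a) + (b) + (c)` with
  (a) `ω ∑_{i≠k,j} (G_ji G_ki + G_jk G_ii) M_kj = ω (tG2M + (tr G) tGM - 2 dGM)`
      [full sums give `tr(G² M)` and `tr G * tr(G M)`; the two diagonal corrections `i = k` are
      both `∑_i G_ii (G M)_ii = dGM`],
  (b) `β ω ∑_{i≠k,j} G_ji (⟨x_k x_j x_i x_k⟩ - M_kj M_ik) = β ω ∑_{i≠k,j} G_ji (M_ij - M_kj M_ik)
        = β ω (n tGM - tGM2)`
      [`x_k² = 1`; `∑_{i≠k,j} G_ji M_ij = (n-1) tGM`, and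
       `∑_{i≠k,j} G_ji M_ik M_kj = tGM2 - tGM` because `M_ii = 1`],
  (c) `ω' ∑_{i≠k} (M G)_ki * 2β (⟨(xᵀMx) x_i x_k⟩ - W M_ik) = 2 β ω' (four - W tGM2)`
      [`∑_{i≠k} (MG)_ki x_i x_k = xᵀ M G x - tr(M G)`, `∑_{i≠k} (MG)_ki M_ik = tGM2 - tr(M G)`,
       and `⟨xᵀ M x⟩ = W`, so the two `tr(M G)` terms cancel].
Step 4.  `E[ω (ζ tGM - n)] = (1/n) E[(a) + (b) + (c)]`, and `tr G = n s`; rearranging gives
  `E[resid] = 0`.
`resid` is continuous in `g` (all ingredients are) and bounded (for fixed parameters), hence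
integrable against the probability measure.
You may cut this file into rows of your own (tag `eid_`); only the two final statements are
fixed.
-/

namespace Vale.Agent.H40.SK

open MeasureTheory ProbabilityTheory Real

variable {n : ℕ}

/-- The residual as a sum over the pairs `i < k`: derivative term minus coupling term. -/
lemma eid_resid_eq (hn : 1 ≤ n) (ζ : ℂ) (hζ : ζ.im ≠ 0) (β κ θ : ℝ) (g : Fin n × Fin n → ℝ) :
    resid n ζ β κ θ g = ∑ p ∈ upper n, (((√(n : ℝ))⁻¹ : ℝ) : ℂ)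
      * (eidDPhi n ζ β κ θ p g - (g p : ℂ) * eidPhi n ζ β κ θ p g) := by
  have h1 := eid_right hn ζ hζ β κ θ g
  have h2 := eid_left ζ hζ β κ θ g
  simp only [mul_sub, Finset.sum_sub_distrib]
  rw [h1, ← h2]
  ring

lemma eid_integrable_dphi (hn : 1 ≤ n) (ζ : ℂ) (hζ : ζ.im ≠ 0) (β κ θ : ℝ) (hκ : 0 < κ)
    (hθ : 0 ≤ θ) (p : Fin n × Fin n) :
    Integrable (fun g : Fin n × Fin n → ℝ => eidDPhi n ζ β κ θ p g)
      (stdGauss (Fin n × Fin n)) := by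
  obtain ⟨C, hC⟩ := eid_bdd_dphi hn ζ hζ β κ θ hκ hθ p
  exact Integrable.of_bound (eid_continuous_dphi hn ζ hζ β κ θ hκ p).aestronglyMeasurable C
    (ae_of_all _ hC)

lemma eid_integrable_coord_phi (hn : 1 ≤ n) (ζ : ℂ) (hζ : ζ.im ≠ 0) (β κ θ : ℝ) (hκ : 0 < κ)
    (hθ : 0 ≤ θ) (p : Fin n × Fin n) :
    Integrable (fun g : Fin n × Fin n → ℝ => (g p : ℂ) * eidPhi n ζ β κ θ p g)
      (stdGauss (Fin n × Fin n)) := by
  obtain ⟨C, hC⟩ := eid_bdd_phi hn ζ hζ β κ θ hκ hθ p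
  have hid : Integrable (fun g : Fin n × Fin n → ℝ => g p) (stdGauss (Fin n × Fin n)) :=
    integrable_eval (μ := fun _ : Fin n × Fin n => gaussianReal 0 1) (i := p)
      (memLp_id_gaussianReal 1 |>.integrable le_rfl)
  exact hid.ofReal.mul_bdd (eid_continuous_phi hn ζ hζ β κ θ hκ p).aestronglyMeasurable
    (ae_of_all _ hC)

/-- Gaussian integration by parts for `Φ_p`. -/
lemma eid_stein (hn : 1 ≤ n) (ζ : ℂ) (hζ : ζ.im ≠ 0) (β κ θ : ℝ) (hκ : 0 < κ) (hθ : 0 ≤ θ)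
    (p : Fin n × Fin n) (hp : p.1 < p.2) :
    ∫ g, (g p : ℂ) * eidPhi n ζ β κ θ p g ∂(stdGauss (Fin n × Fin n))
      = ∫ g, eidDPhi n ζ β κ θ p g ∂(stdGauss (Fin n × Fin n)) := by
  obtain ⟨C1, hC1⟩ := eid_bdd_phi hn ζ hζ β κ θ hκ hθ p
  obtain ⟨C2, hC2⟩ := eid_bdd_dphi hn ζ hζ β κ θ hκ hθ p
  exact stein_pi_complex p (eidPhi n ζ β κ θ p) (eidDPhi n ζ β κ θ p)
    (eid_continuous_phi hn ζ hζ β κ θ hκ p).measurable
    (eid_continuous_dphi hn ζ hζ β κ θ hκ p).measurable (max C1 C2)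
    (fun g => (hC1 g).trans (le_max_left _ _)) (fun g => (hC2 g).trans (le_max_right _ _))
    (fun g u => eid_phi_hasDerivAt hn ζ hζ β κ θ hκ p hp g u)

/-- The residual is integrable. -/
theorem integrable_resid (n : ℕ) (hn : 1 ≤ n) (ζ : ℂ) (hζ : ζ.im ≠ 0) (β κ θ : ℝ) (hκ : 0 < κ)
    (hθ : 0 ≤ θ) :
    Integrable (fun g : Fin n × Fin n → ℝ => resid n ζ β κ θ g) (stdGauss (Fin n × Fin n)) := by
  have h : (fun g : Fin n × Fin n → ℝ => resid n ζ β κ θ g)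
      = fun g => ∑ p ∈ upper n, (((√(n : ℝ))⁻¹ : ℝ) : ℂ)
        * (eidDPhi n ζ β κ θ p g - (g p : ℂ) * eidPhi n ζ β κ θ p g) :=
    funext fun g => eid_resid_eq hn ζ hζ β κ θ g
  rw [h]
  have hi : ∀ p ∈ upper n, Integrable (fun g : Fin n × Fin n → ℝ => (((√(n : ℝ))⁻¹ : ℝ) : ℂ)
      * (eidDPhi n ζ β κ θ p g - (g p : ℂ) * eidPhi n ζ β κ θ p g))
      (stdGauss (Fin n × Fin n)) := fun p _ =>
    ((eid_integrable_dphi hn ζ hζ β κ θ hκ hθ p).sub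
      (eid_integrable_coord_phi hn ζ hζ β κ θ hκ hθ p)).const_mul _
  exact integrable_finsetSum _ hi

/-- The weighted resolvent identity: the Gaussian average of the residual vanishes. -/
theorem integral_resid (n : ℕ) (hn : 1 ≤ n) (ζ : ℂ) (hζ : ζ.im ≠ 0) (β κ θ : ℝ) (hκ : 0 < κ)
    (hθ : 0 ≤ θ) :
    ∫ g, resid n ζ β κ θ g ∂(stdGauss (Fin n × Fin n)) = 0 := by
  have h : (fun g : Fin n × Fin n → ℝ => resid n ζ β κ θ g)
      = fun g => ∑ p ∈ upper n, (((√(n : ℝ))⁻¹ : ℝ) : ℂ)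
        * (eidDPhi n ζ β κ θ p g - (g p : ℂ) * eidPhi n ζ β κ θ p g) :=
    funext fun g => eid_resid_eq hn ζ hζ β κ θ g
  have hi : ∀ p ∈ upper n, Integrable (fun g : Fin n × Fin n → ℝ => (((√(n : ℝ))⁻¹ : ℝ) : ℂ)
      * (eidDPhi n ζ β κ θ p g - (g p : ℂ) * eidPhi n ζ β κ θ p g))
      (stdGauss (Fin n × Fin n)) := fun p _ =>
    ((eid_integrable_dphi hn ζ hζ β κ θ hκ hθ p).sub
      (eid_integrable_coord_phi hn ζ hζ β κ θ hκ hθ p)).const_mul _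
  rw [h, integral_finsetSum _ hi]
  refine Finset.sum_eq_zero fun p hp => ?_
  have hs : ∫ g, (eidDPhi n ζ β κ θ p g - (g p : ℂ) * eidPhi n ζ β κ θ p g)
        ∂(stdGauss (Fin n × Fin n))
      = ∫ g, eidDPhi n ζ β κ θ p g ∂(stdGauss (Fin n × Fin n))
        - ∫ g, (g p : ℂ) * eidPhi n ζ β κ θ p g ∂(stdGauss (Fin n × Fin n)) :=
    integral_sub (eid_integrable_dphi hn ζ hζ β κ θ hκ hθ p)
      (eid_integrable_coord_phi hn ζ hζ β κ θ hκ hθ p)
  rw [integral_const_mul, hs, eid_stein hn ζ hζ β κ θ hκ hθ p (mem_upper.mp hp), sub_self,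
    mul_zero]

end Vale.Agent.H40.SK
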