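import Vale.Agent.H40.Res.IsingId

/-!
TASK RES-EFIN1.  From the residual identity to a probability bound (abstract form).

Black boxes: `integral_resid`, `integrable_resid` (stubs of `IsingId.lean`); from landed files
`corrSq_le` (`W ≤ n²`), `continuous_corrSq`, `corrSq_pos` / nonnegativity of `corrSq` (a sum of
squares).

Setting: `P = stdGauss (Fin n × Fin n)`, `W = corrSq (gibbs n β g)`, `w = W/n² ∈ [0,1]`,
weight `ω = wgt n β ε₁ θ g = (w + ε₁)^(-θ)` (the parameter `κ` of `wgt` is `ε₁`),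
`R = (resid n ζ β ε₁ θ g).re`.  Hypotheses: `R ≥ n ω (5/8 - β w/δ)` off a measurable set `A`
(`hgood`), `|R| ≤ ‖resid‖ ≤ n ω C₂` everywhere (`hbad`), and `β ε/δ ≤ 1/4`, `0 < ε₁ ≤ ε`.

Proof sketch.  `∫ R dP = Re ∫ resid dP = 0` (`integral_resid`; `integral_re` with
`integrable_resid`).  Split the space into four measurable pieces:
* `A`:  `R ≥ -n ω C₂ ≥ -n ε₁^(-θ) C₂`  (`ω ≤ ε₁^(-θ)` because `w ≥ 0`, `θ ≥ 0`);
* `Aᶜ ∩ {w ≤ ε₁}`:  `5/8 - β w/δ ≥ 5/8 - β ε/δ ≥ 3/8 ≥ 1/4` and `ω ≥ (2 ε₁)^(-θ)`, so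
  `R ≥ (n/4) (2 ε₁)^(-θ)`;
* `Aᶜ ∩ {ε₁ < w ≤ ε}`:  `R ≥ 0`;
* `Aᶜ ∩ {ε < w}`:  `R ≥ -n ω β w/δ ≥ -n ε^(-θ) β/δ`  (`w ≤ 1`, `ω ≤ ε^(-θ)`).
Integrating (`R` is integrable; use `integral_add_compl`-type splitting or bound `R` below by a
simple function and use `integral_mono`):
`0 ≥ (n/4) (2 ε₁)^(-θ) P(Aᶜ ∩ {w ≤ ε₁}) - n ε^(-θ) β/δ - n ε₁^(-θ) C₂ P(A)`.
Divide by `n/4 * (2 ε₁)^(-θ) > 0`:
`P(Aᶜ ∩ {w ≤ ε₁}) ≤ 4 * 2^θ * (β/δ) * (ε₁/ε)^θ + 4 * 2^θ * C₂ * P(A)`,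
and `P(w ≤ ε₁) ≤ P(Aᶜ ∩ {w ≤ ε₁}) + P(A)`.  Finally `{w ≤ ε₁} = {W ≤ ε₁ n²}` as `n ≥ 1`.
(Rpow algebra: ` (2 ε₁)^θ * ε^(-θ) = 2^θ (ε₁/ε)^θ`, ` (2 ε₁)^θ * ε₁^(-θ) = 2^θ`.)
-/

namespace Vale.Agent.H40.SK

open MeasureTheory ProbabilityTheory Real

/-- Probability bound for a small squared overlap, from the residual identity. -/
theorem prob_corrSq_small (n : ℕ) (hn : 1 ≤ n) (ζ : ℂ) (hζ : 0 < ζ.im)
    (β θ δ ε ε₁ C₂ : ℝ) (hβ : 0 ≤ β) (hθ : 0 ≤ θ) (hδ : 0 < δ) (hε : 0 < ε) (hε₁ : 0 < ε₁)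
    (hε₁ε : ε₁ ≤ ε) (hεδ : β * ε / δ ≤ 1 / 4) (hC₂ : 0 ≤ C₂)
    (A : Set (Fin n × Fin n → ℝ)) (hA : MeasurableSet A)
    (hgood : ∀ g, g ∉ A → (n : ℝ) * wgt n β ε₁ θ g *
        (5 / 8 - β * (corrSq (gibbs n β g) / (n : ℝ) ^ 2) / δ) ≤ (resid n ζ β ε₁ θ g).re)
    (hbad : ∀ g, ‖resid n ζ β ε₁ θ g‖ ≤ (n : ℝ) * wgt n β ε₁ θ g * C₂) :
    (stdGauss (Fin n × Fin n)).real {g | corrSq (gibbs n β g) ≤ ε₁ * (n : ℝ) ^ 2}
      ≤ 4 * 2 ^ θ * (β / δ) * (ε₁ / ε) ^ θ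
        + (1 + 4 * 2 ^ θ * C₂) * (stdGauss (Fin n × Fin n)).real A := by
  classical
  have hn0 : (0 : ℝ) < n := by exact_mod_cast hn
  have hn2 : (0 : ℝ) < (n : ℝ) ^ 2 := by positivity
  have hW0 : ∀ g : Fin n × Fin n → ℝ, 0 ≤ corrSq (gibbs n β g) := by
    intro g
    unfold corrSq
    exact Finset.sum_nonneg fun p _ => sq_nonneg _
  have hw0 : ∀ g : Fin n × Fin n → ℝ, 0 ≤ corrSq (gibbs n β g) / (n : ℝ) ^ 2 :=
    fun g => div_nonneg (hW0 g) hn2.le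
  have hw1 : ∀ g : Fin n × Fin n → ℝ, corrSq (gibbs n β g) / (n : ℝ) ^ 2 ≤ 1 :=
    fun g => (div_le_one hn2).2 (corrSq_le β g)
  have hwc : Continuous (fun g : Fin n × Fin n → ℝ => corrSq (gibbs n β g) / (n : ℝ) ^ 2) :=
    (continuous_corrSq β).div_const _
  have hSm : MeasurableSet {g : Fin n × Fin n → ℝ | corrSq (gibbs n β g) / (n : ℝ) ^ 2 ≤ ε₁} :=
    measurableSet_le hwc.measurable measurable_const
  have hSeq : {g : Fin n × Fin n → ℝ | corrSq (gibbs n β g) ≤ ε₁ * (n : ℝ) ^ 2}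
      = {g : Fin n × Fin n → ℝ | corrSq (gibbs n β g) / (n : ℝ) ^ 2 ≤ ε₁} := by
    ext g
    change corrSq (gibbs n β g) ≤ ε₁ * (n : ℝ) ^ 2 ↔ corrSq (gibbs n β g) / (n : ℝ) ^ 2 ≤ ε₁
    rw [div_le_iff₀ hn2]
  rw [hSeq]
  -- abbreviations
  obtain ⟨S, hS⟩ : ∃ S : Set (Fin n × Fin n → ℝ),
      S = {g : Fin n × Fin n → ℝ | corrSq (gibbs n β g) / (n : ℝ) ^ 2 ≤ ε₁} := ⟨_, rfl⟩
  rw [← hS] at hSm ⊢
  have hmemS : ∀ g, g ∈ S ↔ corrSq (gibbs n β g) / (n : ℝ) ^ 2 ≤ ε₁ := by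
    intro g
    rw [hS]
    rfl
  -- the real part of the residual
  have hint := integrable_resid n hn ζ hζ.ne' β ε₁ θ hε₁ hθ
  have hRint : Integrable (fun g : Fin n × Fin n → ℝ => (resid n ζ β ε₁ θ g).re)
      (stdGauss (Fin n × Fin n)) := Complex.reCLM.integrable_comp hint
  have hR0 : ∫ g, (resid n ζ β ε₁ θ g).re ∂(stdGauss (Fin n × Fin n)) = 0 := by
    have h1 := Complex.reCLM.integral_comp_comm hint
    rw [integral_resid n hn ζ hζ.ne' β ε₁ θ hε₁ hθ] at h1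
    simpa using h1
  -- rpow constants
  have h2θ : 0 < (2 : ℝ) ^ θ := rpow_pos_of_pos (by norm_num) _
  have he1 : 0 < ε₁ ^ θ := rpow_pos_of_pos hε₁ _
  have he : 0 < ε ^ θ := rpow_pos_of_pos hε _
  have hr1 : ε₁ ^ (-θ) = (ε₁ ^ θ)⁻¹ := rpow_neg hε₁.le θ
  have hr2 : ε ^ (-θ) = (ε ^ θ)⁻¹ := rpow_neg hε.le θ
  have hr3 : (2 * ε₁) ^ (-θ) = ((2 : ℝ) ^ θ * ε₁ ^ θ)⁻¹ := by
    rw [rpow_neg (by positivity) θ, mul_rpow (by norm_num) hε₁.le]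
  have hr4 : (ε₁ / ε) ^ θ = ε₁ ^ θ / ε ^ θ := div_rpow hε₁.le hε.le θ
  -- the weight
  have hω : ∀ g : Fin n × Fin n → ℝ,
      wgt n β ε₁ θ g = (corrSq (gibbs n β g) / (n : ℝ) ^ 2 + ε₁) ^ (-θ) := fun g => rfl
  have hωpos : ∀ g : Fin n × Fin n → ℝ, 0 < wgt n β ε₁ θ g := by
    intro g
    rw [hω]
    exact rpow_pos_of_pos (by linarith [hw0 g]) _
  have hωle1 : ∀ g : Fin n × Fin n → ℝ, wgt n β ε₁ θ g ≤ ε₁ ^ (-θ) := by
    intro g
    rw [hω]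
    exact rpow_le_rpow_of_nonpos hε₁ (by linarith [hw0 g]) (by linarith)
  have hβδ : 0 ≤ β / δ := div_nonneg hβ hδ.le
  -- the simple lower bound
  have hlow : ∀ g : Fin n × Fin n → ℝ,
      A.indicator (fun _ => -((n : ℝ) * ε₁ ^ (-θ) * C₂)) g
        + (Aᶜ ∩ S).indicator (fun _ => (n : ℝ) / 4 * (2 * ε₁) ^ (-θ)) g
        + (Aᶜ ∩ Sᶜ).indicator (fun _ => -((n : ℝ) * ε ^ (-θ) * (β / δ))) g
      ≤ (resid n ζ β ε₁ θ g).re := by
    intro g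
    by_cases hgA : g ∈ A
    · have i1 : g ∉ Aᶜ ∩ S := fun h => h.1 hgA
      have i2 : g ∉ Aᶜ ∩ Sᶜ := fun h => h.1 hgA
      rw [Set.indicator_of_mem hgA, Set.indicator_of_notMem i1, Set.indicator_of_notMem i2]
      have h1 := Complex.abs_re_le_norm (resid n ζ β ε₁ θ g)
      have h2 := hbad g
      have h3 : (n : ℝ) * wgt n β ε₁ θ g * C₂ ≤ (n : ℝ) * ε₁ ^ (-θ) * C₂ :=
        mul_le_mul_of_nonneg_right (mul_le_mul_of_nonneg_left (hωle1 g) hn0.le) hC₂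
      have h4 := (abs_le.1 h1).1
      linarith
    · have hg := hgood g hgA
      have hgAc : g ∈ Aᶜ := hgA
      by_cases hgS : g ∈ S
      · have i1 : g ∈ Aᶜ ∩ S := ⟨hgAc, hgS⟩
        have i2 : g ∉ Aᶜ ∩ Sᶜ := fun h => h.2 hgS
        rw [Set.indicator_of_notMem hgA, Set.indicator_of_mem i1, Set.indicator_of_notMem i2]
        have hwS : corrSq (gibbs n β g) / (n : ℝ) ^ 2 ≤ ε₁ := (hmemS g).1 hgS
        have hωge : (2 * ε₁) ^ (-θ) ≤ wgt n β ε₁ θ g := by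
          rw [hω]
          exact rpow_le_rpow_of_nonpos (by linarith [hw0 g]) (by linarith) (by linarith)
        have hfrac : β * (corrSq (gibbs n β g) / (n : ℝ) ^ 2) / δ ≤ 1 / 4 := by
          refine le_trans ?_ hεδ
          apply div_le_div_of_nonneg_right _ hδ.le
          exact mul_le_mul_of_nonneg_left (hwS.trans hε₁ε) hβ
        have h2pos : 0 < (2 * ε₁) ^ (-θ) := rpow_pos_of_pos (by positivity) _
        have h5 : (n : ℝ) / 4 * (2 * ε₁) ^ (-θ) ≤ (n : ℝ) * wgt n β ε₁ θ g *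
            (5 / 8 - β * (corrSq (gibbs n β g) / (n : ℝ) ^ 2) / δ) := by
          have h6 : (n : ℝ) * (2 * ε₁) ^ (-θ) * (1 / 4) ≤ (n : ℝ) * wgt n β ε₁ θ g *
              (5 / 8 - β * (corrSq (gibbs n β g) / (n : ℝ) ^ 2) / δ) := by
            apply mul_le_mul (mul_le_mul_of_nonneg_left hωge hn0.le) (by linarith)
              (by norm_num) (by have := hωpos g; positivity)
          linarith
        simp only [zero_add, add_zero]
        linarith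
      · have i1 : g ∉ Aᶜ ∩ S := fun h => hgS h.2
        have i2 : g ∈ Aᶜ ∩ Sᶜ := ⟨hgAc, hgS⟩
        rw [Set.indicator_of_notMem hgA, Set.indicator_of_notMem i1, Set.indicator_of_mem i2]
        have hwS : ε₁ < corrSq (gibbs n β g) / (n : ℝ) ^ 2 := by
          by_contra hcon
          exact hgS ((hmemS g).2 (not_lt.1 hcon))
        simp only [zero_add]
        have hnω : 0 < (n : ℝ) * wgt n β ε₁ θ g := mul_pos hn0 (hωpos g)
        by_cases hwe : corrSq (gibbs n β g) / (n : ℝ) ^ 2 ≤ ε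
        · have hfrac : β * (corrSq (gibbs n β g) / (n : ℝ) ^ 2) / δ ≤ 1 / 4 := by
            refine le_trans ?_ hεδ
            apply div_le_div_of_nonneg_right _ hδ.le
            exact mul_le_mul_of_nonneg_left hwe hβ
          have h5 : 0 ≤ (n : ℝ) * wgt n β ε₁ θ g *
              (5 / 8 - β * (corrSq (gibbs n β g) / (n : ℝ) ^ 2) / δ) :=
            mul_nonneg hnω.le (by linarith)
          have h6 : 0 ≤ (n : ℝ) * ε ^ (-θ) * (β / δ) := by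
            have : 0 < ε ^ (-θ) := rpow_pos_of_pos hε _
            positivity
          linarith
        · have hwe' : ε < corrSq (gibbs n β g) / (n : ℝ) ^ 2 := not_le.1 hwe
          have hωle : wgt n β ε₁ θ g ≤ ε ^ (-θ) := by
            rw [hω]
            exact rpow_le_rpow_of_nonpos hε (by linarith) (by linarith)
          have h7 : β * (corrSq (gibbs n β g) / (n : ℝ) ^ 2) / δ ≤ β / δ := by
            apply div_le_div_of_nonneg_right _ hδ.le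
            calc β * (corrSq (gibbs n β g) / (n : ℝ) ^ 2) ≤ β * 1 :=
                  mul_le_mul_of_nonneg_left (hw1 g) hβ
              _ = β := mul_one β
          have h8 : (n : ℝ) * wgt n β ε₁ θ g * (β / δ) ≤ (n : ℝ) * ε ^ (-θ) * (β / δ) :=
            mul_le_mul_of_nonneg_right (mul_le_mul_of_nonneg_left hωle hn0.le) hβδ
          have h9 : (n : ℝ) * wgt n β ε₁ θ g *
              (5 / 8 - β * (corrSq (gibbs n β g) / (n : ℝ) ^ 2) / δ)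
              ≥ -((n : ℝ) * wgt n β ε₁ θ g * (β / δ)) := by
            have : (n : ℝ) * wgt n β ε₁ θ g * (5 / 8 - β * (corrSq (gibbs n β g) / (n : ℝ) ^ 2) / δ)
                ≥ (n : ℝ) * wgt n β ε₁ θ g * (-(β / δ)) :=
              mul_le_mul_of_nonneg_left (by linarith) hnω.le
            linarith
          linarith
  -- integrate the lower bound
  have hAcS : MeasurableSet (Aᶜ ∩ S) := hA.compl.inter hSm
  have hAcSc : MeasurableSet (Aᶜ ∩ Sᶜ) := hA.compl.inter hSm.compl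
  have hi1 : Integrable (A.indicator (fun _ : Fin n × Fin n → ℝ => -((n : ℝ) * ε₁ ^ (-θ) * C₂)))
      (stdGauss (Fin n × Fin n)) := (integrable_const _).indicator hA
  have hi2 : Integrable ((Aᶜ ∩ S).indicator
      (fun _ : Fin n × Fin n → ℝ => (n : ℝ) / 4 * (2 * ε₁) ^ (-θ)))
      (stdGauss (Fin n × Fin n)) := (integrable_const _).indicator hAcS
  have hi3 : Integrable ((Aᶜ ∩ Sᶜ).indicator
      (fun _ : Fin n × Fin n → ℝ => -((n : ℝ) * ε ^ (-θ) * (β / δ))))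
      (stdGauss (Fin n × Fin n)) := (integrable_const _).indicator hAcSc
  have hmono := integral_mono ((hi1.add hi2).add hi3) hRint hlow
  rw [hR0] at hmono
  have hsplit : ∫ g, (A.indicator (fun _ => -((n : ℝ) * ε₁ ^ (-θ) * C₂)) g
        + (Aᶜ ∩ S).indicator (fun _ => (n : ℝ) / 4 * (2 * ε₁) ^ (-θ)) g
        + (Aᶜ ∩ Sᶜ).indicator (fun _ => -((n : ℝ) * ε ^ (-θ) * (β / δ))) g)
        ∂(stdGauss (Fin n × Fin n))
      = (stdGauss (Fin n × Fin n)).real A * -((n : ℝ) * ε₁ ^ (-θ) * C₂)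
        + (stdGauss (Fin n × Fin n)).real (Aᶜ ∩ S) * ((n : ℝ) / 4 * (2 * ε₁) ^ (-θ))
        + (stdGauss (Fin n × Fin n)).real (Aᶜ ∩ Sᶜ) * -((n : ℝ) * ε ^ (-θ) * (β / δ)) := by
    have q1 := integral_add (hi1.add hi2) hi3
    have q2 := integral_add hi1 hi2
    simp only [Pi.add_apply] at q1 q2
    rw [q1, q2, integral_indicator_const _ hA, integral_indicator_const _ hAcS,
      integral_indicator_const _ hAcSc]
    simp only [smul_eq_mul]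
  have hmono' : (stdGauss (Fin n × Fin n)).real A * -((n : ℝ) * ε₁ ^ (-θ) * C₂)
        + (stdGauss (Fin n × Fin n)).real (Aᶜ ∩ S) * ((n : ℝ) / 4 * (2 * ε₁) ^ (-θ))
        + (stdGauss (Fin n × Fin n)).real (Aᶜ ∩ Sᶜ) * -((n : ℝ) * ε ^ (-θ) * (β / δ)) ≤ 0 := by
    rw [← hsplit]
    simpa only [Pi.add_apply] using hmono
  -- probabilities
  have hp3 : (stdGauss (Fin n × Fin n)).real (Aᶜ ∩ Sᶜ) ≤ 1 := measureReal_le_one
  have hp3' : 0 ≤ (stdGauss (Fin n × Fin n)).real (Aᶜ ∩ Sᶜ) := measureReal_nonneg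
  have hpA : 0 ≤ (stdGauss (Fin n × Fin n)).real A := measureReal_nonneg
  have hp1 : 0 ≤ (stdGauss (Fin n × Fin n)).real (Aᶜ ∩ S) := measureReal_nonneg
  have hSle : (stdGauss (Fin n × Fin n)).real S
      ≤ (stdGauss (Fin n × Fin n)).real (Aᶜ ∩ S) + (stdGauss (Fin n × Fin n)).real A := by
    refine le_trans (measureReal_mono ?_) (measureReal_union_le _ _)
    intro g hg
    by_cases hgA : g ∈ A
    · exact Or.inr hgA
    · exact Or.inl ⟨hgA, hg⟩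
  -- final algebra
  rw [hr1, hr2, hr3] at hmono'
  rw [hr4]
  obtain ⟨a, ha⟩ : ∃ a : ℝ, a = (2 : ℝ) ^ θ := ⟨_, rfl⟩
  obtain ⟨e1, he1'⟩ : ∃ e1 : ℝ, e1 = ε₁ ^ θ := ⟨_, rfl⟩
  obtain ⟨e, he'⟩ : ∃ e : ℝ, e = ε ^ θ := ⟨_, rfl⟩
  obtain ⟨pA, hpA'⟩ : ∃ pA : ℝ, pA = (stdGauss (Fin n × Fin n)).real A := ⟨_, rfl⟩
  obtain ⟨p1, hp1'⟩ : ∃ p1 : ℝ, p1 = (stdGauss (Fin n × Fin n)).real (Aᶜ ∩ S) := ⟨_, rfl⟩
  obtain ⟨p3, hp3''⟩ : ∃ p3 : ℝ, p3 = (stdGauss (Fin n × Fin n)).real (Aᶜ ∩ Sᶜ) := ⟨_, rfl⟩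
  rw [← ha, ← he1', ← he', ← hpA', ← hp1', ← hp3''] at hmono'
  rw [← ha, ← he1', ← he', ← hpA']
  rw [← ha] at h2θ
  rw [← he1'] at he1
  rw [← he'] at he
  rw [← hpA'] at hpA hSle
  rw [← hp1'] at hp1 hSle
  rw [← hp3''] at hp3 hp3'
  have hkey : p1 ≤ 4 * a * C₂ * pA + 4 * a * (β / δ) * (e1 / e) := by
    have h10 : p1 * ((n : ℝ) / 4 * (a * e1)⁻¹)
        ≤ pA * ((n : ℝ) * e1⁻¹ * C₂) + (n : ℝ) * e⁻¹ * (β / δ) := by
      have h11 : p3 * ((n : ℝ) * e⁻¹ * (β / δ)) ≤ 1 * ((n : ℝ) * e⁻¹ * (β / δ)) :=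
        mul_le_mul_of_nonneg_right hp3 (by positivity)
      linarith
    have h12 : p1 = (4 * a * e1 / (n : ℝ)) * (p1 * ((n : ℝ) / 4 * (a * e1)⁻¹)) := by
      field_simp
    have h13 : (4 * a * e1 / (n : ℝ)) * (pA * ((n : ℝ) * e1⁻¹ * C₂) + (n : ℝ) * e⁻¹ * (β / δ))
        = 4 * a * C₂ * pA + 4 * a * (β / δ) * (e1 / e) := by
      field_simp
    rw [h12, ← h13]
    exact mul_le_mul_of_nonneg_left h10 (by positivity)
  linarith

end Vale.Agent.H40.SK
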