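import Vale.Agent.H40.Res.Defs

/-!
TASK RES-B1 (done, helper39).  Elementary algebra of the coupling matrix `Jmat`.

Proof sketches.
* `Jmat_symm`, `Jmat_diag`, `Jmat_of_lt`: unfold `Jmat`, case split on `i < k`, `k < i`.
* `energy_eq_Jmat`: `energy n g x = (√n)⁻¹ ∑_{p : p.1 < p.2} g p s_{p.1} s_{p.2}`; the double sum of
  `Jmat i k s_i s_k` over all ` (i,k)` counts every pair `i < k` twice (use `sum_pairs_split` of
  `SKGauss.lean` or split the sum over `Fin n × Fin n` by `i < k`, `i = k`, `k < i` and swap).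
* `sum_Jmat_mul`: same splitting, for a complex valued `F`.
* `continuous_qform`, `qform_smul`, `qform_eq_sum`: unfold; `qform_eq_sum` is the same splitting.
* `measurableSet_edgeBad`: `edgeBad n a = ⋃ v, {g | a * ∑ i, v i ^ 2 < qform n g v}`, each set is
  open by `continuous_qform` (`isOpen_lt`), so the union is open (`isOpen_iUnion`), hence
  measurable (`IsOpen.measurableSet`).
-/

namespace Vale.Agent.H40.SK

open MeasureTheory ProbabilityTheory Real

variable {n : ℕ}

/-- Splitting of a double sum with vanishing diagonal into the pairs `i < k`. -/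
lemma rb1_sum_split {M : Type*} [AddCommMonoid M] (G : Fin n → Fin n → M)
    (hG : ∀ i, G i i = 0) :
    ∑ i, ∑ k, G i k = ∑ p : Fin n × Fin n, if p.1 < p.2 then G p.1 p.2 + G p.2 p.1 else 0 := by
  rw [← Fintype.sum_prod_type']
  have h1 : ∀ p : Fin n × Fin n, G p.1 p.2
      = (if p.1 < p.2 then G p.1 p.2 else 0) + (if p.2 < p.1 then G p.1 p.2 else 0) := by
    intro p
    rcases lt_trichotomy p.1 p.2 with h | h | h
    · simp [h, h.not_gt]
    · simp [h, hG]
    · simp [h, h.not_gt]
  rw [Finset.sum_congr rfl (fun p _ => h1 p), Finset.sum_add_distrib]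
  have h2 : ∑ p : Fin n × Fin n, (if p.2 < p.1 then G p.1 p.2 else 0)
      = ∑ p : Fin n × Fin n, (if p.1 < p.2 then G p.2 p.1 else 0) := by
    rw [← (Equiv.prodComm (Fin n) (Fin n)).sum_comp]
    rfl
  rw [h2, ← Finset.sum_add_distrib]
  refine Finset.sum_congr rfl (fun p _ => ?_)
  split_ifs <;> simp

lemma Jmat_symm (g : Fin n × Fin n → ℝ) (i k : Fin n) : Jmat n g i k = Jmat n g k i := by
  unfold Jmat
  rcases lt_trichotomy i k with h | h | h
  · simp [h, h.not_gt]
  · subst h
    rfl
  · simp [h, h.not_gt]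

lemma Jmat_diag (g : Fin n × Fin n → ℝ) (i : Fin n) : Jmat n g i i = 0 := by
  unfold Jmat
  simp

lemma Jmat_of_lt (g : Fin n × Fin n → ℝ) {i k : Fin n} (h : i < k) :
    Jmat n g i k = g (i, k) / √(n : ℝ) := by
  unfold Jmat
  simp [h]

/-- The energy is half the quadratic form of `Jmat` at the spin vector. -/
lemma energy_eq_Jmat (g : Fin n × Fin n → ℝ) (x : Fin n → Bool) :
    energy n g x = 1 / 2 * ∑ i, ∑ k, Jmat n g i k * spin (x i) * spin (x k) := by
  rw [rb1_sum_split (fun i k => Jmat n g i k * spin (x i) * spin (x k))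
    (fun i => by simp [Jmat_diag])]
  unfold energy
  rw [Finset.mul_sum, Finset.mul_sum]
  refine Finset.sum_congr rfl (fun p _ => ?_)
  split_ifs with h
  · rw [Jmat_symm g p.2 p.1, Jmat_of_lt g h, div_eq_mul_inv]
    have hp : (p.1, p.2) = p := rfl
    rw [hp]
    ring
  · simp

/-- A sum against `Jmat` over all ordered pairs is a sum over the pairs `i < k` of the coupling
times the two orientations. -/
lemma sum_Jmat_mul (g : Fin n × Fin n → ℝ) (F : Fin n → Fin n → ℂ) :
    ∑ i, ∑ k, (Jmat n g i k : ℂ) * F i k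
      = ∑ p : Fin n × Fin n, if p.1 < p.2 then
          ((g p : ℂ) * ((√(n : ℝ))⁻¹ : ℝ)) * (F p.1 p.2 + F p.2 p.1) else 0 := by
  rw [rb1_sum_split (fun i k => (Jmat n g i k : ℂ) * F i k) (fun i => by simp [Jmat_diag])]
  refine Finset.sum_congr rfl (fun p _ => ?_)
  split_ifs with h
  · rw [Jmat_symm g p.2 p.1, Jmat_of_lt g h, div_eq_mul_inv, Complex.ofReal_mul]
    have hp : (p.1, p.2) = p := rfl
    rw [hp]
    ring
  · rfl

/-- Each entry of the coupling matrix is continuous in the disorder. -/
lemma rb1_continuous_Jmat (i k : Fin n) :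
    Continuous (fun g : Fin n × Fin n → ℝ => Jmat n g i k) := by
  unfold Jmat
  split_ifs
  · exact (continuous_apply (i, k)).div_const _
  · exact (continuous_apply (k, i)).div_const _
  · exact continuous_const

/-- The quadratic form is continuous in the disorder. -/
lemma continuous_qform (v : Fin n → ℝ) : Continuous (fun g : Fin n × Fin n → ℝ => qform n g v) := by
  unfold qform
  exact continuous_finsetSum _ (fun i _ => continuous_finsetSum _ (fun k _ =>
    ((rb1_continuous_Jmat i k).mul continuous_const).mul continuous_const))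

/-- The quadratic form is homogeneous of degree two in the vector. -/
lemma qform_smul (g : Fin n × Fin n → ℝ) (c : ℝ) (v : Fin n → ℝ) :
    qform n g (fun i => c * v i) = c ^ 2 * qform n g v := by
  unfold qform
  rw [Finset.mul_sum]
  refine Finset.sum_congr rfl (fun i _ => ?_)
  rw [Finset.mul_sum]
  refine Finset.sum_congr rfl (fun k _ => ?_)
  ring

/-- The quadratic form as a linear function of the disorder:
`vᵀ J v = (2/√n) ∑_{i<k} g (i,k) v_i v_k`. -/
lemma qform_eq_sum (g : Fin n × Fin n → ℝ) (v : Fin n → ℝ) :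
    qform n g v = ∑ p : Fin n × Fin n,
      (if p.1 < p.2 then 2 * (√(n : ℝ))⁻¹ * v p.1 * v p.2 else 0) * g p := by
  unfold qform
  rw [rb1_sum_split (fun i k => Jmat n g i k * v i * v k) (fun i => by simp [Jmat_diag])]
  refine Finset.sum_congr rfl (fun p _ => ?_)
  split_ifs with h
  · rw [Jmat_symm g p.2 p.1, Jmat_of_lt g h, div_eq_mul_inv]
    have hp : (p.1, p.2) = p := rfl
    rw [hp]
    ring
  · simp

/-- The set `edgeBad n a` is open (a union over `v` of open sets), hence measurable. -/
lemma measurableSet_edgeBad (a : ℝ) : MeasurableSet (edgeBad n a) := by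
  have h : edgeBad n a = ⋃ v : Fin n → ℝ, {g | a * ∑ i, v i ^ 2 < qform n g v} := by
    ext g
    simp [edgeBad]
  rw [h]
  exact (isOpen_iUnion (fun v => isOpen_lt continuous_const (continuous_qform v))).measurableSet

end Vale.Agent.H40.SK
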