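import Vale.Agent.H40.Res.Stieltjes

/-!
TASK RES-D2A.  With probability tending to one the coupling matrix has an eigenvalue above any
`b < 2`: the probability of ` (edgeBad n b)ᶜ = {g | ∀ v, qform n g v ≤ b * ∑ i, v i ^ 2}` tends
to zero.

Black boxes: `stieltjes_tendsto` (stub of `Stieltjes.lean`), `stieltjes_im_ge_of_edge`,
`im_add_inv_pos` (stubs of `Resolvent.lean`, `ResolventDeriv.lean`).

Proof sketch.  The sets ` (edgeBad n b)ᶜ` increase with `b`, so we may assume `1 ≤ b < 2`.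
Choose an angle `φ ∈ (0, π/2)` with `2 cos φ > b`, put `E₀ = 2 cos φ`, and `τ = r e^{iφ}` with
`r > 1` close to `1` (to be fixed).  Then `ζ = τ + 1/τ` has
`Re ζ = (r + 1/r) cos φ ≥ 2 cos φ = E₀ > b` and `η = Im ζ = (r - 1/r) sin φ > 0`, and
`Im (1/τ) = -sin φ / r`.
If `g ∉ edgeBad n b`, then `-(η / (Re ζ - b)²) ≤ Im (stieltjes n ζ g) ≤ 0`
(`stieltjes_im_ge_of_edge`), so
`|stieltjes n ζ g - 1/τ| ≥ |Im (1/τ)| - |Im stieltjes| ≥ sin φ / r - η / (E₀ - b)²`.
Choose `r` so close to `1` that `sin φ / r ≥ (3/4) sin φ` and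
`η / (E₀ - b)² = (r - 1/r) sin φ / (E₀ - b)² ≤ (1/4) sin φ`; then the distance is at least
` (1/2) sin φ > ρ := (1/4) sin φ`.  Hence ` (edgeBad n b)ᶜ ⊆ stieltjesBad n τ ρ` for every `n`, and
the claim follows from `stieltjes_tendsto τ _ _ ρ _` by monotonicity of the measure
(squeeze between `0` and a sequence tending to `0`).
(Any explicit choice is fine, for instance without trigonometry: `τ = r (x + i y)` with
`x = (b + 2)/4`, `y = √(1 - x²)`.)
-/

namespace Vale.Agent.H40.SK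

open MeasureTheory ProbabilityTheory Real

/-- Task RES-D2A, real parameters: a point `x + i y` of the unit circle with `2 x > b'` and a
radius `r > 1` so close to `1` that the imaginary part of `τ + 1/τ`, `τ = r (x + i y)`, is small
against the gap. -/
lemma resd2a_real (b' : ℝ) (h0 : 0 ≤ b') (h2 : b' < 2) :
    ∃ x y r : ℝ, 0 < y ∧ x ^ 2 + y ^ 2 = 1 ∧ 1 < r ∧ b' < r * x + x / r ∧
      0 < r * y - y / r ∧ (r * y - y / r) / (r * x + x / r - b') ^ 2 ≤ y / 4 ∧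
      3 * y / 4 ≤ y / r := by
  have hx1 : (b' + 2) / 4 < 1 := by linarith
  have hx0 : 1 / 2 ≤ (b' + 2) / 4 := by linarith
  have hD0 : 0 < 2 * ((b' + 2) / 4) - b' := by linarith
  have hD1 : 2 * ((b' + 2) / 4) - b' ≤ 1 := by linarith
  generalize (b' + 2) / 4 = x at hx1 hx0 hD0 hD1
  have hxpos : 0 < x := by linarith
  have hxx : 0 < 1 - x ^ 2 := by nlinarith
  have hy0 : 0 < √(1 - x ^ 2) := Real.sqrt_pos.mpr hxx
  have hxy : x ^ 2 + √(1 - x ^ 2) ^ 2 = 1 := by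
    rw [Real.sq_sqrt hxx.le]; ring
  generalize √(1 - x ^ 2) = y at hy0 hxy
  have hDdef : b' = 2 * x - (2 * x - b') := by ring
  generalize 2 * x - b' = D at hD0 hD1 hDdef
  have hr1 : 1 < 1 + D ^ 2 / 8 := by
    have : 0 < D ^ 2 := by positivity
    linarith
  have hr2 : 1 + D ^ 2 / 8 ≤ 9 / 8 := by
    have : D ^ 2 ≤ 1 := by
      have := mul_le_mul hD1 hD1 hD0.le (by norm_num : (0 : ℝ) ≤ 1)
      nlinarith
    linarith
  have hDr : D ^ 2 = 8 * (1 + D ^ 2 / 8 - 1) := by ring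
  generalize 1 + D ^ 2 / 8 = r at hr1 hr2 hDr
  have hr0 : 0 < r := by linarith
  have hyr : y * (2 - r) ≤ y / r := by
    rw [le_div_iff₀ hr0]
    have h := mul_nonneg hy0.le (sq_nonneg (r - 1))
    linarith
  have hxr : x * (2 - r) ≤ x / r := by
    rw [le_div_iff₀ hr0]
    have h := mul_nonneg hxpos.le (sq_nonneg (r - 1))
    linarith
  have hyr2 : y / r < y := by
    rw [div_lt_iff₀ hr0]
    have := mul_pos hy0 (sub_pos.mpr hr1)
    linarith
  have hry : y < r * y := by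
    have := mul_pos hy0 (sub_pos.mpr hr1)
    linarith
  have hζim_le : r * y - y / r ≤ y * (D ^ 2 / 4) := by
    rw [hDr]
    linarith
  have hge : D ≤ r * x + x / r - b' := by linarith
  refine ⟨x, y, r, hy0, hxy, hr1, by linarith, by linarith, ?_, ?_⟩
  · have hpos : 0 < (r * x + x / r - b') ^ 2 := by
      have : 0 < r * x + x / r - b' := by linarith
      positivity
    rw [div_le_iff₀ hpos]
    have hsq : D ^ 2 ≤ (r * x + x / r - b') ^ 2 := pow_le_pow_left₀ hD0.le hge 2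
    have h5 := mul_le_mul_of_nonneg_left hsq hy0.le
    calc r * y - y / r ≤ y * (D ^ 2 / 4) := hζim_le
      _ = y * D ^ 2 / 4 := by ring
      _ ≤ y * (r * x + x / r - b') ^ 2 / 4 := by linarith
      _ = y / 4 * (r * x + x / r - b') ^ 2 := by ring
  · rw [le_div_iff₀ hr0]
    have := mul_le_mul_of_nonneg_left hr2 hy0.le
    linarith

/-- Task RES-D2A, complex parameters. -/
lemma resd2a_tau (x y r : ℝ) (hy0 : 0 < y) (hxy : x ^ 2 + y ^ 2 = 1) (hr1 : 1 < r) :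
    ∃ τ : ℂ, 0 < τ.im ∧ 1 < ‖τ‖ ∧ (τ⁻¹).im = -y / r ∧ (τ + τ⁻¹).re = r * x + x / r ∧
      (τ + τ⁻¹).im = r * y - y / r := by
  have hr0 : 0 < r := by linarith
  have hns : Complex.normSq ⟨r * x, r * y⟩ = r ^ 2 := by
    rw [Complex.normSq_apply]
    calc r * x * (r * x) + r * y * (r * y) = r ^ 2 * (x ^ 2 + y ^ 2) := by ring
      _ = r ^ 2 := by rw [hxy]; ring
  have hinv_im : ((⟨r * x, r * y⟩ : ℂ)⁻¹).im = -y / r := by
    rw [Complex.inv_im, hns]
    field_simp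
  have hinv_re : ((⟨r * x, r * y⟩ : ℂ)⁻¹).re = x / r := by
    rw [Complex.inv_re, hns]
    field_simp
  refine ⟨⟨r * x, r * y⟩, mul_pos hr0 hy0, ?_, hinv_im, ?_, ?_⟩
  · have h2 : ‖(⟨r * x, r * y⟩ : ℂ)‖ ^ 2 = r ^ 2 := by rw [Complex.sq_norm, hns]
    have h3 : (1 : ℝ) ^ 2 < ‖(⟨r * x, r * y⟩ : ℂ)‖ ^ 2 := by
      rw [h2]
      have := mul_pos (sub_pos.mpr hr1) (sub_pos.mpr hr1)
      nlinarith
    exact lt_of_pow_lt_pow_left₀ 2 (norm_nonneg _) h3
  · rw [Complex.add_re, hinv_re]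
  · rw [Complex.add_im, hinv_im]; ring

/-- With probability tending to one, the coupling matrix has an eigenvalue above `b < 2`. -/
theorem lowerEdge_tendsto (b : ℝ) (hb : b < 2) :
    Filter.Tendsto (fun n : ℕ => (stdGauss (Fin n × Fin n)).real (edgeBad n b)ᶜ)
      Filter.atTop (nhds 0) := by
  have hb'0 : 0 ≤ max b 0 := le_max_right _ _
  have hb'2 : max b 0 < 2 := max_lt hb (by norm_num)
  have hbb' : b ≤ max b 0 := le_max_left _ _
  generalize max b 0 = b' at hb'0 hb'2 hbb'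
  obtain ⟨x, y, r, hy0, hxy, hr1, ha, hζim0, hquot, h34⟩ := resd2a_real b' hb'0 hb'2
  obtain ⟨τ, hτim0, hτ1, hinv_im, hζre, hζim⟩ := resd2a_tau x y r hy0 hxy hr1
  have hρ : 0 < y / 4 := by positivity
  have hsub : ∀ n : ℕ, (edgeBad n b)ᶜ ⊆ stieltjesBad n τ (y / 4) := by
    intro n g hg
    have hg' : g ∉ edgeBad n b' := by
      rintro ⟨v, hv⟩
      apply hg
      refine ⟨v, lt_of_le_of_lt ?_ hv⟩
      exact mul_le_mul_of_nonneg_right hbb' (Finset.sum_nonneg fun i _ => sq_nonneg _)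
    have ha' : b' < (τ + τ⁻¹).re := by rw [hζre]; exact ha
    have hζ0 : 0 < (τ + τ⁻¹).im := by rw [hζim]; exact hζim0
    have h1 := stieltjes_im_ge_of_edge (τ + τ⁻¹) hζ0 b' ha' g hg'
    rw [hζre, hζim] at h1
    have h4 : (stieltjes n (τ + τ⁻¹) g - τ⁻¹).im = (stieltjes n (τ + τ⁻¹) g).im + y / r := by
      rw [Complex.sub_im, hinv_im]; ring
    have h3 : |(stieltjes n (τ + τ⁻¹) g - τ⁻¹).im| ≤ ‖stieltjes n (τ + τ⁻¹) g - τ⁻¹‖ :=
      Complex.abs_im_le_norm _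
    show y / 4 < ‖stieltjes n (τ + τ⁻¹) g - τ⁻¹‖
    calc y / 4 < y / 2 := by linarith
      _ ≤ (stieltjes n (τ + τ⁻¹) g - τ⁻¹).im := by rw [h4]; linarith
      _ ≤ |(stieltjes n (τ + τ⁻¹) g - τ⁻¹).im| := le_abs_self _
      _ ≤ ‖stieltjes n (τ + τ⁻¹) g - τ⁻¹‖ := h3
  have hle : ∀ n : ℕ, (stdGauss (Fin n × Fin n)).real (edgeBad n b)ᶜ ≤
      (stdGauss (Fin n × Fin n)).real (stieltjesBad n τ (y / 4)) := fun n =>
    measureReal_mono (hsub n)
  exact squeeze_zero (fun n => measureReal_nonneg) hle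
    (stieltjes_tendsto τ hτim0 hτ1 (y / 4) hρ)

end Vale.Agent.H40.SK
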