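import Vale.Agent.H40.Res.ResolventDeriv
import Vale.Agent.H40.Res.SteinC

/-!
Definitions for TASK RES-C (`Stieltjes.lean`, sub-project owner helper27), shared by the sub-rows
RESC-A (`RescTrace.lean`), RESC-B1 (`RescDeriv.lean`), RESC-B2 (`RescStein.lean`),
RESC-C (`RescErr.lean`) and the assembly `Stieltjes.lean`.

Notation: `ζ` a complex number off the real axis, `G = resolvent n ζ g`, `s = stieltjes n ζ g`
`= (1/n) ∑_a G a a`, `D = s² - ζ s + 1`, `c = (√n)⁻¹`.  For a pair `p` with `p.1 < p.2`: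
`Φ_p = (G_{p.1 p.2} + G_{p.2 p.1}) * conj D`, and `rescDPhi` is the derivative of `Φ_p` in the
coupling `g p`.
-/

namespace Vale.Agent.H40.SK

open MeasureTheory ProbabilityTheory Real

/-- `D = s² - ζ s + 1` for the normalised resolvent trace `s`. -/
noncomputable def rescD (n : ℕ) (ζ : ℂ) (g : Fin n × Fin n → ℝ) : ℂ :=
  stieltjes n ζ g ^ 2 - ζ * stieltjes n ζ g + 1

/-- `W_p = ∑_a (G_{a,p.1} G_{p.2,a} + G_{a,p.2} G_{p.1,a})`, that is `2 (G²)_{p.1 p.2}`; the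
derivative of `n * s` in the coupling `g p` is ` (√n)⁻¹ * W_p`. -/
noncomputable def rescW (n : ℕ) (ζ : ℂ) (p : Fin n × Fin n) (g : Fin n × Fin n → ℝ) : ℂ :=
  ∑ a, (resolvent n ζ g a p.1 * resolvent n ζ g p.2 a
    + resolvent n ζ g a p.2 * resolvent n ζ g p.1 a)

/-- `Φ_p = (G_{p.1 p.2} + G_{p.2 p.1}) * conj D`. -/
noncomputable def rescPhi (n : ℕ) (ζ : ℂ) (p : Fin n × Fin n) (g : Fin n × Fin n → ℝ) : ℂ :=
  (resolvent n ζ g p.1 p.2 + resolvent n ζ g p.2 p.1) * (starRingEnd ℂ) (rescD n ζ g)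

/-- The derivative of `Φ_p` in the coupling `g p` (for `p.1 < p.2`). -/
noncomputable def rescDPhi (n : ℕ) (ζ : ℂ) (p : Fin n × Fin n) (g : Fin n × Fin n → ℝ) : ℂ :=
  ((√(n : ℝ))⁻¹ : ℝ) *
    ((2 * resolvent n ζ g p.1 p.1 * resolvent n ζ g p.2 p.2 + resolvent n ζ g p.1 p.2 ^ 2
        + resolvent n ζ g p.2 p.1 ^ 2) * (starRingEnd ℂ) (rescD n ζ g)
      + (resolvent n ζ g p.1 p.2 + resolvent n ζ g p.2 p.1)
        * (starRingEnd ℂ) ((2 * stieltjes n ζ g - ζ) * ((n : ℂ)⁻¹ * rescW n ζ p g)))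

/-- The constant in the second moment bound `E |D|² ≤ rescK ζ / n`. -/
noncomputable def rescK (ζ : ℂ) : ℝ :=
  2 * (1 / ζ.im ^ 2 + ‖ζ‖ / ζ.im + 1) / ζ.im ^ 2 + 4 / ζ.im ^ 3 * (2 / ζ.im + ‖ζ‖)

end Vale.Agent.H40.SK
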