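import Vale.Agent.H40.Res.RescDefs

/-!
TASK RESC-B1 (done, helper27; sub-row of RES-C; tag `rescb1_`).  Derivatives in one
coupling `g p` (`p.1 < p.2`) of the normalised trace `s`, of `D = s² - ζ s + 1` and of
`Φ_p = (G_{p.1 p.2} + G_{p.2 p.1}) * conj D`.
Black box: `resolvent_hasDerivAt` (`ResolventDeriv.lean`, proved).

Sketches (`c = (√n)⁻¹`, `G' = resolvent n ζ (Function.update g p u)`).
* `resc_stieltjes_hasDerivAt`: `s = (n:ℂ)⁻¹ * ∑_a G a a`; `HasDerivAt.sum` of
  `resolvent_hasDerivAt ζ hζ p hp g u a a` (derivative `c * (G' a p.1 * G' p.2 a + G' a p.2 * G' p.1 a)`),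
  `HasDerivAt.const_mul`, then `Finset.mul_sum` and `ring` to match `c * ((n:ℂ)⁻¹ * rescW ..)`.
* `resc_D_hasDerivAt`: `HasDerivAt.pow`, `HasDerivAt.const_mul`, `HasDerivAt.sub`,
  `HasDerivAt.add_const`; the derivative of `D` is ` (2 s - ζ) * s'`.
* `resc_Phi_hasDerivAt`: product rule for ` (G_{p.1 p.2} + G_{p.2 p.1}) * conj D`;
  conjugation of a function of a REAL variable: `HasDerivAt.star` (or compose with the continuous
  real-linear map `Complex.conjCLE`); the conjugate of the real number `c` is `c`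
  (`Complex.conj_ofReal`).  The derivative of `G_{p.1 p.2} + G_{p.2 p.1}` is
  `c * (G' p.1 p.1 * G' p.2 p.2 + G' p.1 p.2 * G' p.1 p.2) + c * (G' p.2 p.1 * G' p.2 p.1
  + G' p.2 p.2 * G' p.1 p.1)`.
-/

namespace Vale.Agent.H40.SK

open MeasureTheory ProbabilityTheory Real

variable {n : ℕ}

/-- Derivative of the normalised trace in one coupling. -/
lemma resc_stieltjes_hasDerivAt (ζ : ℂ) (hζ : ζ.im ≠ 0) (p : Fin n × Fin n) (hp : p.1 < p.2)
    (g : Fin n × Fin n → ℝ) (u : ℝ) :
    HasDerivAt (fun t : ℝ => stieltjes n ζ (Function.update g p t))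
      ((((√(n : ℝ))⁻¹ : ℝ) : ℂ) * ((n : ℂ)⁻¹ * rescW n ζ p (Function.update g p u))) u := by
  have h := HasDerivAt.fun_sum (u := Finset.univ)
    (fun a _ => resolvent_hasDerivAt ζ hζ p hp g u a a)
  have h2 := h.const_mul ((n : ℂ)⁻¹)
  have he : (((√(n : ℝ))⁻¹ : ℝ) : ℂ) * ((n : ℂ)⁻¹ * rescW n ζ p (Function.update g p u))
      = (n : ℂ)⁻¹ * ∑ a, (((√(n : ℝ))⁻¹ : ℝ) : ℂ) *
        (resolvent n ζ (Function.update g p u) a p.1 * resolvent n ζ (Function.update g p u) p.2 a
          + resolvent n ζ (Function.update g p u) a p.2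
            * resolvent n ζ (Function.update g p u) p.1 a) := by
    unfold rescW
    rw [← Finset.mul_sum]
    ring
  rw [he]
  exact h2

/-- Derivative of `D = s² - ζ s + 1` in one coupling. -/
lemma resc_D_hasDerivAt (ζ : ℂ) (hζ : ζ.im ≠ 0) (p : Fin n × Fin n) (hp : p.1 < p.2)
    (g : Fin n × Fin n → ℝ) (u : ℝ) :
    HasDerivAt (fun t : ℝ => rescD n ζ (Function.update g p t))
      ((2 * stieltjes n ζ (Function.update g p u) - ζ)
        * ((((√(n : ℝ))⁻¹ : ℝ) : ℂ) * ((n : ℂ)⁻¹ * rescW n ζ p (Function.update g p u)))) u := by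
  have hs := resc_stieltjes_hasDerivAt ζ hζ p hp g u
  have h1 := ((hs.pow 2).sub (hs.const_mul ζ)).add_const (1 : ℂ)
  have he : (2 * stieltjes n ζ (Function.update g p u) - ζ)
        * ((((√(n : ℝ))⁻¹ : ℝ) : ℂ) * ((n : ℂ)⁻¹ * rescW n ζ p (Function.update g p u)))
      = ((2 : ℕ) : ℂ) * stieltjes n ζ (Function.update g p u) ^ (2 - 1)
          * ((((√(n : ℝ))⁻¹ : ℝ) : ℂ) * ((n : ℂ)⁻¹ * rescW n ζ p (Function.update g p u)))
        - ζ * ((((√(n : ℝ))⁻¹ : ℝ) : ℂ) * ((n : ℂ)⁻¹ * rescW n ζ p (Function.update g p u))) := by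
    norm_num
    ring
  rw [he]
  exact h1

/-- Derivative of `Φ_p` in the coupling `g p`. -/
lemma resc_Phi_hasDerivAt (ζ : ℂ) (hζ : ζ.im ≠ 0) (p : Fin n × Fin n) (hp : p.1 < p.2)
    (g : Fin n × Fin n → ℝ) (u : ℝ) :
    HasDerivAt (fun t : ℝ => rescPhi n ζ p (Function.update g p t))
      (rescDPhi n ζ p (Function.update g p u)) u := by
  have hD := resc_D_hasDerivAt ζ hζ p hp g u
  have h12 := resolvent_hasDerivAt ζ hζ p hp g u p.1 p.2
  have h21 := resolvent_hasDerivAt ζ hζ p hp g u p.2 p.1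
  have hc := hD.star
  have h := (h12.add h21).mul hc
  have he : rescDPhi n ζ p (Function.update g p u)
      = ((((√(n : ℝ))⁻¹ : ℝ) : ℂ) *
          (resolvent n ζ (Function.update g p u) p.1 p.1
              * resolvent n ζ (Function.update g p u) p.2 p.2
            + resolvent n ζ (Function.update g p u) p.1 p.2
              * resolvent n ζ (Function.update g p u) p.1 p.2)
        + (((√(n : ℝ))⁻¹ : ℝ) : ℂ) *
          (resolvent n ζ (Function.update g p u) p.2 p.1
              * resolvent n ζ (Function.update g p u) p.2 p.1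
            + resolvent n ζ (Function.update g p u) p.2 p.2
              * resolvent n ζ (Function.update g p u) p.1 p.1))
          * star (rescD n ζ (Function.update g p u))
        + (resolvent n ζ (Function.update g p u) p.1 p.2
            + resolvent n ζ (Function.update g p u) p.2 p.1)
          * star ((2 * stieltjes n ζ (Function.update g p u) - ζ)
            * ((((√(n : ℝ))⁻¹ : ℝ) : ℂ)
              * ((n : ℂ)⁻¹ * rescW n ζ p (Function.update g p u)))) := by
    unfold rescDPhi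
    simp only [Complex.star_def, map_mul, Complex.conj_ofReal]
    ring
  rw [he]
  exact h

end Vale.Agent.H40.SK
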