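import Vale.Agent.H40.Res.RescTrace

/-!
TASK RESC-C (done, helper27; sub-row of RES-C; tag `rescc_`).  Pointwise bound of the
error term of the self-consistent equation (finite-sum algebra and inequalities; no analysis).
Black boxes: `resc_norm_D_le`, `resc_col_sq`, `resc_norm_W_le` (`RescTrace.lean`),
`resolvent_entry_le`, `norm_stieltjes_le`, `rb1_sum_split` (proved).

Notation: `G = resolvent n ζ g`, `s = stieltjes n ζ g`, `D = rescD n ζ g`, `η = Im ζ > 0`,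
`c = (√n)⁻¹` (so `c * c = (n)⁻¹`), sums `∑'` over the pairs `p` with `p.1 < p.2`, `i = p.1`,
`k = p.2`.

Sketch.
1. Identity (for `n ≥ 1`): unfolding `rescDPhi`,
   `∑' c * rescDPhi p = (n)⁻¹ * ((∑' (2 G_ii G_kk + G_ik² + G_ki²)) * conj D + R)`,
   `R = ∑' (G_ik + G_ki) * conj ((2 s - ζ) * ((n)⁻¹ * W_p))`.
   By `rb1_sum_split` applied to `H i k = if i = k then 0 else G_ii * G_kk`:
   `∑' 2 G_ii G_kk = (∑_a G_aa)² - ∑_a G_aa² = (n s)² - T`, `T = ∑_a G_aa²`.  Hence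
   `∑' c * rescDPhi p - n s² conj D = (n)⁻¹ * ((U - T) * conj D + R)`, `U = ∑' (G_ik² + G_ki²)`.
2. Bounds: `|T| ≤ ∑_a |G_aa|² ≤ n/η²` (`resolvent_entry_le`);
   `|U| ≤ ∑' (|G_ik|² + |G_ki|²) ≤ ∑_i ∑_k |G_ik|² ≤ n/η²` (`rb1_sum_split` for
   `H i k = if i = k then 0 else |G_ik|²`, then `resc_col_sq`); `|D| ≤ B := 1/η² + |ζ|/η + 1`
   (`resc_norm_D_le`); every term of `R` is at most ` (2/η) * (2/η + |ζ|) * ((n)⁻¹ * (2/η²))`
   (`resolvent_entry_le`, `norm_stieltjes_le`, `resc_norm_W_le`) and there are at most `n²` terms,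
   so `|R| ≤ n * (4/η³) * (2/η + |ζ|)`.
3. Total: ` (n)⁻¹ * (2n/η² * B + n * (4/η³) * (2/η + |ζ|)) = rescK ζ`.
-/

namespace Vale.Agent.H40.SK

open MeasureTheory ProbabilityTheory Real

variable {n : ℕ}

lemma rescc_entry (ζ : ℂ) (hζ : 0 < ζ.im) (g : Fin n × Fin n → ℝ) (a b : Fin n) :
    ‖resolvent n ζ g a b‖ ≤ 1 / ζ.im := by
  have h := resolvent_entry_le ζ hζ.ne' g a b
  rwa [abs_of_pos hζ] at h

lemma rescc_T_le (ζ : ℂ) (hζ : 0 < ζ.im) (g : Fin n × Fin n → ℝ) :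
    ‖∑ a, resolvent n ζ g a a ^ 2‖ ≤ n / ζ.im ^ 2 := by
  calc ‖∑ a, resolvent n ζ g a a ^ 2‖ ≤ ∑ a, ‖resolvent n ζ g a a ^ 2‖ := norm_sum_le _ _
    _ ≤ ∑ _a : Fin n, 1 / ζ.im ^ 2 := by
        refine Finset.sum_le_sum (fun a _ => ?_)
        rw [norm_pow, ← one_div_pow]
        have h := rescc_entry ζ hζ g a a
        gcongr
    _ = n / ζ.im ^ 2 := by
        simp [div_eq_mul_inv]

lemma rescc_U_le (ζ : ℂ) (hζ : 0 < ζ.im) (g : Fin n × Fin n → ℝ) :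
    ‖∑ p : Fin n × Fin n, if p.1 < p.2 then
        resolvent n ζ g p.1 p.2 ^ 2 + resolvent n ζ g p.2 p.1 ^ 2 else 0‖ ≤ n / ζ.im ^ 2 := by
  have h1 : ‖∑ p : Fin n × Fin n, if p.1 < p.2 then
        resolvent n ζ g p.1 p.2 ^ 2 + resolvent n ζ g p.2 p.1 ^ 2 else 0‖
      ≤ ∑ p : Fin n × Fin n, if p.1 < p.2 then
        ‖resolvent n ζ g p.1 p.2‖ ^ 2 + ‖resolvent n ζ g p.2 p.1‖ ^ 2 else 0 := by
    refine (norm_sum_le _ _).trans (Finset.sum_le_sum (fun p _ => ?_))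
    split_ifs
    · refine (norm_add_le _ _).trans ?_
      rw [norm_pow, norm_pow]
    · simp
  have h2 := rb1_sum_split
    (fun i k : Fin n => if i = k then (0 : ℝ) else ‖resolvent n ζ g i k‖ ^ 2) (fun i => by simp)
  have h3 : (∑ p : Fin n × Fin n, if p.1 < p.2 then
        ‖resolvent n ζ g p.1 p.2‖ ^ 2 + ‖resolvent n ζ g p.2 p.1‖ ^ 2 else 0)
      = ∑ i, ∑ k, (if i = k then (0 : ℝ) else ‖resolvent n ζ g i k‖ ^ 2) := by
    rw [h2]
    refine Finset.sum_congr rfl (fun p _ => ?_)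
    by_cases h : p.1 < p.2
    · have hne : p.1 ≠ p.2 := ne_of_lt h
      have hne' : p.2 ≠ p.1 := hne.symm
      simp only [h, if_true, hne, hne', if_false]
    · simp only [h, if_false]
  have h4 : ∑ i, ∑ k, (if i = k then (0 : ℝ) else ‖resolvent n ζ g i k‖ ^ 2)
      ≤ ∑ _i : Fin n, 1 / ζ.im ^ 2 := by
    refine Finset.sum_le_sum (fun i _ => ?_)
    calc ∑ k, (if i = k then (0 : ℝ) else ‖resolvent n ζ g i k‖ ^ 2)
        ≤ ∑ k, ‖resolvent n ζ g i k‖ ^ 2 := by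
          refine Finset.sum_le_sum (fun k _ => ?_)
          split_ifs
          · positivity
          · exact le_rfl
      _ ≤ 1 / ζ.im ^ 2 := resc_row_sq ζ hζ.ne' g i
  calc _ ≤ _ := h1
    _ = _ := h3
    _ ≤ _ := h4
    _ = n / ζ.im ^ 2 := by simp [div_eq_mul_inv]

lemma rescc_R_le (ζ : ℂ) (hζ : 0 < ζ.im) (hn : 0 < n) (g : Fin n × Fin n → ℝ) :
    ‖∑ p : Fin n × Fin n, if p.1 < p.2 then
        (resolvent n ζ g p.1 p.2 + resolvent n ζ g p.2 p.1)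
          * (starRingEnd ℂ) ((2 * stieltjes n ζ g - ζ) * ((n : ℂ)⁻¹ * rescW n ζ p g)) else 0‖
      ≤ n * (4 / ζ.im ^ 3 * (2 / ζ.im + ‖ζ‖)) := by
  have hnpos : (0 : ℝ) < n := by exact_mod_cast hn
  have hs : ‖stieltjes n ζ g‖ ≤ 1 / ζ.im := by
    have h := norm_stieltjes_le (n := n) ζ hζ.ne' g
    rwa [abs_of_pos hζ] at h
  have hterm : ∀ p : Fin n × Fin n, ‖(if p.1 < p.2 then
        (resolvent n ζ g p.1 p.2 + resolvent n ζ g p.2 p.1)
          * (starRingEnd ℂ) ((2 * stieltjes n ζ g - ζ) * ((n : ℂ)⁻¹ * rescW n ζ p g)) else 0)‖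
      ≤ (2 / ζ.im) * ((2 / ζ.im + ‖ζ‖) * ((n : ℝ)⁻¹ * (2 / ζ.im ^ 2))) := by
    intro p
    split_ifs
    · rw [norm_mul, RCLike.norm_conj, norm_mul, norm_mul, norm_inv, Complex.norm_natCast]
      have h1 : ‖resolvent n ζ g p.1 p.2 + resolvent n ζ g p.2 p.1‖ ≤ 2 / ζ.im := by
        calc _ ≤ ‖resolvent n ζ g p.1 p.2‖ + ‖resolvent n ζ g p.2 p.1‖ := norm_add_le _ _
          _ ≤ 1 / ζ.im + 1 / ζ.im := add_le_add (rescc_entry ζ hζ g _ _) (rescc_entry ζ hζ g _ _)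
          _ = 2 / ζ.im := by ring
      have h2 : ‖2 * stieltjes n ζ g - ζ‖ ≤ 2 / ζ.im + ‖ζ‖ := by
        calc _ ≤ ‖2 * stieltjes n ζ g‖ + ‖ζ‖ := norm_sub_le _ _
          _ = 2 * ‖stieltjes n ζ g‖ + ‖ζ‖ := by rw [norm_mul]; simp
          _ ≤ 2 / ζ.im + ‖ζ‖ := by
              have h2' : 2 / ζ.im = 2 * (1 / ζ.im) := by ring
              linarith
      have h3 := resc_norm_W_le ζ hζ.ne' p g
      gcongr
    · rw [norm_zero]
      positivity
  calc _ ≤ ∑ p : Fin n × Fin n, ‖(if p.1 < p.2 then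
        (resolvent n ζ g p.1 p.2 + resolvent n ζ g p.2 p.1)
          * (starRingEnd ℂ) ((2 * stieltjes n ζ g - ζ) * ((n : ℂ)⁻¹ * rescW n ζ p g)) else 0)‖ :=
        norm_sum_le _ _
    _ ≤ ∑ _p : Fin n × Fin n, (2 / ζ.im) * ((2 / ζ.im + ‖ζ‖) * ((n : ℝ)⁻¹ * (2 / ζ.im ^ 2))) :=
        Finset.sum_le_sum (fun p _ => hterm p)
    _ = n * (4 / ζ.im ^ 3 * (2 / ζ.im + ‖ζ‖)) := by
        simp only [Finset.sum_const, Finset.card_univ, Fintype.card_prod, Fintype.card_fin,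
          nsmul_eq_mul]
        push_cast
        field_simp
        ring

lemma rescc_identity (ζ : ℂ) (hn : 0 < n) (g : Fin n × Fin n → ℝ) :
    (∑ p : Fin n × Fin n, if p.1 < p.2 then
        (((√(n : ℝ))⁻¹ : ℝ) : ℂ) * rescDPhi n ζ p g else 0)
      - (n : ℂ) * stieltjes n ζ g ^ 2 * (starRingEnd ℂ) (rescD n ζ g)
    = (n : ℂ)⁻¹ * (((∑ p : Fin n × Fin n, if p.1 < p.2 then
            resolvent n ζ g p.1 p.2 ^ 2 + resolvent n ζ g p.2 p.1 ^ 2 else 0)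
          - ∑ a, resolvent n ζ g a a ^ 2) * (starRingEnd ℂ) (rescD n ζ g)
        + ∑ p : Fin n × Fin n, if p.1 < p.2 then
          (resolvent n ζ g p.1 p.2 + resolvent n ζ g p.2 p.1)
            * (starRingEnd ℂ) ((2 * stieltjes n ζ g - ζ) * ((n : ℂ)⁻¹ * rescW n ζ p g)) else 0) := by
  have hN : (n : ℂ) ≠ 0 := by exact_mod_cast hn.ne'
  have hcc : (((√(n : ℝ))⁻¹ : ℝ) : ℂ) * (((√(n : ℝ))⁻¹ : ℝ) : ℂ) = (n : ℂ)⁻¹ := by
    rw [← Complex.ofReal_mul, ← mul_inv, Real.mul_self_sqrt (Nat.cast_nonneg n)]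
    push_cast
    rfl
  have htr : ∑ a, resolvent n ζ g a a = n * stieltjes n ζ g := by
    unfold stieltjes
    field_simp
  have hsplit := rb1_sum_split
    (fun i k : Fin n => if i = k then (0 : ℂ) else resolvent n ζ g i i * resolvent n ζ g k k)
    (fun i => by simp)
  have hdiag : ∑ i, ∑ k, (if i = k then (0 : ℂ) else resolvent n ζ g i i * resolvent n ζ g k k)
      = (∑ a, resolvent n ζ g a a) ^ 2 - ∑ a, resolvent n ζ g a a ^ 2 := by
    have h1 : ∀ i : Fin n, ∑ k, (if i = k then (0 : ℂ)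
        else resolvent n ζ g i i * resolvent n ζ g k k)
        = resolvent n ζ g i i * (∑ k, resolvent n ζ g k k) - resolvent n ζ g i i ^ 2 := by
      intro i
      have h2 : ∀ k : Fin n, (if i = k then (0 : ℂ)
          else resolvent n ζ g i i * resolvent n ζ g k k)
          = resolvent n ζ g i i * resolvent n ζ g k k
            - (if i = k then resolvent n ζ g i i * resolvent n ζ g k k else 0) := by
        intro k
        split_ifs <;> simp
      rw [Finset.sum_congr rfl (fun k _ => h2 k), Finset.sum_sub_distrib, Finset.sum_ite_eq,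
        ← Finset.mul_sum]
      simp
      ring
    rw [Finset.sum_congr rfl (fun i _ => h1 i), Finset.sum_sub_distrib, ← Finset.sum_mul]
    ring
  have hterm : ∀ p : Fin n × Fin n, (if p.1 < p.2 then
        (((√(n : ℝ))⁻¹ : ℝ) : ℂ) * rescDPhi n ζ p g else 0)
      = (n : ℂ)⁻¹ * (((if p.1 < p.2 then
            (if p.1 = p.2 then (0 : ℂ) else resolvent n ζ g p.1 p.1 * resolvent n ζ g p.2 p.2)
            + (if p.2 = p.1 then (0 : ℂ) else resolvent n ζ g p.2 p.2 * resolvent n ζ g p.1 p.1)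
            else 0)
          + (if p.1 < p.2 then
            resolvent n ζ g p.1 p.2 ^ 2 + resolvent n ζ g p.2 p.1 ^ 2 else 0))
            * (starRingEnd ℂ) (rescD n ζ g)
        + (if p.1 < p.2 then
          (resolvent n ζ g p.1 p.2 + resolvent n ζ g p.2 p.1)
            * (starRingEnd ℂ) ((2 * stieltjes n ζ g - ζ) * ((n : ℂ)⁻¹ * rescW n ζ p g))
          else 0)) := by
    intro p
    by_cases h : p.1 < p.2
    · have hne : p.1 ≠ p.2 := ne_of_lt h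
      have hne' : p.2 ≠ p.1 := hne.symm
      simp only [h, if_true, hne, hne', if_false]
      unfold rescDPhi
      rw [← hcc]
      ring
    · simp only [h, if_false]
      ring
  rw [Finset.sum_congr rfl (fun p _ => hterm p), ← Finset.mul_sum, Finset.sum_add_distrib,
    ← Finset.sum_mul, Finset.sum_add_distrib, ← hsplit, hdiag, htr]
  field_simp
  ring

/-- Pointwise bound of the error term: `∑_{p.1 < p.2} (√n)⁻¹ ∂_p Φ_p = n s² conj D + O(1)`. -/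
lemma resc_err_le (ζ : ℂ) (hζ : 0 < ζ.im) (hn : 0 < n) (g : Fin n × Fin n → ℝ) :
    ‖(∑ p : Fin n × Fin n, if p.1 < p.2 then
        (((√(n : ℝ))⁻¹ : ℝ) : ℂ) * rescDPhi n ζ p g else 0)
      - (n : ℂ) * stieltjes n ζ g ^ 2 * (starRingEnd ℂ) (rescD n ζ g)‖ ≤ rescK ζ := by
  have hnpos : (0 : ℝ) < n := by exact_mod_cast hn
  rw [rescc_identity ζ hn g, norm_mul, norm_inv, Complex.norm_natCast]
  have hT := rescc_T_le ζ hζ g
  have hU := rescc_U_le ζ hζ g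
  have hR := rescc_R_le ζ hζ hn g
  have hD := resc_norm_D_le ζ hζ g
  set B : ℝ := 1 / ζ.im ^ 2 + ‖ζ‖ / ζ.im + 1 with hB
  have hB0 : 0 ≤ B := le_trans (norm_nonneg _) hD
  have hη2 : 0 < ζ.im ^ 2 := by positivity
  have h1 : ‖((∑ p : Fin n × Fin n, if p.1 < p.2 then
            resolvent n ζ g p.1 p.2 ^ 2 + resolvent n ζ g p.2 p.1 ^ 2 else 0)
          - ∑ a, resolvent n ζ g a a ^ 2) * (starRingEnd ℂ) (rescD n ζ g)
        + ∑ p : Fin n × Fin n, if p.1 < p.2 then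
          (resolvent n ζ g p.1 p.2 + resolvent n ζ g p.2 p.1)
            * (starRingEnd ℂ) ((2 * stieltjes n ζ g - ζ) * ((n : ℂ)⁻¹ * rescW n ζ p g)) else 0‖
      ≤ (n / ζ.im ^ 2 + n / ζ.im ^ 2) * B + n * (4 / ζ.im ^ 3 * (2 / ζ.im + ‖ζ‖)) := by
    refine (norm_add_le _ _).trans (add_le_add ?_ hR)
    rw [norm_mul, RCLike.norm_conj]
    refine mul_le_mul ((norm_sub_le _ _).trans (add_le_add hU hT)) hD (norm_nonneg _) (by positivity)
  calc (n : ℝ)⁻¹ * _ ≤ (n : ℝ)⁻¹ * ((n / ζ.im ^ 2 + n / ζ.im ^ 2) * B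
        + n * (4 / ζ.im ^ 3 * (2 / ζ.im + ‖ζ‖))) := by gcongr
    _ = rescK ζ := by
        unfold rescK
        rw [← hB]
        field_simp
        ring

end Vale.Agent.H40.SK
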