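import Vale.Agent.H40.Res.RescTrace
import Vale.Agent.H40.Res.RescDeriv

/-!
TASK RESC-B2 (sub-row of RES-C, sub-project owner helper27; tag `rescb2_`).  Gaussian integration
by parts for the functions `Φ_p`, summed over the pairs.
Black boxes: `stein_pi_complex` (`SteinC.lean`, proved), `resc_Phi_hasDerivAt` (`RescDeriv.lean`),
`resc_continuous_D`, `resc_norm_D_le`, `resc_norm_W_le` (`RescTrace.lean`), `continuous_resolvent`,
`continuous_stieltjes`, `resolvent_entry_le`, `norm_stieltjes_le` (proved).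

Sketches.
* `resc_continuous_Phi`, `resc_continuous_DPhi`: unfold; finite sums, products and conjugates
  (`Complex.continuous_conj`) of continuous functions (`continuous_resolvent`,
  `continuous_stieltjes`, `resc_continuous_D`).
* `resc_exists_bound`: for every fixed `n`, `ζ`, `p` there is one constant bounding `|Φ_p|` and
  `|rescDPhi p|` for all disorders (any constant; it may depend on `n`).  Entries of `G` are
  bounded by `1/Im ζ` (`resolvent_entry_le`), `|s| ≤ 1/Im ζ`, `|D| ≤ resc_norm_D_le`,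
  `|W_p| ≤ 2/(Im ζ)²`, `|(√n)⁻¹| ≤ 1`, `|(n:ℂ)⁻¹| ≤ 1`, conjugation preserves the norm.
* `resc_stein`: `stein_pi_complex p (rescPhi n ζ p) (rescDPhi n ζ p)` with measurability from
  continuity, the bound from `resc_exists_bound` and `hd` from `resc_Phi_hasDerivAt`.
* `resc_stein_sum`: `integral_finset_sum` on both sides (each summand is integrable: on the
  right a bounded continuous function on a probability space, on the left
  ` (g p : ℂ) * const * Φ_p` with `g p` integrable, as in the proof of `stein_pi_complex`: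
  `integrable_eval` and `Integrable.mul_bdd` / `Integrable.bdd_mul`), then for `p.1 < p.2`
  pull the constant ` (√n)⁻¹` out (`integral_const_mul`) and apply `resc_stein`; for the other `p`
  both summands are `0`.
-/

namespace Vale.Agent.H40.SK

open MeasureTheory ProbabilityTheory Real

variable {n : ℕ}

/-- `Φ_p` is continuous in the disorder. -/
lemma resc_continuous_Phi (ζ : ℂ) (hζ : ζ.im ≠ 0) (p : Fin n × Fin n) :
    Continuous (fun g : Fin n × Fin n → ℝ => rescPhi n ζ p g) := by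
  unfold rescPhi
  exact ((continuous_resolvent ζ hζ p.1 p.2).add (continuous_resolvent ζ hζ p.2 p.1)).mul
    (Complex.continuous_conj.comp (resc_continuous_D ζ hζ))

/-- `W_p` is continuous in the disorder. -/
lemma rescb2_continuous_W (ζ : ℂ) (hζ : ζ.im ≠ 0) (p : Fin n × Fin n) :
    Continuous (fun g : Fin n × Fin n → ℝ => rescW n ζ p g) := by
  unfold rescW
  exact continuous_finsetSum _ (fun a _ =>
    ((continuous_resolvent ζ hζ a p.1).mul (continuous_resolvent ζ hζ p.2 a)).add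
      ((continuous_resolvent ζ hζ a p.2).mul (continuous_resolvent ζ hζ p.1 a)))

/-- `rescDPhi p` is continuous in the disorder. -/
lemma resc_continuous_DPhi (ζ : ℂ) (hζ : ζ.im ≠ 0) (p : Fin n × Fin n) :
    Continuous (fun g : Fin n × Fin n → ℝ => rescDPhi n ζ p g) := by
  unfold rescDPhi
  have c11 := continuous_resolvent (n := n) ζ hζ p.1 p.1
  have c22 := continuous_resolvent (n := n) ζ hζ p.2 p.2
  have c12 := continuous_resolvent (n := n) ζ hζ p.1 p.2
  have c21 := continuous_resolvent (n := n) ζ hζ p.2 p.1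
  have cs := continuous_stieltjes (n := n) ζ hζ
  have cD := resc_continuous_D (n := n) ζ hζ
  have cW := rescb2_continuous_W ζ hζ p
  exact continuous_const.mul
    (((((continuous_const.mul c11).mul c22).add (c12.pow 2)).add (c21.pow 2)).mul
        (Complex.continuous_conj.comp cD)
      |>.add ((c12.add c21).mul (Complex.continuous_conj.comp
        (((continuous_const.mul cs).sub continuous_const).mul (continuous_const.mul cW)))))

/-- `Φ_p` and `rescDPhi p` are bounded uniformly in the disorder. -/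
lemma resc_exists_bound (ζ : ℂ) (hζ : 0 < ζ.im) (p : Fin n × Fin n) :
    ∃ C : ℝ, ∀ g : Fin n × Fin n → ℝ, ‖rescPhi n ζ p g‖ ≤ C ∧ ‖rescDPhi n ζ p g‖ ≤ C := by
  have hne : ζ.im ≠ 0 := hζ.ne'
  have he : (0 : ℝ) ≤ 1 / |ζ.im| := by positivity
  have hdB : (0 : ℝ) ≤ 1 / ζ.im ^ 2 + ‖ζ‖ / ζ.im + 1 := by positivity
  have hwB : (0 : ℝ) ≤ 2 / ζ.im ^ 2 := by positivity
  refine ⟨(1 / |ζ.im| + 1 / |ζ.im|) * (1 / ζ.im ^ 2 + ‖ζ‖ / ζ.im + 1)
    + ‖(((√(n : ℝ))⁻¹ : ℝ) : ℂ)‖ *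
      ((2 * (1 / |ζ.im|) * (1 / |ζ.im|) + (1 / |ζ.im|) ^ 2 + (1 / |ζ.im|) ^ 2)
          * (1 / ζ.im ^ 2 + ‖ζ‖ / ζ.im + 1)
        + (1 / |ζ.im| + 1 / |ζ.im|)
          * ((2 * (1 / |ζ.im|) + ‖ζ‖) * (‖((n : ℂ)⁻¹)‖ * (2 / ζ.im ^ 2)))), fun g => ?_⟩
  have hG : ∀ a b, ‖resolvent n ζ g a b‖ ≤ 1 / |ζ.im| := fun a b =>
    resolvent_entry_le ζ hne g a b
  have hs : ‖stieltjes n ζ g‖ ≤ 1 / |ζ.im| := norm_stieltjes_le ζ hne g
  have hD : ‖(starRingEnd ℂ) (rescD n ζ g)‖ ≤ 1 / ζ.im ^ 2 + ‖ζ‖ / ζ.im + 1 := by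
    rw [RCLike.norm_conj]
    exact resc_norm_D_le ζ hζ g
  have hW : ‖rescW n ζ p g‖ ≤ 2 / ζ.im ^ 2 := resc_norm_W_le ζ hne p g
  have hB : ‖resolvent n ζ g p.1 p.2 + resolvent n ζ g p.2 p.1‖ ≤ 1 / |ζ.im| + 1 / |ζ.im| :=
    (norm_add_le _ _).trans (add_le_add (hG _ _) (hG _ _))
  have hΦ : ‖rescPhi n ζ p g‖ ≤
      (1 / |ζ.im| + 1 / |ζ.im|) * (1 / ζ.im ^ 2 + ‖ζ‖ / ζ.im + 1) := by
    unfold rescPhi
    rw [norm_mul]
    exact mul_le_mul hB hD (norm_nonneg _) (by positivity)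
  have hA : ‖2 * resolvent n ζ g p.1 p.1 * resolvent n ζ g p.2 p.2 + resolvent n ζ g p.1 p.2 ^ 2
      + resolvent n ζ g p.2 p.1 ^ 2‖ ≤
      2 * (1 / |ζ.im|) * (1 / |ζ.im|) + (1 / |ζ.im|) ^ 2 + (1 / |ζ.im|) ^ 2 := by
    refine (norm_add_le _ _).trans (add_le_add ((norm_add_le _ _).trans (add_le_add ?_ ?_)) ?_)
    · rw [norm_mul, norm_mul]
      have h2 : ‖(2 : ℂ)‖ = 2 := by simp
      rw [h2]
      exact mul_le_mul (mul_le_mul_of_nonneg_left (hG _ _) (by norm_num)) (hG _ _)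
        (norm_nonneg _) (by positivity)
    · rw [norm_pow]
      exact pow_le_pow_left₀ (norm_nonneg _) (hG _ _) 2
    · rw [norm_pow]
      exact pow_le_pow_left₀ (norm_nonneg _) (hG _ _) 2
  have hE : ‖2 * stieltjes n ζ g - ζ‖ ≤ 2 * (1 / |ζ.im|) + ‖ζ‖ := by
    refine (norm_sub_le _ _).trans (add_le_add ?_ le_rfl)
    rw [norm_mul]
    have h2 : ‖(2 : ℂ)‖ = 2 := by simp
    rw [h2]
    exact mul_le_mul_of_nonneg_left hs (by norm_num)
  have hEW : ‖(starRingEnd ℂ) ((2 * stieltjes n ζ g - ζ) * ((n : ℂ)⁻¹ * rescW n ζ p g))‖ ≤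
      (2 * (1 / |ζ.im|) + ‖ζ‖) * (‖((n : ℂ)⁻¹)‖ * (2 / ζ.im ^ 2)) := by
    rw [RCLike.norm_conj, norm_mul, norm_mul]
    exact mul_le_mul hE (mul_le_mul_of_nonneg_left hW (norm_nonneg _))
      (by positivity) (by positivity)
  have hDΦ : ‖rescDPhi n ζ p g‖ ≤ ‖(((√(n : ℝ))⁻¹ : ℝ) : ℂ)‖ *
      ((2 * (1 / |ζ.im|) * (1 / |ζ.im|) + (1 / |ζ.im|) ^ 2 + (1 / |ζ.im|) ^ 2)
          * (1 / ζ.im ^ 2 + ‖ζ‖ / ζ.im + 1)
        + (1 / |ζ.im| + 1 / |ζ.im|)
          * ((2 * (1 / |ζ.im|) + ‖ζ‖) * (‖((n : ℂ)⁻¹)‖ * (2 / ζ.im ^ 2)))) := by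
    unfold rescDPhi
    rw [norm_mul]
    refine mul_le_mul_of_nonneg_left ?_ (norm_nonneg _)
    refine (norm_add_le _ _).trans (add_le_add ?_ ?_)
    · rw [norm_mul]
      exact mul_le_mul hA hD (norm_nonneg _) (by positivity)
    · rw [norm_mul]
      exact mul_le_mul hB hEW (norm_nonneg _) (by positivity)
  have hnn1 : 0 ≤ (1 / |ζ.im| + 1 / |ζ.im|) * (1 / ζ.im ^ 2 + ‖ζ‖ / ζ.im + 1) := by positivity
  have hnn2 : 0 ≤ ‖(((√(n : ℝ))⁻¹ : ℝ) : ℂ)‖ *
      ((2 * (1 / |ζ.im|) * (1 / |ζ.im|) + (1 / |ζ.im|) ^ 2 + (1 / |ζ.im|) ^ 2)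
          * (1 / ζ.im ^ 2 + ‖ζ‖ / ζ.im + 1)
        + (1 / |ζ.im| + 1 / |ζ.im|)
          * ((2 * (1 / |ζ.im|) + ‖ζ‖) * (‖((n : ℂ)⁻¹)‖ * (2 / ζ.im ^ 2)))) := by positivity
  exact ⟨by linarith, by linarith⟩

/-- Gaussian integration by parts for `Φ_p`. -/
lemma resc_stein (ζ : ℂ) (hζ : 0 < ζ.im) (p : Fin n × Fin n) (hp : p.1 < p.2) :
    ∫ g, (g p : ℂ) * rescPhi n ζ p g ∂(stdGauss (Fin n × Fin n))
      = ∫ g, rescDPhi n ζ p g ∂(stdGauss (Fin n × Fin n)) := by
  obtain ⟨C, hC⟩ := resc_exists_bound (n := n) ζ hζ p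
  exact stein_pi_complex p (rescPhi n ζ p) (rescDPhi n ζ p)
    (resc_continuous_Phi ζ hζ.ne' p).measurable (resc_continuous_DPhi ζ hζ.ne' p).measurable C
    (fun g => (hC g).1) (fun g => (hC g).2)
    (fun g u => resc_Phi_hasDerivAt ζ hζ.ne' p hp g u)

/-- Gaussian integration by parts, summed over the pairs `p.1 < p.2`. -/
lemma resc_stein_sum (ζ : ℂ) (hζ : 0 < ζ.im) :
    ∫ g, (∑ p : Fin n × Fin n, if p.1 < p.2 then
        ((g p : ℂ) * ((√(n : ℝ))⁻¹ : ℝ)) * rescPhi n ζ p g else 0) ∂(stdGauss (Fin n × Fin n))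
      = ∫ g, (∑ p : Fin n × Fin n, if p.1 < p.2 then
        (((√(n : ℝ))⁻¹ : ℝ) : ℂ) * rescDPhi n ζ p g else 0) ∂(stdGauss (Fin n × Fin n)) := by
  have hL : ∀ p ∈ (Finset.univ : Finset (Fin n × Fin n)),
      Integrable (fun g : Fin n × Fin n → ℝ => if p.1 < p.2 then
        ((g p : ℂ) * ((√(n : ℝ))⁻¹ : ℝ)) * rescPhi n ζ p g else 0)
        (stdGauss (Fin n × Fin n)) := by
    intro p _
    by_cases hp : p.1 < p.2
    · simp only [if_pos hp]
      obtain ⟨C, hC⟩ := resc_exists_bound (n := n) ζ hζ p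
      have hid : Integrable (fun g : Fin n × Fin n → ℝ => g p) (stdGauss (Fin n × Fin n)) :=
        integrable_eval (μ := fun _ : Fin n × Fin n => gaussianReal 0 1) (i := p)
          (memLp_id_gaussianReal 1 |>.integrable le_rfl)
      have hidC : Integrable (fun g : Fin n × Fin n → ℝ => (g p : ℂ))
          (stdGauss (Fin n × Fin n)) := hid.ofReal
      exact (hidC.mul_const _).mul_bdd
        (resc_continuous_Phi ζ hζ.ne' p).measurable.aestronglyMeasurable
        (ae_of_all _ (fun g => (hC g).1))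
    · simp only [if_neg hp]
      exact integrable_zero _ _ _
  have hR : ∀ p ∈ (Finset.univ : Finset (Fin n × Fin n)),
      Integrable (fun g : Fin n × Fin n → ℝ => if p.1 < p.2 then
        (((√(n : ℝ))⁻¹ : ℝ) : ℂ) * rescDPhi n ζ p g else 0) (stdGauss (Fin n × Fin n)) := by
    intro p _
    by_cases hp : p.1 < p.2
    · simp only [if_pos hp]
      obtain ⟨C, hC⟩ := resc_exists_bound (n := n) ζ hζ p
      exact (Integrable.of_bound
        (resc_continuous_DPhi ζ hζ.ne' p).measurable.aestronglyMeasurable C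
        (ae_of_all _ (fun g => (hC g).2))).const_mul _
    · simp only [if_neg hp]
      exact integrable_zero _ _ _
  rw [integral_finsetSum _ hL, integral_finsetSum _ hR]
  refine Finset.sum_congr rfl (fun p _ => ?_)
  by_cases hp : p.1 < p.2
  · simp only [if_pos hp]
    have h1 : (fun g : Fin n × Fin n → ℝ =>
        ((g p : ℂ) * ((√(n : ℝ))⁻¹ : ℝ)) * rescPhi n ζ p g) =
        fun g => (((√(n : ℝ))⁻¹ : ℝ) : ℂ) * ((g p : ℂ) * rescPhi n ζ p g) := by
      funext g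
      ring
    rw [h1, integral_const_mul, integral_const_mul, resc_stein ζ hζ p hp]
  · simp only [if_neg hp]

end Vale.Agent.H40.SK
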