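import Vale.Agent.H40.Res.RescDefs

/-!
TASK RESC-A (sub-row of RES-C, sub-project owner helper27; tag `resca_`).  The trace identity
and the elementary bounds for `D = s² - ζ s + 1` and the resolvent columns.
Black boxes: everything in `Resolvent.lean`, `ResolventDeriv.lean`, `JmatAlg.lean` (all proved).

Sketches (`G = resolvent n ζ g`, `s = stieltjes n ζ g = (n:ℂ)⁻¹ * ∑_a G a a`).
* `resc_trace`: sum `resolvent_mul_right ζ hζ g a a` over `a`:
  `ζ * ∑_a G a a - ∑_a ∑_c G a c * J c a = n`.  Exchange the two sums and apply `sum_Jmat_mul g F`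
  with `F i k = G k i`.  For `n = 0` both sides vanish; for `n ≥ 1`, ` (n:ℂ) * (n:ℂ)⁻¹ = 1`.
* `resc_continuous_D`: `continuous_stieltjes`.
* `resc_norm_D_le`: `norm_stieltjes_le` gives `|s| ≤ 1/|Im ζ| = 1/Im ζ`; triangle inequality.
* `resc_col_sq`: `resolvent_opNorm_le ζ hζ g v` with `v = Pi.single b 1`
  (then `∑_b' G a b' * v b' = G a b` and `∑ |v b'|² = 1`).
* `resc_row_sq`: `resc_col_sq` and `resolvent_symm`.
* `resc_norm_W_le`: `|x * y| ≤ (|x|² + |y|²)/2` for each of the `2n` products, then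
  `resc_col_sq` / `resc_row_sq` (four sums, each at most `1/(Im ζ)²`, with total weight `1/2`).
-/

namespace Vale.Agent.H40.SK

open MeasureTheory ProbabilityTheory Real

variable {n : ℕ}

/-- Trace identity: `n (ζ s - 1) = ∑_{i,k} J_ik G_ki`, written as a sum over the pairs
`p.1 < p.2`. -/
lemma resc_trace (ζ : ℂ) (hζ : ζ.im ≠ 0) (g : Fin n × Fin n → ℝ) :
    (n : ℂ) * (ζ * stieltjes n ζ g - 1)
      = ∑ p : Fin n × Fin n, if p.1 < p.2 then
          ((g p : ℂ) * ((√(n : ℝ))⁻¹ : ℝ))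
            * (resolvent n ζ g p.1 p.2 + resolvent n ζ g p.2 p.1) else 0 := by
  have h1 : ∀ a : Fin n, ζ * resolvent n ζ g a a
      - ∑ c, resolvent n ζ g a c * (Jmat n g c a : ℂ) = 1 := by
    intro a
    have := resolvent_mul_right ζ hζ g a a
    simpa using this
  have h2 : ζ * ∑ a, resolvent n ζ g a a
      - ∑ a, ∑ c, resolvent n ζ g a c * (Jmat n g c a : ℂ) = (n : ℂ) := by
    rw [Finset.mul_sum, ← Finset.sum_sub_distrib, Finset.sum_congr rfl fun a _ => h1 a]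
    simp
  have h3 : ∑ a, ∑ c, resolvent n ζ g a c * (Jmat n g c a : ℂ)
      = ∑ i, ∑ k, (Jmat n g i k : ℂ) * resolvent n ζ g k i := by
    rw [Finset.sum_comm]
    refine Finset.sum_congr rfl fun i _ => Finset.sum_congr rfl fun k _ => ?_
    ring
  have h4 := sum_Jmat_mul g (fun i k => resolvent n ζ g k i)
  have h5 : (n : ℂ) * (ζ * stieltjes n ζ g - 1) = ζ * ∑ a, resolvent n ζ g a a - (n : ℂ) := by
    unfold stieltjes
    rcases Nat.eq_zero_or_pos n with h0 | h0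
    · subst h0
      simp
    · have hn0 : (n : ℂ) ≠ 0 := by
        have : n ≠ 0 := by omega
        exact_mod_cast this
      field_simp
  rw [h5]
  have h6 : ζ * ∑ a, resolvent n ζ g a a - (n : ℂ)
      = ∑ i, ∑ k, (Jmat n g i k : ℂ) * resolvent n ζ g k i := by
    rw [← h3]
    linear_combination h2
  rw [h6, h4]
  refine Finset.sum_congr rfl fun p _ => ?_
  split_ifs
  · ring
  · rfl

/-- `D` is continuous in the disorder. -/
lemma resc_continuous_D (ζ : ℂ) (hζ : ζ.im ≠ 0) :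
    Continuous (fun g : Fin n × Fin n → ℝ => rescD n ζ g) := by
  unfold rescD
  exact (((continuous_stieltjes ζ hζ).pow 2).sub
    (continuous_const.mul (continuous_stieltjes ζ hζ))).add continuous_const

/-- Crude bound of `D`. -/
lemma resc_norm_D_le (ζ : ℂ) (hζ : 0 < ζ.im) (g : Fin n × Fin n → ℝ) :
    ‖rescD n ζ g‖ ≤ 1 / ζ.im ^ 2 + ‖ζ‖ / ζ.im + 1 := by
  have hs : ‖stieltjes n ζ g‖ ≤ 1 / ζ.im := by
    have := norm_stieltjes_le ζ hζ.ne' g
    rwa [abs_of_pos hζ] at this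
  have hs0 : 0 ≤ ‖stieltjes n ζ g‖ := norm_nonneg _
  have hz0 : 0 ≤ ‖ζ‖ := norm_nonneg _
  unfold rescD
  calc ‖stieltjes n ζ g ^ 2 - ζ * stieltjes n ζ g + 1‖
      ≤ ‖stieltjes n ζ g ^ 2 - ζ * stieltjes n ζ g‖ + ‖(1 : ℂ)‖ := norm_add_le _ _
    _ ≤ ‖stieltjes n ζ g ^ 2‖ + ‖ζ * stieltjes n ζ g‖ + ‖(1 : ℂ)‖ := by
        have := norm_sub_le (stieltjes n ζ g ^ 2) (ζ * stieltjes n ζ g)
        linarith
    _ = ‖stieltjes n ζ g‖ ^ 2 + ‖ζ‖ * ‖stieltjes n ζ g‖ + 1 := by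
        rw [norm_pow, norm_mul, norm_one]
    _ ≤ (1 / ζ.im) ^ 2 + ‖ζ‖ * (1 / ζ.im) + 1 := by
        have h1 : ‖stieltjes n ζ g‖ ^ 2 ≤ (1 / ζ.im) ^ 2 := pow_le_pow_left₀ hs0 hs 2
        have h2 : ‖ζ‖ * ‖stieltjes n ζ g‖ ≤ ‖ζ‖ * (1 / ζ.im) :=
          mul_le_mul_of_nonneg_left hs hz0
        linarith
    _ = 1 / ζ.im ^ 2 + ‖ζ‖ / ζ.im + 1 := by
        ring

/-- The columns of the resolvent have Euclidean norm at most `1/|Im ζ|`. -/
lemma resc_col_sq (ζ : ℂ) (hζ : ζ.im ≠ 0) (g : Fin n × Fin n → ℝ) (b : Fin n) :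
    ∑ a, ‖resolvent n ζ g a b‖ ^ 2 ≤ 1 / ζ.im ^ 2 := by
  have h := resolvent_opNorm_le ζ hζ g (Pi.single b (1 : ℂ))
  have h1 : ∀ a : Fin n, ∑ b', resolvent n ζ g a b' * (Pi.single b (1 : ℂ) : Fin n → ℂ) b'
      = resolvent n ζ g a b := by
    intro a
    rw [Finset.sum_eq_single b]
    · simp
    · intro b' _ hb'
      simp [hb']
    · intro hb
      exact absurd (Finset.mem_univ b) hb
  have h2 : ∑ b', ‖(Pi.single b (1 : ℂ) : Fin n → ℂ) b'‖ ^ 2 = 1 := by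
    rw [Finset.sum_eq_single b]
    · simp
    · intro b' _ hb'
      simp [hb']
    · intro hb
      exact absurd (Finset.mem_univ b) hb
  rw [h2] at h
  simpa only [h1] using h

/-- The rows of the resolvent have Euclidean norm at most `1/|Im ζ|`. -/
lemma resc_row_sq (ζ : ℂ) (hζ : ζ.im ≠ 0) (g : Fin n × Fin n → ℝ) (b : Fin n) :
    ∑ a, ‖resolvent n ζ g b a‖ ^ 2 ≤ 1 / ζ.im ^ 2 := by
  have h := resc_col_sq ζ hζ g b
  have h1 : ∑ a, ‖resolvent n ζ g b a‖ ^ 2 = ∑ a, ‖resolvent n ζ g a b‖ ^ 2 :=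
    Finset.sum_congr rfl fun a _ => by rw [resolvent_symm ζ hζ g b a]
  rw [h1]
  exact h

/-- `|W_p| ≤ 2/(Im ζ)²` (entries of `G²` are bounded by the square of the operator norm). -/
lemma resc_norm_W_le (ζ : ℂ) (hζ : ζ.im ≠ 0) (p : Fin n × Fin n) (g : Fin n × Fin n → ℝ) :
    ‖rescW n ζ p g‖ ≤ 2 / ζ.im ^ 2 := by
  unfold rescW
  have hterm : ∀ a : Fin n, ‖resolvent n ζ g a p.1 * resolvent n ζ g p.2 a
        + resolvent n ζ g a p.2 * resolvent n ζ g p.1 a‖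
      ≤ (‖resolvent n ζ g a p.1‖ ^ 2 + ‖resolvent n ζ g p.2 a‖ ^ 2) / 2
        + (‖resolvent n ζ g a p.2‖ ^ 2 + ‖resolvent n ζ g p.1 a‖ ^ 2) / 2 := by
    intro a
    have h1 := norm_add_le (resolvent n ζ g a p.1 * resolvent n ζ g p.2 a)
      (resolvent n ζ g a p.2 * resolvent n ζ g p.1 a)
    rw [norm_mul, norm_mul] at h1
    nlinarith [sq_nonneg (‖resolvent n ζ g a p.1‖ - ‖resolvent n ζ g p.2 a‖),
      sq_nonneg (‖resolvent n ζ g a p.2‖ - ‖resolvent n ζ g p.1 a‖)]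
  have hc1 := resc_col_sq ζ hζ g p.1
  have hc2 := resc_col_sq ζ hζ g p.2
  have hr1 := resc_row_sq ζ hζ g p.1
  have hr2 := resc_row_sq ζ hζ g p.2
  calc ‖∑ a, (resolvent n ζ g a p.1 * resolvent n ζ g p.2 a
          + resolvent n ζ g a p.2 * resolvent n ζ g p.1 a)‖
      ≤ ∑ a, ‖resolvent n ζ g a p.1 * resolvent n ζ g p.2 a
          + resolvent n ζ g a p.2 * resolvent n ζ g p.1 a‖ := norm_sum_le _ _
    _ ≤ ∑ a, ((‖resolvent n ζ g a p.1‖ ^ 2 + ‖resolvent n ζ g p.2 a‖ ^ 2) / 2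
          + (‖resolvent n ζ g a p.2‖ ^ 2 + ‖resolvent n ζ g p.1 a‖ ^ 2) / 2) :=
        Finset.sum_le_sum fun a _ => hterm a
    _ = (∑ a, ‖resolvent n ζ g a p.1‖ ^ 2 + ∑ a, ‖resolvent n ζ g p.2 a‖ ^ 2) / 2
          + (∑ a, ‖resolvent n ζ g a p.2‖ ^ 2 + ∑ a, ‖resolvent n ζ g p.1 a‖ ^ 2) / 2 := by
        rw [Finset.sum_add_distrib, ← Finset.sum_div, ← Finset.sum_div, Finset.sum_add_distrib,
          Finset.sum_add_distrib]
    _ ≤ 2 / ζ.im ^ 2 := by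
        have : 2 / ζ.im ^ 2 = (1 / ζ.im ^ 2 + 1 / ζ.im ^ 2) / 2 + (1 / ζ.im ^ 2 + 1 / ζ.im ^ 2) / 2 := by
          ring
        rw [this]
        linarith

end Vale.Agent.H40.SK
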