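import Vale.Agent.H40.Res.JmatAlg

/-!
TASK RES-B2.  Algebra and bounds for the resolvent `G = (ζ - J)⁻¹` of the real symmetric coupling
matrix `J = Jmat n g`, for a complex `ζ` off the real axis.  Everything is stated entrywise.

Proof sketches.
* Invertibility.  Let `A = ζ • 1 - J` (complex matrix).  If `A u = 0` for a complex vector `u`,
  then `0 = ∑_a conj(u_a) (A u)_a = ζ |u|² - ∑_{a,b} J_ab conj(u_a) u_b`, and the last sum is real
  (`J` real symmetric), so taking imaginary parts `ζ.im * |u|² = 0`, hence `u = 0`.  So `det A ≠ 0`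
  (`Matrix.exists_mulVec_eq_zero_iff`), `A` is a unit and `A * A⁻¹ = 1 = A⁻¹ * A`
  (`Matrix.mul_nonsing_inv`, `Matrix.nonsing_inv_mul`).  `resolvent_mul_left/right` are these
  identities written entrywise.
* `resolvent_symm`: `Aᵀ = A`, so ` (A⁻¹)ᵀ = A⁻¹` (`Matrix.transpose_nonsing_inv`).
* Key identity: for a complex vector `v` and `u = G v` (so `A u = v`):
  `∑_a conj(u_a) v_a = ζ |u|² - q`, where `q = ∑_{a,b} J_ab conj(u_a) u_b` is REAL and equals
  `qform (re u) + qform (im u)`.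
  - imaginary part: `ζ.im * |u|² = im (∑ conj(u_a) v_a)`, so `|ζ.im| |u|² ≤ |u| |v|`
    (Cauchy-Schwarz), which gives `resolvent_opNorm_le`;
  - real part, when `g ∉ edgeBad n a` (that is `qform w ≤ a |w|²` for all real `w`):
    ` (ζ.re - a) |u|² ≤ ζ.re |u|² - q = re (∑ conj(u_a) v_a) ≤ |u| |v|`, which gives
    `resolvent_opNorm_le_of_edge`;
  - for a REAL vector `v`: `∑_a v_a u_a = conj (∑_a conj(u_a) v_a) = conj ζ * |u|² - q`, so its
    imaginary part is `-ζ.im |u|²` (`resolvent_qform_im`) and its real part is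
    `ζ.re |u|² - q ≥ (ζ.re - a)|u|² ≥ 0` off `edgeBad n a` (`resolvent_qform_re_nonneg`).
* `resolvent_entry_le`: `resolvent_opNorm_le` with `v` the `b`-th basis vector.
-/

namespace Vale.Agent.H40.SK

open MeasureTheory ProbabilityTheory Real

variable {n : ℕ}

/-- The complex matrix `ζ - J`. -/
noncomputable def resb2_A (n : ℕ) (ζ : ℂ) (g : Fin n × Fin n → ℝ) : Matrix (Fin n) (Fin n) ℂ :=
  ζ • (1 : Matrix (Fin n) (Fin n) ℂ) - (Jmat n g).map (fun r : ℝ => (r : ℂ))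

lemma resb2_resolvent_eq (ζ : ℂ) (g : Fin n × Fin n → ℝ) :
    resolvent n ζ g = (resb2_A n ζ g)⁻¹ := rfl

lemma resb2_A_apply (ζ : ℂ) (g : Fin n × Fin n → ℝ) (a b : Fin n) :
    resb2_A n ζ g a b = (if a = b then ζ else 0) - (Jmat n g a b : ℂ) := by
  simp [resb2_A, Matrix.one_apply]

lemma resb2_A_mulVec (ζ : ℂ) (g : Fin n × Fin n → ℝ) (u : Fin n → ℂ) (a : Fin n) :
    (resb2_A n ζ g).mulVec u a = ζ * u a - ∑ b, (Jmat n g a b : ℂ) * u b := by
  simp only [Matrix.mulVec, dotProduct, resb2_A_apply, sub_mul, Finset.sum_sub_distrib]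
  congr 1
  simp

/-- Imaginary part of the key identity. -/
lemma resb2_key_im (ζ : ℂ) (g : Fin n × Fin n → ℝ) (u : Fin n → ℂ) :
    (∑ a, (starRingEnd ℂ) (u a) * (ζ * u a - ∑ b, (Jmat n g a b : ℂ) * u b)).im
      = ζ.im * ∑ a, ‖u a‖ ^ 2 := by
  have h1 : ∀ a, ((starRingEnd ℂ) (u a) * (ζ * u a - ∑ b, (Jmat n g a b : ℂ) * u b)).im
      = ζ.im * ‖u a‖ ^ 2
        - ∑ b, Jmat n g a b * ((u a).re * (u b).im - (u a).im * (u b).re) := by
    intro a
    rw [mul_sub, Complex.sub_im]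
    congr 1
    · rw [Complex.sq_norm, Complex.normSq_apply]
      simp only [Complex.mul_im, Complex.mul_re, Complex.conj_re, Complex.conj_im]
      ring
    · rw [Finset.mul_sum, Complex.im_sum]
      refine Finset.sum_congr rfl (fun b _ => ?_)
      simp only [Complex.mul_im, Complex.mul_re, Complex.conj_re, Complex.conj_im,
        Complex.ofReal_re, Complex.ofReal_im]
      ring
  rw [Complex.im_sum, Finset.sum_congr rfl (fun a _ => h1 a), Finset.sum_sub_distrib,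
    ← Finset.mul_sum]
  have h2 : ∑ a, ∑ b, Jmat n g a b * ((u a).re * (u b).im - (u a).im * (u b).re) = 0 := by
    have e1 : ∑ a, ∑ b, Jmat n g a b * ((u a).re * (u b).im - (u a).im * (u b).re)
        = ∑ a, ∑ b, Jmat n g a b * ((u a).re * (u b).im)
          - ∑ a, ∑ b, Jmat n g a b * ((u a).im * (u b).re) := by
      rw [← Finset.sum_sub_distrib]
      refine Finset.sum_congr rfl (fun a _ => ?_)
      rw [← Finset.sum_sub_distrib]
      refine Finset.sum_congr rfl (fun b _ => ?_)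
      ring
    have e2 : ∑ a, ∑ b, Jmat n g a b * ((u a).im * (u b).re)
        = ∑ a, ∑ b, Jmat n g a b * ((u a).re * (u b).im) := by
      rw [Finset.sum_comm]
      refine Finset.sum_congr rfl (fun a _ => ?_)
      refine Finset.sum_congr rfl (fun b _ => ?_)
      rw [Jmat_symm g b a]
      ring
    rw [e1, e2, sub_self]
  rw [h2, sub_zero]

/-- Real part of the key identity. -/
lemma resb2_key_re (ζ : ℂ) (g : Fin n × Fin n → ℝ) (u : Fin n → ℂ) :
    (∑ a, (starRingEnd ℂ) (u a) * (ζ * u a - ∑ b, (Jmat n g a b : ℂ) * u b)).re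
      = ζ.re * ∑ a, ‖u a‖ ^ 2
        - (qform n g (fun a => (u a).re) + qform n g (fun a => (u a).im)) := by
  have h1 : ∀ a, ((starRingEnd ℂ) (u a) * (ζ * u a - ∑ b, (Jmat n g a b : ℂ) * u b)).re
      = ζ.re * ‖u a‖ ^ 2
        - (∑ b, Jmat n g a b * (u a).re * (u b).re + ∑ b, Jmat n g a b * (u a).im * (u b).im) := by
    intro a
    rw [mul_sub, Complex.sub_re]
    congr 1
    · rw [Complex.sq_norm, Complex.normSq_apply]
      simp only [Complex.mul_im, Complex.mul_re, Complex.conj_re, Complex.conj_im]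
      ring
    · rw [Finset.mul_sum, Complex.re_sum, ← Finset.sum_add_distrib]
      refine Finset.sum_congr rfl (fun b _ => ?_)
      simp only [Complex.mul_im, Complex.mul_re, Complex.conj_re, Complex.conj_im,
        Complex.ofReal_re, Complex.ofReal_im]
      ring
  rw [Complex.re_sum, Finset.sum_congr rfl (fun a _ => h1 a), Finset.sum_sub_distrib,
    ← Finset.mul_sum, Finset.sum_add_distrib]
  rfl

/-- The matrix `ζ - J` is invertible off the real axis. -/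
lemma resb2_det_ne_zero (ζ : ℂ) (hζ : ζ.im ≠ 0) (g : Fin n × Fin n → ℝ) :
    (resb2_A n ζ g).det ≠ 0 := by
  intro hdet
  obtain ⟨u, hu0, hu⟩ := Matrix.exists_mulVec_eq_zero_iff.2 hdet
  have hkey := resb2_key_im ζ g u
  have hz : ∀ a, ζ * u a - ∑ b, (Jmat n g a b : ℂ) * u b = 0 := by
    intro a
    rw [← resb2_A_mulVec, hu]
    rfl
  simp only [hz, mul_zero, Finset.sum_const_zero, Complex.zero_im] at hkey
  have hsum : ∑ a, ‖u a‖ ^ 2 = 0 := by
    rcases mul_eq_zero.1 hkey.symm with h | h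
    · exact absurd h hζ
    · exact h
  apply hu0
  funext a
  have hnn : ∀ b ∈ (Finset.univ : Finset (Fin n)), 0 ≤ ‖u b‖ ^ 2 := fun b _ => sq_nonneg _
  have := (Finset.sum_eq_zero_iff_of_nonneg hnn).1 hsum a (Finset.mem_univ a)
  simpa using this

lemma resb2_mul_inv (ζ : ℂ) (hζ : ζ.im ≠ 0) (g : Fin n × Fin n → ℝ) :
    resb2_A n ζ g * resolvent n ζ g = 1 := by
  rw [resb2_resolvent_eq]
  exact Matrix.mul_nonsing_inv _ (isUnit_iff_ne_zero.2 (resb2_det_ne_zero ζ hζ g))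

lemma resb2_inv_mul (ζ : ℂ) (hζ : ζ.im ≠ 0) (g : Fin n × Fin n → ℝ) :
    resolvent n ζ g * resb2_A n ζ g = 1 := by
  rw [resb2_resolvent_eq]
  exact Matrix.nonsing_inv_mul _ (isUnit_iff_ne_zero.2 (resb2_det_ne_zero ζ hζ g))

/-- ` (ζ - J) G = 1`, entrywise. -/
lemma resolvent_mul_left (ζ : ℂ) (hζ : ζ.im ≠ 0) (g : Fin n × Fin n → ℝ) (a b : Fin n) :
    ζ * resolvent n ζ g a b - ∑ c, (Jmat n g a c : ℂ) * resolvent n ζ g c b
      = if a = b then 1 else 0 := by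
  have h := congrFun (congrFun (resb2_mul_inv ζ hζ g) a) b
  rw [Matrix.one_apply, Matrix.mul_apply] at h
  rw [← h]
  simp only [resb2_A_apply, sub_mul, Finset.sum_sub_distrib]
  congr 1
  simp

/-- `G (ζ - J) = 1`, entrywise. -/
lemma resolvent_mul_right (ζ : ℂ) (hζ : ζ.im ≠ 0) (g : Fin n × Fin n → ℝ) (a b : Fin n) :
    ζ * resolvent n ζ g a b - ∑ c, resolvent n ζ g a c * (Jmat n g c b : ℂ)
      = if a = b then 1 else 0 := by
  have h := congrFun (congrFun (resb2_inv_mul ζ hζ g) a) b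
  rw [Matrix.one_apply, Matrix.mul_apply] at h
  rw [← h]
  simp only [resb2_A_apply, mul_sub, Finset.sum_sub_distrib]
  congr 1
  simp [mul_comm]

/-- The resolvent is a symmetric matrix. -/
lemma resolvent_symm (ζ : ℂ) (hζ : ζ.im ≠ 0) (g : Fin n × Fin n → ℝ) (a b : Fin n) :
    resolvent n ζ g a b = resolvent n ζ g b a := by
  have hA : (resb2_A n ζ g).transpose = resb2_A n ζ g := by
    ext i j
    rw [Matrix.transpose_apply, resb2_A_apply, resb2_A_apply, Jmat_symm g j i]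
    by_cases hij : i = j
    · subst hij; rfl
    · have hji : ¬ j = i := fun h => hij h.symm
      simp [hij, hji]
  have hG : (resolvent n ζ g).transpose = resolvent n ζ g := by
    rw [resb2_resolvent_eq, Matrix.transpose_nonsing_inv, hA]
  have := congrFun (congrFun hG b) a
  rw [Matrix.transpose_apply] at this
  exact this

/-- `A (G v) = v`, entrywise, with `G v` written as a sum. -/
lemma resb2_apply_inv (ζ : ℂ) (hζ : ζ.im ≠ 0) (g : Fin n × Fin n → ℝ) (v : Fin n → ℂ)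
    (a : Fin n) :
    ζ * (∑ b, resolvent n ζ g a b * v b)
      - ∑ c, (Jmat n g a c : ℂ) * (∑ b, resolvent n ζ g c b * v b) = v a := by
  have h1 : (resb2_A n ζ g).mulVec ((resolvent n ζ g).mulVec v) = v := by
    rw [Matrix.mulVec_mulVec, resb2_mul_inv ζ hζ g, Matrix.one_mulVec]
  have h2 := congrFun h1 a
  rw [resb2_A_mulVec] at h2
  exact h2

/-- Key identity for `u = G v`, imaginary part. -/
lemma resb2_res_im (ζ : ℂ) (hζ : ζ.im ≠ 0) (g : Fin n × Fin n → ℝ) (v : Fin n → ℂ) :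
    (∑ a, (starRingEnd ℂ) (∑ b, resolvent n ζ g a b * v b) * v a).im
      = ζ.im * ∑ a, ‖∑ b, resolvent n ζ g a b * v b‖ ^ 2 := by
  rw [← resb2_key_im ζ g (fun a => ∑ b, resolvent n ζ g a b * v b)]
  congr 1
  refine Finset.sum_congr rfl (fun a _ => ?_)
  rw [resb2_apply_inv ζ hζ g v a]

/-- Key identity for `u = G v`, real part. -/
lemma resb2_res_re (ζ : ℂ) (hζ : ζ.im ≠ 0) (g : Fin n × Fin n → ℝ) (v : Fin n → ℂ) :
    (∑ a, (starRingEnd ℂ) (∑ b, resolvent n ζ g a b * v b) * v a).re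
      = ζ.re * ∑ a, ‖∑ b, resolvent n ζ g a b * v b‖ ^ 2
        - (qform n g (fun a => (∑ b, resolvent n ζ g a b * v b).re)
          + qform n g (fun a => (∑ b, resolvent n ζ g a b * v b).im)) := by
  rw [← resb2_key_re ζ g (fun a => ∑ b, resolvent n ζ g a b * v b)]
  congr 1
  refine Finset.sum_congr rfl (fun a _ => ?_)
  rw [resb2_apply_inv ζ hζ g v a]

/-- Cauchy-Schwarz for the pairing of the key identity. -/
lemma resb2_cs (u v : Fin n → ℂ) :
    ‖∑ a, (starRingEnd ℂ) (u a) * v a‖ ^ 2 ≤ (∑ a, ‖u a‖ ^ 2) * ∑ a, ‖v a‖ ^ 2 := by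
  have h1 : ‖∑ a, (starRingEnd ℂ) (u a) * v a‖ ≤ ∑ a, ‖u a‖ * ‖v a‖ := by
    refine (norm_sum_le _ _).trans (le_of_eq ?_)
    refine Finset.sum_congr rfl (fun a _ => ?_)
    rw [norm_mul, RCLike.norm_conj]
  have h2 := Finset.sum_mul_sq_le_sq_mul_sq (Finset.univ : Finset (Fin n))
    (fun a => ‖u a‖) (fun a => ‖v a‖)
  have h0 : 0 ≤ ‖∑ a, (starRingEnd ℂ) (u a) * v a‖ := norm_nonneg _
  calc ‖∑ a, (starRingEnd ℂ) (u a) * v a‖ ^ 2 ≤ (∑ a, ‖u a‖ * ‖v a‖) ^ 2 :=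
        pow_le_pow_left₀ h0 h1 2
    _ ≤ (∑ a, ‖u a‖ ^ 2) * ∑ a, ‖v a‖ ^ 2 := h2

/-- Final arithmetic step: `t U ≤ S`, `S² ≤ U V` give `U ≤ V / t²`. -/
lemma resb2_final {t U V S : ℝ} (ht : 0 < t) (hU : 0 ≤ U) (hV : 0 ≤ V) (h1 : t * U ≤ S)
    (h2 : S ^ 2 ≤ U * V) : U ≤ V / t ^ 2 := by
  rw [le_div_iff₀ (by positivity)]
  rcases hU.eq_or_lt with h | h
  · rw [← h]; simpa using hV
  · have h3 : (t * U) ^ 2 ≤ S ^ 2 := pow_le_pow_left₀ (by positivity) h1 2
    have h4 : (U * t ^ 2) * U ≤ V * U := by nlinarith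
    exact le_of_mul_le_mul_right h4 h

/-- Operator norm bound `‖G‖ ≤ 1/|Im ζ|`. -/
lemma resolvent_opNorm_le (ζ : ℂ) (hζ : ζ.im ≠ 0) (g : Fin n × Fin n → ℝ) (v : Fin n → ℂ) :
    ∑ a, ‖∑ b, resolvent n ζ g a b * v b‖ ^ 2 ≤ (∑ b, ‖v b‖ ^ 2) / ζ.im ^ 2 := by
  have hkey := resb2_res_im ζ hζ g v
  have hcs := resb2_cs (fun a => ∑ b, resolvent n ζ g a b * v b) v
  have hU : 0 ≤ ∑ a, ‖∑ b, resolvent n ζ g a b * v b‖ ^ 2 :=
    Finset.sum_nonneg (fun a _ => sq_nonneg _)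
  have hV : 0 ≤ ∑ b, ‖v b‖ ^ 2 := Finset.sum_nonneg (fun a _ => sq_nonneg _)
  have h1 : |ζ.im| * ∑ a, ‖∑ b, resolvent n ζ g a b * v b‖ ^ 2
      ≤ ‖∑ a, (starRingEnd ℂ) (∑ b, resolvent n ζ g a b * v b) * v a‖ := by
    have := Complex.abs_im_le_norm (∑ a, (starRingEnd ℂ) (∑ b, resolvent n ζ g a b * v b) * v a)
    rw [hkey, abs_mul, abs_of_nonneg hU] at this
    exact this
  have := resb2_final (abs_pos.2 hζ) hU hV h1 hcs
  rwa [sq_abs] at this

/-- Off `edgeBad n a` the quadratic form is at most `a |w|²`. -/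
lemma resb2_edge {a : ℝ} {g : Fin n × Fin n → ℝ} (hg : g ∉ edgeBad n a) (w : Fin n → ℝ) :
    qform n g w ≤ a * ∑ i, w i ^ 2 := by
  by_contra hcon
  exact hg ⟨w, lt_of_not_ge hcon⟩

/-- Lower bound for the real part of the key identity off `edgeBad n a`. -/
lemma resb2_res_re_ge (ζ : ℂ) (hζ : ζ.im ≠ 0) (a : ℝ) (g : Fin n × Fin n → ℝ)
    (hg : g ∉ edgeBad n a) (v : Fin n → ℂ) :
    (ζ.re - a) * ∑ c, ‖∑ b, resolvent n ζ g c b * v b‖ ^ 2
      ≤ (∑ c, (starRingEnd ℂ) (∑ b, resolvent n ζ g c b * v b) * v c).re := by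
  rw [resb2_res_re ζ hζ g v]
  have e1 := resb2_edge hg (fun c => (∑ b, resolvent n ζ g c b * v b).re)
  have e2 := resb2_edge hg (fun c => (∑ b, resolvent n ζ g c b * v b).im)
  have e3 : ∑ c, ‖∑ b, resolvent n ζ g c b * v b‖ ^ 2
      = ∑ c, (∑ b, resolvent n ζ g c b * v b).re ^ 2
        + ∑ c, (∑ b, resolvent n ζ g c b * v b).im ^ 2 := by
    rw [← Finset.sum_add_distrib]
    refine Finset.sum_congr rfl (fun c _ => ?_)
    rw [Complex.sq_norm, Complex.normSq_apply]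
    ring
  rw [e3]
  nlinarith [e1, e2]

/-- Operator norm bound `‖G‖ ≤ 1/(Re ζ - a)` when `J` has no eigenvalue above `a < Re ζ`. -/
lemma resolvent_opNorm_le_of_edge (ζ : ℂ) (hζ : ζ.im ≠ 0) (a : ℝ) (ha : a < ζ.re)
    (g : Fin n × Fin n → ℝ) (hg : g ∉ edgeBad n a) (v : Fin n → ℂ) :
    ∑ c, ‖∑ b, resolvent n ζ g c b * v b‖ ^ 2 ≤ (∑ b, ‖v b‖ ^ 2) / (ζ.re - a) ^ 2 := by
  have hkey := resb2_res_re_ge ζ hζ a g hg v
  have hcs := resb2_cs (fun c => ∑ b, resolvent n ζ g c b * v b) v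
  have hU : 0 ≤ ∑ c, ‖∑ b, resolvent n ζ g c b * v b‖ ^ 2 :=
    Finset.sum_nonneg (fun c _ => sq_nonneg _)
  have hV : 0 ≤ ∑ b, ‖v b‖ ^ 2 := Finset.sum_nonneg (fun c _ => sq_nonneg _)
  have h1 : (ζ.re - a) * ∑ c, ‖∑ b, resolvent n ζ g c b * v b‖ ^ 2
      ≤ ‖∑ c, (starRingEnd ℂ) (∑ b, resolvent n ζ g c b * v b) * v c‖ :=
    hkey.trans ((le_abs_self _).trans (Complex.abs_re_le_norm _))
  exact resb2_final (sub_pos.2 ha) hU hV h1 hcs

/-- Sum against a complex basis vector. -/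
lemma resb2_sum_single (F : Fin n → ℂ) (b : Fin n) :
    ∑ c, F c * (if c = b then (1 : ℂ) else 0) = F b := by
  simp

/-- Entry bound. -/
lemma resolvent_entry_le (ζ : ℂ) (hζ : ζ.im ≠ 0) (g : Fin n × Fin n → ℝ) (a b : Fin n) :
    ‖resolvent n ζ g a b‖ ≤ 1 / |ζ.im| := by
  have h := resolvent_opNorm_le ζ hζ g (fun c => if c = b then (1 : ℂ) else 0)
  simp only [resb2_sum_single] at h
  have hV : ∑ c : Fin n, ‖(if c = b then (1 : ℂ) else 0)‖ ^ 2 = 1 := by
    rw [Finset.sum_eq_single b]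
    · simp
    · intro c _ hc; simp [hc]
    · intro hb; exact absurd (Finset.mem_univ b) hb
  rw [hV] at h
  have h1 : ‖resolvent n ζ g a b‖ ^ 2 ≤ ∑ c, ‖resolvent n ζ g c b‖ ^ 2 :=
    Finset.single_le_sum (f := fun c => ‖resolvent n ζ g c b‖ ^ 2)
      (fun c _ => sq_nonneg _) (Finset.mem_univ a)
  have h2 : ‖resolvent n ζ g a b‖ ^ 2 ≤ (1 / |ζ.im|) ^ 2 := by
    rw [div_pow, one_pow, sq_abs]
    exact h1.trans h
  exact (sq_le_sq₀ (norm_nonneg _) (by positivity)).1 h2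

/-- The pairing with a real vector is the conjugate of the pairing of the key identity. -/
lemma resb2_real_pairing (ζ : ℂ) (g : Fin n × Fin n → ℝ) (v : Fin n → ℝ) :
    ∑ c, ∑ b, (v c : ℂ) * resolvent n ζ g c b * (v b : ℂ)
      = (starRingEnd ℂ) (∑ c, (starRingEnd ℂ) (∑ b, resolvent n ζ g c b * (v b : ℂ)) * (v c : ℂ)) := by
  rw [map_sum]
  refine Finset.sum_congr rfl (fun c _ => ?_)
  rw [map_mul, Complex.conj_conj, Complex.conj_ofReal, Finset.sum_mul]
  refine Finset.sum_congr rfl (fun b _ => ?_)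
  ring

/-- Imaginary part of the quadratic form of the resolvent at a real vector. -/
lemma resolvent_qform_im (ζ : ℂ) (hζ : ζ.im ≠ 0) (g : Fin n × Fin n → ℝ) (v : Fin n → ℝ) :
    (∑ c, ∑ b, (v c : ℂ) * resolvent n ζ g c b * (v b : ℂ)).im
      = -ζ.im * ∑ c, ‖∑ b, resolvent n ζ g c b * (v b : ℂ)‖ ^ 2 := by
  rw [resb2_real_pairing, Complex.conj_im, resb2_res_im ζ hζ g (fun b => (v b : ℂ))]
  ring

/-- The real part of the quadratic form of the resolvent at a real vector is nonnegative when `J`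
has no eigenvalue above `a < Re ζ`. -/
lemma resolvent_qform_re_nonneg (ζ : ℂ) (hζ : ζ.im ≠ 0) (a : ℝ) (ha : a < ζ.re)
    (g : Fin n × Fin n → ℝ) (hg : g ∉ edgeBad n a) (v : Fin n → ℝ) :
    0 ≤ (∑ c, ∑ b, (v c : ℂ) * resolvent n ζ g c b * (v b : ℂ)).re := by
  rw [resb2_real_pairing, Complex.conj_re]
  refine le_trans ?_ (resb2_res_re_ge ζ hζ a g hg (fun b => (v b : ℂ)))
  exact mul_nonneg (sub_pos.2 ha).le (Finset.sum_nonneg (fun c _ => sq_nonneg _))

/-- The diagonal entry as a quadratic form at a real basis vector. -/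
lemma resb2_diag (ζ : ℂ) (g : Fin n × Fin n → ℝ) (a : Fin n) :
    ∑ c, ∑ b, (((if c = a then (1 : ℝ) else 0 : ℝ)) : ℂ) * resolvent n ζ g c b
        * (((if b = a then (1 : ℝ) else 0 : ℝ)) : ℂ)
      = resolvent n ζ g a a := by
  rw [Finset.sum_eq_single a]
  · rw [Finset.sum_eq_single a]
    · simp
    · intro b _ hb; simp [hb]
    · intro ha; exact absurd (Finset.mem_univ a) ha
  · intro c _ hc; simp [hc]
  · intro ha; exact absurd (Finset.mem_univ a) ha

/-- The column of the resolvent as the image of a real basis vector. -/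
lemma resb2_col (ζ : ℂ) (g : Fin n × Fin n → ℝ) (a c : Fin n) :
    ∑ b, resolvent n ζ g c b * (((if b = a then (1 : ℝ) else 0 : ℝ)) : ℂ)
      = resolvent n ζ g c a := by
  rw [Finset.sum_eq_single a]
  · simp
  · intro b _ hb; simp [hb]
  · intro ha; exact absurd (Finset.mem_univ a) ha

/-- `Im G_aa = -Im ζ * |G e_a|²`. -/
lemma resb2_diag_im (ζ : ℂ) (hζ : ζ.im ≠ 0) (g : Fin n × Fin n → ℝ) (a : Fin n) :
    (resolvent n ζ g a a).im = -ζ.im * ∑ c, ‖resolvent n ζ g c a‖ ^ 2 := by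
  have h := resolvent_qform_im ζ hζ g (fun c => if c = a then (1 : ℝ) else 0)
  rw [resb2_diag] at h
  rw [h]
  congr 1
  refine Finset.sum_congr rfl (fun c _ => ?_)
  rw [resb2_col]

/-- The imaginary part of the normalised trace. -/
lemma resb2_stieltjes_im (ζ : ℂ) (g : Fin n × Fin n → ℝ) :
    (stieltjes n ζ g).im = (n : ℝ)⁻¹ * ∑ a, (resolvent n ζ g a a).im := by
  unfold stieltjes
  rw [← Complex.ofReal_natCast, ← Complex.ofReal_inv, Complex.im_ofReal_mul, Complex.im_sum]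

/-- The normalised trace has nonpositive imaginary part in the upper half plane
(`Im G_aa = -Im ζ * |G e_a|²` by `resolvent_qform_im` at the basis vector `e_a`). -/
lemma stieltjes_im_nonpos (ζ : ℂ) (hζ : 0 < ζ.im) (g : Fin n × Fin n → ℝ) :
    (stieltjes n ζ g).im ≤ 0 := by
  rw [resb2_stieltjes_im]
  refine mul_nonpos_of_nonneg_of_nonpos (inv_nonneg.2 (Nat.cast_nonneg n)) ?_
  refine Finset.sum_nonpos (fun a _ => ?_)
  rw [resb2_diag_im ζ hζ.ne' g a]
  have hs : 0 ≤ ∑ c, ‖resolvent n ζ g c a‖ ^ 2 := Finset.sum_nonneg (fun c _ => sq_nonneg _)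
  nlinarith

/-- `|(1/n) tr G| ≤ 1/|Im ζ|` (entry bound; for `n = 0` the trace is `0`). -/
lemma norm_stieltjes_le (ζ : ℂ) (hζ : ζ.im ≠ 0) (g : Fin n × Fin n → ℝ) :
    ‖stieltjes n ζ g‖ ≤ 1 / |ζ.im| := by
  unfold stieltjes
  have hpos : 0 ≤ 1 / |ζ.im| := by positivity
  rw [norm_mul, norm_inv, Complex.norm_natCast]
  have h1 : ‖∑ a, resolvent n ζ g a a‖ ≤ (n : ℝ) * (1 / |ζ.im|) := by
    refine (norm_sum_le _ _).trans ?_
    have := Finset.sum_le_card_nsmul (Finset.univ : Finset (Fin n))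
      (fun a => ‖resolvent n ζ g a a‖) (1 / |ζ.im|)
      (fun a _ => resolvent_entry_le ζ hζ g a a)
    simpa using this
  rcases Nat.eq_zero_or_pos n with hn | hn
  · subst hn
    simp
  · have hn' : (0 : ℝ) < n := Nat.cast_pos.2 hn
    calc (n : ℝ)⁻¹ * ‖∑ a, resolvent n ζ g a a‖ ≤ (n : ℝ)⁻¹ * ((n : ℝ) * (1 / |ζ.im|)) :=
          mul_le_mul_of_nonneg_left h1 (inv_nonneg.2 hn'.le)
      _ = 1 / |ζ.im| := by field_simp

/-- When `J` has no eigenvalue above `a < Re ζ`, the imaginary part of the normalised trace is at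
least `-Im ζ / (Re ζ - a)²` (`Im G_aa = -Im ζ * |G e_a|²` and `|G e_a|² ≤ 1/(Re ζ - a)²`). -/
lemma stieltjes_im_ge_of_edge (ζ : ℂ) (hζ : 0 < ζ.im) (a : ℝ) (ha : a < ζ.re)
    (g : Fin n × Fin n → ℝ) (hg : g ∉ edgeBad n a) :
    -(ζ.im / (ζ.re - a) ^ 2) ≤ (stieltjes n ζ g).im := by
  rw [resb2_stieltjes_im]
  have hd : 0 < (ζ.re - a) ^ 2 := by have := sub_pos.2 ha; positivity
  have hq : 0 ≤ ζ.im / (ζ.re - a) ^ 2 := by positivity
  have hentry : ∀ b : Fin n, -(ζ.im / (ζ.re - a) ^ 2) ≤ (resolvent n ζ g b b).im := by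
    intro b
    rw [resb2_diag_im ζ hζ.ne' g b]
    have h := resolvent_opNorm_le_of_edge ζ hζ.ne' a ha g hg
      (fun c => (((if c = b then (1 : ℝ) else 0 : ℝ)) : ℂ))
    simp only [resb2_col] at h
    have hV : ∑ c : Fin n, ‖(((if c = b then (1 : ℝ) else 0 : ℝ)) : ℂ)‖ ^ 2 = 1 := by
      rw [Finset.sum_eq_single b]
      · simp
      · intro c _ hc; simp [hc]
      · intro hb; exact absurd (Finset.mem_univ b) hb
    rw [hV] at h
    have h2 : ζ.im * ∑ c, ‖resolvent n ζ g c b‖ ^ 2 ≤ ζ.im * (1 / (ζ.re - a) ^ 2) :=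
      mul_le_mul_of_nonneg_left h hζ.le
    have e : ζ.im * (1 / (ζ.re - a) ^ 2) = ζ.im / (ζ.re - a) ^ 2 := by ring
    rw [e] at h2
    linarith
  rcases Nat.eq_zero_or_pos n with hn | hn
  · subst hn
    simpa using hq
  · have hn' : (0 : ℝ) < n := Nat.cast_pos.2 hn
    have h1 : (n : ℝ) * (-(ζ.im / (ζ.re - a) ^ 2)) ≤ ∑ b, (resolvent n ζ g b b).im := by
      have := Finset.card_nsmul_le_sum (Finset.univ : Finset (Fin n))
        (fun b => (resolvent n ζ g b b).im) (-(ζ.im / (ζ.re - a) ^ 2)) (fun b _ => hentry b)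
      simpa using this
    calc -(ζ.im / (ζ.re - a) ^ 2) = (n : ℝ)⁻¹ * ((n : ℝ) * (-(ζ.im / (ζ.re - a) ^ 2))) := by
          field_simp
      _ ≤ (n : ℝ)⁻¹ * ∑ b, (resolvent n ζ g b b).im :=
          mul_le_mul_of_nonneg_left h1 (inv_nonneg.2 hn'.le)

end Vale.Agent.H40.SK
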