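import Vale.Agent.H40.Res.Resolvent

/-!
TASK RES-B3.  Continuity of the resolvent in the disorder and its derivative in one coupling.

Proof sketches.
* `continuous_resolvent`: `resolvent n ζ g = (A g)⁻¹` with `A g = ζ • 1 - (Jmat n g).map ofReal`
  continuous in `g` (entries are affine in `g`), `det (A g) ≠ 0` for all `g` (see RES-B2), and
  `A⁻¹ = Ring.inverse (det A) • adjugate A` (`Matrix.inv_def`): entries of the adjugate and the
  determinant are polynomials in the entries, so continuous; the determinant does not vanish.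
* `resolvent_hasDerivAt`: write `g_t = Function.update g p t`, `G_t = resolvent n ζ g_t`,
  `A_t = ζ - J(g_t)`.  For `p.1 < p.2`, `J(g_t) - J(g_u) = (t - u) (√n)⁻¹ S` where `S` has entries
  `1` at ` (p.1,p.2)` and ` (p.2,p.1)` and `0` elsewhere.  Resolvent identity (pure algebra from
  `resolvent_mul_left/right`): `G_t - G_u = G_t (A_u - A_t) G_u = (t - u) (√n)⁻¹ G_t S G_u`, that is
  `G_t a b - G_u a b = (t - u) (√n)⁻¹ (G_t a p.1 * G_u p.2 b + G_t a p.2 * G_u p.1 b)`.
  Since `t ↦ G_t a c` is continuous (first lemma composed with the continuous map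
  `t ↦ Function.update g p t`), the difference quotient tends to the stated derivative
  (`hasDerivAt_iff_tendsto_slope`, or `HasDerivAt` of `t ↦ (t - u) * φ t` with `φ` continuous
  at `u`).
-/

namespace Vale.Agent.H40.SK

open MeasureTheory ProbabilityTheory Real

variable {n : ℕ}

/-- The matrix `ζ - J` whose inverse is the resolvent. -/
noncomputable def resb3A (n : ℕ) (ζ : ℂ) (g : Fin n × Fin n → ℝ) : Matrix (Fin n) (Fin n) ℂ :=
  ζ • (1 : Matrix (Fin n) (Fin n) ℂ) - (Jmat n g).map (fun r : ℝ => (r : ℂ))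

lemma resb3_resolvent_eq (ζ : ℂ) (g : Fin n × Fin n → ℝ) :
    resolvent n ζ g = (resb3A n ζ g)⁻¹ := rfl

lemma resb3A_apply (ζ : ℂ) (g : Fin n × Fin n → ℝ) (a b : Fin n) :
    resb3A n ζ g a b = ζ * (if a = b then 1 else 0) - (Jmat n g a b : ℂ) := by
  simp [resb3A, Matrix.sub_apply, Matrix.smul_apply, Matrix.one_apply]

lemma resb3_A_mul (ζ : ℂ) (hζ : ζ.im ≠ 0) (g : Fin n × Fin n → ℝ) :
    resb3A n ζ g * resolvent n ζ g = 1 := by
  ext a b
  rw [Matrix.mul_apply, Matrix.one_apply, ← resolvent_mul_left ζ hζ g a b]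
  simp only [resb3A_apply, sub_mul, Finset.sum_sub_distrib]
  congr 1
  simp

lemma resb3_mul_A (ζ : ℂ) (hζ : ζ.im ≠ 0) (g : Fin n × Fin n → ℝ) :
    resolvent n ζ g * resb3A n ζ g = 1 := by
  ext a b
  rw [Matrix.mul_apply, Matrix.one_apply, ← resolvent_mul_right ζ hζ g a b]
  simp only [resb3A_apply, mul_sub, Finset.sum_sub_distrib]
  congr 1
  simp [mul_comm]

lemma resb3_det_ne (ζ : ℂ) (hζ : ζ.im ≠ 0) (g : Fin n × Fin n → ℝ) :
    (resb3A n ζ g).det ≠ 0 := by
  have h := congrArg Matrix.det (resb3_A_mul ζ hζ g)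
  rw [Matrix.det_mul, Matrix.det_one] at h
  exact left_ne_zero_of_mul_eq_one h

lemma resb3_continuous_Jmat (a b : Fin n) :
    Continuous (fun g : Fin n × Fin n → ℝ => Jmat n g a b) := by
  unfold Jmat
  split_ifs <;> fun_prop

lemma resb3_continuous_A (ζ : ℂ) :
    Continuous (fun g : Fin n × Fin n → ℝ => resb3A n ζ g) := by
  refine continuous_matrix (fun a b => ?_)
  simp only [resb3A_apply]
  exact continuous_const.sub (Complex.continuous_ofReal.comp (resb3_continuous_Jmat a b))

/-- Every entry of the resolvent is continuous in the disorder. -/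
lemma continuous_resolvent (ζ : ℂ) (hζ : ζ.im ≠ 0) (a b : Fin n) :
    Continuous (fun g : Fin n × Fin n → ℝ => resolvent n ζ g a b) := by
  have h1 : (fun g : Fin n × Fin n → ℝ => resolvent n ζ g a b)
      = fun g => ((resb3A n ζ g).det)⁻¹ * (resb3A n ζ g).adjugate a b := by
    funext g
    rw [resb3_resolvent_eq, Matrix.inv_def, Ring.inverse_eq_inv', Matrix.smul_apply, smul_eq_mul]
  rw [h1]
  exact ((resb3_continuous_A ζ).matrix_det.inv₀ (fun g => resb3_det_ne ζ hζ g)).mul
    ((resb3_continuous_A ζ).matrix_adjugate.matrix_elem a b)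

lemma resb3_sum_single (F : Fin n → Fin n → ℂ) (i j : Fin n) :
    ∑ c, ∑ d, F c d * (if c = i ∧ d = j then (1 : ℂ) else 0) = F i j := by
  rw [Finset.sum_eq_single i, Finset.sum_eq_single j]
  · simp
  · intro d _ hd
    simp [hd]
  · intro h
    exact absurd (Finset.mem_univ j) h
  · intro c _ hc
    simp [hc]
  · intro h
    exact absurd (Finset.mem_univ i) h

lemma resb3_Jmat_diff (p : Fin n × Fin n) (hp : p.1 < p.2) (g : Fin n × Fin n → ℝ) (t u : ℝ)
    (c d : Fin n) :
    Jmat n (Function.update g p t) c d - Jmat n (Function.update g p u) c d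
      = (t - u) * (√(n : ℝ))⁻¹ *
        ((if c = p.1 ∧ d = p.2 then (1 : ℝ) else 0) + (if c = p.2 ∧ d = p.1 then 1 else 0)) := by
  obtain ⟨p1, p2⟩ := p
  simp only at hp
  unfold Jmat
  by_cases h1 : c < d
  · simp only [h1, if_true]
    by_cases h2 : (c, d) = (p1, p2)
    · obtain ⟨rfl, rfl⟩ := Prod.mk.inj h2
      have h3 : ¬ (c = d ∧ d = c) := fun h => h1.ne h.1
      simp [h3]
      ring
    · have h3 : ¬ (c = p1 ∧ d = p2) := fun h => h2 (by rw [h.1, h.2])
      have h4 : ¬ (c = p2 ∧ d = p1) := fun h => by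
        rw [h.1, h.2] at h1
        exact lt_asymm h1 hp
      simp [h3, h4]
  · by_cases h5 : d < c
    · simp only [h1, h5, if_true, if_false]
      by_cases h2 : (d, c) = (p1, p2)
      · obtain ⟨rfl, rfl⟩ := Prod.mk.inj h2
        have h3 : ¬ (c = d ∧ d = c) := fun h => h5.ne h.2
        simp [h3]
        ring
      · have h3 : ¬ (c = p2 ∧ d = p1) := fun h => h2 (by rw [h.1, h.2])
        have h4 : ¬ (c = p1 ∧ d = p2) := fun h => by
          rw [h.1, h.2] at h5
          exact lt_asymm h5 hp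
        simp [Function.update_of_ne h2, h3, h4]
    · have hcd : c = d := le_antisymm (not_lt.1 h5) (not_lt.1 h1)
      subst hcd
      have h3 : ¬ (c = p1 ∧ c = p2) := fun h => hp.ne (h.1.symm.trans h.2)
      have h4 : ¬ (c = p2 ∧ c = p1) := fun h => hp.ne (h.2.symm.trans h.1)
      simp [h3, h4]

/-- The resolvent identity in one coupling. -/
lemma resb3_identity (ζ : ℂ) (hζ : ζ.im ≠ 0) (p : Fin n × Fin n) (hp : p.1 < p.2)
    (g : Fin n × Fin n → ℝ) (t u : ℝ) (a b : Fin n) :
    resolvent n ζ (Function.update g p t) a b - resolvent n ζ (Function.update g p u) a b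
      = ((t - u : ℝ) : ℂ) * (((√(n : ℝ))⁻¹ : ℝ) *
        (resolvent n ζ (Function.update g p t) a p.1 * resolvent n ζ (Function.update g p u) p.2 b
          + resolvent n ζ (Function.update g p t) a p.2
            * resolvent n ζ (Function.update g p u) p.1 b)) := by
  set Gt := resolvent n ζ (Function.update g p t) with hGt
  set Gu := resolvent n ζ (Function.update g p u) with hGu
  set At := resb3A n ζ (Function.update g p t) with hAt
  set Au := resb3A n ζ (Function.update g p u) with hAu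
  have e1 : Gt - Gu = Gt * (Au - At) * Gu := by
    have h1 : Au * Gu = 1 := resb3_A_mul ζ hζ _
    have h2 : Gt * At = 1 := resb3_mul_A ζ hζ _
    rw [Matrix.mul_sub, Matrix.sub_mul, Matrix.mul_assoc, h1, h2, Matrix.mul_one, Matrix.one_mul]
  have e2 : ∀ c d, (Au - At) c d = ((t - u : ℝ) : ℂ) * ((√(n : ℝ))⁻¹ : ℝ) *
      ((if c = p.1 ∧ d = p.2 then (1 : ℂ) else 0) + (if c = p.2 ∧ d = p.1 then 1 else 0)) := by
    intro c d
    rw [Matrix.sub_apply, hAu, hAt, resb3A_apply, resb3A_apply]
    have h := resb3_Jmat_diff p hp g t u c d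
    have h' : ((Jmat n (Function.update g p t) c d : ℝ) : ℂ)
        - ((Jmat n (Function.update g p u) c d : ℝ) : ℂ)
        = ((t - u : ℝ) : ℂ) * ((√(n : ℝ))⁻¹ : ℝ) *
      ((if c = p.1 ∧ d = p.2 then (1 : ℂ) else 0) + (if c = p.2 ∧ d = p.1 then 1 else 0)) := by
      rw [← Complex.ofReal_sub, h]
      push_cast
      split_ifs <;> simp
    rw [← h']
    ring
  have e3 : (Gt - Gu) a b = Gt a b - Gu a b := Matrix.sub_apply _ _ _ _
  rw [← e3, e1, Matrix.mul_apply]
  simp only [Matrix.mul_apply, e2]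
  have e4 : ∀ d, (∑ c, Gt a c * (((t - u : ℝ) : ℂ) * ((√(n : ℝ))⁻¹ : ℝ) *
      ((if c = p.1 ∧ d = p.2 then (1 : ℂ) else 0) + (if c = p.2 ∧ d = p.1 then 1 else 0)))) * Gu d b
      = ((t - u : ℝ) : ℂ) * ((√(n : ℝ))⁻¹ : ℝ) *
        ((∑ c, Gt a c * Gu d b * (if c = p.1 ∧ d = p.2 then (1 : ℂ) else 0))
          + ∑ c, Gt a c * Gu d b * (if c = p.2 ∧ d = p.1 then (1 : ℂ) else 0)) := by
    intro d
    rw [Finset.sum_mul, ← Finset.sum_add_distrib, Finset.mul_sum]
    apply Finset.sum_congr rfl
    intro c _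
    ring
  simp only [e4]
  rw [← Finset.mul_sum, Finset.sum_add_distrib, Finset.sum_comm, resb3_sum_single
    (fun c d => Gt a c * Gu d b) p.1 p.2]
  rw [Finset.sum_comm, resb3_sum_single (fun c d => Gt a c * Gu d b) p.2 p.1]
  ring

lemma resb3_continuous_update (ζ : ℂ) (hζ : ζ.im ≠ 0) (p : Fin n × Fin n)
    (g : Fin n × Fin n → ℝ) (a b : Fin n) :
    Continuous (fun t : ℝ => resolvent n ζ (Function.update g p t) a b) :=
  (continuous_resolvent ζ hζ a b).comp (continuous_const.update p continuous_id)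

/-- Derivative of a resolvent entry in the coupling of a pair `p.1 < p.2`:
`∂ G_ab = (√n)⁻¹ (G_{a,p.1} G_{p.2,b} + G_{a,p.2} G_{p.1,b})`. -/
lemma resolvent_hasDerivAt (ζ : ℂ) (hζ : ζ.im ≠ 0) (p : Fin n × Fin n) (hp : p.1 < p.2)
    (g : Fin n × Fin n → ℝ) (u : ℝ) (a b : Fin n) :
    HasDerivAt (fun t : ℝ => resolvent n ζ (Function.update g p t) a b)
      (((√(n : ℝ))⁻¹ : ℝ) *
        (resolvent n ζ (Function.update g p u) a p.1 * resolvent n ζ (Function.update g p u) p.2 b
          + resolvent n ζ (Function.update g p u) a p.2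
            * resolvent n ζ (Function.update g p u) p.1 b)) u := by
  set φ : ℝ → ℂ := fun t => (((√(n : ℝ))⁻¹ : ℝ) : ℂ) *
        (resolvent n ζ (Function.update g p t) a p.1 * resolvent n ζ (Function.update g p u) p.2 b
          + resolvent n ζ (Function.update g p t) a p.2
            * resolvent n ζ (Function.update g p u) p.1 b) with hφ
  have hφc : Continuous φ :=
    continuous_const.mul
      (((resb3_continuous_update ζ hζ p g a p.1).mul continuous_const).add
        ((resb3_continuous_update ζ hζ p g a p.2).mul continuous_const))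
  rw [hasDerivAt_iff_tendsto_slope]
  have hφu : Filter.Tendsto φ (nhdsWithin u {u}ᶜ) (nhds (φ u)) :=
    (hφc.tendsto u).mono_left nhdsWithin_le_nhds
  refine hφu.congr' ?_
  refine eventually_nhdsWithin_of_forall (fun t ht => ?_)
  have htu : (t - u : ℝ) ≠ 0 := sub_ne_zero.2 ht
  have htu' : ((t - u : ℝ) : ℂ) ≠ 0 := Complex.ofReal_ne_zero.2 htu
  rw [slope_def_module, resb3_identity ζ hζ p hp g t u a b, Complex.real_smul,
    Complex.ofReal_inv]
  simp only [hφ]
  field_simp

/-- The normalised trace of the resolvent is continuous in the disorder. -/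
lemma continuous_stieltjes (ζ : ℂ) (hζ : ζ.im ≠ 0) :
    Continuous (fun g : Fin n × Fin n → ℝ => stieltjes n ζ g) := by
  unfold stieltjes
  exact continuous_const.mul
    (continuous_finsetSum _ (fun a _ => continuous_resolvent ζ hζ a a))

/-- For `τ` in the upper half plane with `|τ| > 1`, the point `τ + 1/τ` is in the upper half
plane: `Im (τ + 1/τ) = Im τ * (1 - 1/|τ|²) > 0`. -/
lemma im_add_inv_pos (τ : ℂ) (hτ : 0 < τ.im) (hτ1 : 1 < ‖τ‖) : 0 < (τ + τ⁻¹).im := by
  have hN : 1 < Complex.normSq τ := by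
    rw [Complex.normSq_eq_norm_sq]
    nlinarith
  rw [Complex.add_im, Complex.inv_im]
  have h1 : τ.im / Complex.normSq τ < τ.im := by
    rw [div_lt_iff₀ (by linarith)]
    nlinarith
  have h2 : -τ.im / Complex.normSq τ = -(τ.im / Complex.normSq τ) := by ring
  rw [h2]
  linarith

/-- The set `stieltjesBad n τ ρ` is measurable (continuity of the normalised trace). -/
lemma measurableSet_stieltjesBad (τ : ℂ) (hτ : 0 < τ.im) (hτ1 : 1 < ‖τ‖) (ρ : ℝ) :
    MeasurableSet (stieltjesBad n τ ρ) := by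
  have hc : Continuous (fun g : Fin n × Fin n → ℝ => ‖stieltjes n (τ + τ⁻¹) g - τ⁻¹‖) :=
    continuous_norm.comp
      ((continuous_stieltjes (τ + τ⁻¹) (im_add_inv_pos τ hτ hτ1).ne').sub continuous_const)
  exact (isOpen_lt continuous_const hc).measurableSet

end Vale.Agent.H40.SK
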