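import Vale.Agent.H40.Stein

/-!
TASK RES-SFG-AUX (sub-row of RES-SFG, owner of the sub-project: helper76; tag `sfga_`).
Auxiliary facts for the Sudakov-Fernique interpolation: the variance identity for weights,
the comparison of weighted variances, integrability of coordinates and the two marginals of
the standard Gaussian measure on a sum type.

Sketches.
* `sfga_var`: expand the square of `f a - f b`, use `∑ w = 1`
  (`Finset.sum_mul_sum`, `Finset.mul_sum`, `Finset.sum_add_distrib`).
* `sfga_var_le`: by `sfga_var` both sides are half of `∑_{a,b} w a w b ∑ (.. a - .. b)²` after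
  exchanging the sums (`Finset.sum_comm`), then compare term by term with `h`.
* `sfga_integrable_eval`: `measurePreserving_eval` (coordinate map of a product of probability
  measures) and `memLp_id_gaussianReal 1 |>.integrable le_rfl`.
* `sfga_marg_inl`, `sfga_marg_inr`: `measurePreserving_sumPiEquivProdPi` composed with
  `measurePreserving_fst` / `measurePreserving_snd`, then `integral_map`.
* `sfga_lin_update`: split off the term `j = k` (`Finset.add_sum_erase` on both sums).
-/

namespace Vale.Agent.H40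

open MeasureTheory ProbabilityTheory Real

/-- variance identity for weights of total mass one -/
lemma sfga_var {T : Type} (s : Finset T) (w f : T → ℝ) (hw : ∑ a ∈ s, w a = 1) :
    ∑ a ∈ s, f a ^ 2 * w a - (∑ a ∈ s, f a * w a) ^ 2
      = (1 / 2) * ∑ a ∈ s, ∑ b ∈ s, w a * w b * (f a - f b) ^ 2 := by
  have h1 : ∀ a b, w a * w b * (f a - f b) ^ 2
      = (f a ^ 2 * w a) * w b - 2 * ((f a * w a) * (f b * w b)) + w a * (f b ^ 2 * w b) := by
    intro a b
    ring
  simp only [h1, Finset.sum_add_distrib, Finset.sum_sub_distrib, ← Finset.mul_sum,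
    ← Finset.sum_mul, hw]
  ring

/-- comparison of weighted variances under the increment condition -/
lemma sfga_var_le {T ι κ : Type} [Fintype ι] [Fintype κ] (s : Finset T) (w : T → ℝ)
    (hw0 : ∀ a ∈ s, 0 ≤ w a) (hw : ∑ a ∈ s, w a = 1) (c : T → ι → ℝ) (d : T → κ → ℝ)
    (h : ∀ a ∈ s, ∀ b ∈ s, ∑ l, (c a l - c b l) ^ 2 ≤ ∑ m, (d a m - d b m) ^ 2) :
    ∑ l, (∑ a ∈ s, c a l ^ 2 * w a - (∑ a ∈ s, c a l * w a) ^ 2)
      ≤ ∑ m, (∑ a ∈ s, d a m ^ 2 * w a - (∑ a ∈ s, d a m * w a) ^ 2) := by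
  have hc : ∀ l, (∑ a ∈ s, c a l ^ 2 * w a - (∑ a ∈ s, c a l * w a) ^ 2)
      = (1 / 2) * ∑ a ∈ s, ∑ b ∈ s, w a * w b * (c a l - c b l) ^ 2 :=
    fun l => sfga_var s w (fun a => c a l) hw
  have hd : ∀ m, (∑ a ∈ s, d a m ^ 2 * w a - (∑ a ∈ s, d a m * w a) ^ 2)
      = (1 / 2) * ∑ a ∈ s, ∑ b ∈ s, w a * w b * (d a m - d b m) ^ 2 :=
    fun m => sfga_var s w (fun a => d a m) hw
  have e1 : ∑ l, ∑ a ∈ s, ∑ b ∈ s, w a * w b * (c a l - c b l) ^ 2
      = ∑ a ∈ s, ∑ b ∈ s, w a * w b * ∑ l, (c a l - c b l) ^ 2 := by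
    rw [Finset.sum_comm]
    refine Finset.sum_congr rfl fun a _ => ?_
    rw [Finset.sum_comm]
    refine Finset.sum_congr rfl fun b _ => ?_
    rw [Finset.mul_sum]
  have e2 : ∑ m, ∑ a ∈ s, ∑ b ∈ s, w a * w b * (d a m - d b m) ^ 2
      = ∑ a ∈ s, ∑ b ∈ s, w a * w b * ∑ m, (d a m - d b m) ^ 2 := by
    rw [Finset.sum_comm]
    refine Finset.sum_congr rfl fun a _ => ?_
    rw [Finset.sum_comm]
    refine Finset.sum_congr rfl fun b _ => ?_
    rw [Finset.mul_sum]
  have key : ∑ a ∈ s, ∑ b ∈ s, w a * w b * ∑ l, (c a l - c b l) ^ 2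
      ≤ ∑ a ∈ s, ∑ b ∈ s, w a * w b * ∑ m, (d a m - d b m) ^ 2 :=
    Finset.sum_le_sum fun a ha => Finset.sum_le_sum fun b hb =>
      mul_le_mul_of_nonneg_left (h a ha b hb) (mul_nonneg (hw0 a ha) (hw0 b hb))
  simp only [hc, hd]
  rw [← Finset.mul_sum, ← Finset.mul_sum, e1, e2]
  linarith

/-- coordinates are integrable under the standard Gaussian measure -/
lemma sfga_integrable_eval {J : Type} [Fintype J] (j : J) :
    Integrable (fun ω : J → ℝ => ω j) (stdGauss J) := by
  have mp : MeasurePreserving (Function.eval j) (stdGauss J) (gaussianReal 0 1) :=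
    measurePreserving_eval (fun _ : J => gaussianReal 0 1) j
  have hid : Integrable (fun x : ℝ => x) (gaussianReal 0 1) :=
    memLp_id_gaussianReal 1 |>.integrable le_rfl
  exact mp.integrable_comp_of_integrable hid

/-- first marginal of the standard Gaussian measure on a sum type -/
lemma sfga_marg_inl {ι κ : Type} [Fintype ι] [Fintype κ] (f : (ι → ℝ) → ℝ)
    (hf : Measurable f) :
    ∫ ω, f (fun l => ω (Sum.inl l)) ∂(stdGauss (ι ⊕ κ)) = ∫ g, f g ∂(stdGauss ι) := by
  have mp1 := measurePreserving_sumPiEquivProdPi (X := fun _ : ι ⊕ κ => ℝ)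
    (fun _ : ι ⊕ κ => gaussianReal 0 1)
  have mp2 : MeasurePreserving (Prod.fst : (ι → ℝ) × (κ → ℝ) → (ι → ℝ))
      ((stdGauss ι).prod (stdGauss κ)) (stdGauss ι) := measurePreserving_fst
  have mp := mp2.comp mp1
  rw [← mp.map_eq, integral_map mp.measurable.aemeasurable hf.aestronglyMeasurable]
  rfl

/-- second marginal of the standard Gaussian measure on a sum type -/
lemma sfga_marg_inr {ι κ : Type} [Fintype ι] [Fintype κ] (f : (κ → ℝ) → ℝ)
    (hf : Measurable f) :
    ∫ ω, f (fun m => ω (Sum.inr m)) ∂(stdGauss (ι ⊕ κ)) = ∫ y, f y ∂(stdGauss κ) := by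
  have mp1 := measurePreserving_sumPiEquivProdPi (X := fun _ : ι ⊕ κ => ℝ)
    (fun _ : ι ⊕ κ => gaussianReal 0 1)
  have mp2 : MeasurePreserving (Prod.snd : (ι → ℝ) × (κ → ℝ) → (κ → ℝ))
      ((stdGauss ι).prod (stdGauss κ)) (stdGauss κ) := measurePreserving_snd
  have mp := mp2.comp mp1
  rw [← mp.map_eq, integral_map mp.measurable.aemeasurable hf.aestronglyMeasurable]
  rfl

/-- a linear form after resampling one coordinate -/
lemma sfga_lin_update {J : Type} [Fintype J] [DecidableEq J] (α ω : J → ℝ) (k : J) (v : ℝ) :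
    ∑ j, α j * Function.update ω k v j = α k * v + (∑ j, α j * ω j - α k * ω k) := by
  rw [← Finset.add_sum_erase Finset.univ (fun j => α j * Function.update ω k v j)
      (Finset.mem_univ k),
    ← Finset.add_sum_erase Finset.univ (fun j => α j * ω j) (Finset.mem_univ k)]
  have h1 : ∑ j ∈ Finset.univ.erase k, α j * Function.update ω k v j
      = ∑ j ∈ Finset.univ.erase k, α j * ω j :=
    Finset.sum_congr rfl fun j hj => by
      rw [Function.update_of_ne (Finset.ne_of_mem_erase hj)]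
  rw [h1, Function.update_self]
  ring

end Vale.Agent.H40
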