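import Vale.Agent.H40.Res.SFGSoft
import Vale.Agent.H40.Res.SFGAux

/-!
TASK RES-SFG-LIMIT (sub-row of RES-SFG, owner of the sub-project: helper76; tag `sfgl_`).
Integrability of maxima and soft maxima of linear forms of a standard Gaussian vector, and the
passage `r → ∞` from the soft maximum to the maximum.  Use the stubs of `SFGSoft.lean` and
`SFGAux.lean` as black boxes.

Sketches.
* `sfgl_integrable_sup`: the function is measurable (`Finset.measurable_sup'` with
  `Finset.sup'_apply`, or continuity) and `|max_a x_a| ≤ ∑_{a ∈ s} |x_a|`, each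
  `|sfgZ A ω a| ≤ ∑_j |A a j| * |ω j|` being integrable by `sfga_integrable_eval`.
* `sfgl_integrable_F`: measurable by `sfgF_measurable`, and by `sfgF_ge`, `sfgF_le` it lies
  between the maximum and the maximum plus the constant `r⁻¹ * log (card s)`
  (`Integrable.mono'` with the bound `|max| + r⁻¹ * log (card s)`; the measure is finite).
* `sfgl_limit`: for every `r > 0`,
  `∫ max c ≤ ∫ sfgF c ≤ ∫ sfgF d ≤ ∫ max d + r⁻¹ * log (card s)` (`integral_mono`, `sfgF_ge`,
  `sfgF_le`, `integral_add`, the measure is a probability measure).  Conclude with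
  `le_of_forall_pos_le_add`: given `ε > 0` take `r = (log (card s) + 1) / ε`; `log (card s) ≥ 0`
  because `card s ≥ 1`.
-/

namespace Vale.Agent.H40

open MeasureTheory ProbabilityTheory Real

/-- each linear form is integrable -/
lemma sfgl_integrable_Z {T J : Type} [Fintype J] (A : T → J → ℝ) (a : T) :
    Integrable (fun ω => sfgZ A ω a) (stdGauss J) := by
  unfold sfgZ
  exact integrable_finsetSum _ fun j _ => (sfga_integrable_eval j).const_mul (A a j)

/-- each linear form is continuous -/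
lemma sfgl_continuous_Z {T J : Type} [Fintype J] (A : T → J → ℝ) (a : T) :
    Continuous (fun ω : J → ℝ => sfgZ A ω a) := by
  unfold sfgZ
  exact continuous_finsetSum _ fun j _ => continuous_const.mul (continuous_apply j)

/-- the absolute value of a finite maximum is at most the sum of the absolute values -/
lemma sfgl_abs_sup_le {T : Type} (s : Finset T) (hs : s.Nonempty) (x : T → ℝ) :
    |s.sup' hs x| ≤ ∑ a ∈ s, |x a| := by
  obtain ⟨a0, ha0, h0⟩ := Finset.exists_mem_eq_sup' hs x
  rw [h0]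
  exact Finset.single_le_sum (f := fun a => |x a|) (fun a _ => abs_nonneg (x a)) ha0

/-- maxima of linear forms are integrable -/
lemma sfgl_integrable_sup {T J : Type} [Fintype J] (s : Finset T) (hs : s.Nonempty)
    (A : T → J → ℝ) :
    Integrable (fun ω => s.sup' hs (sfgZ A ω)) (stdGauss J) := by
  have hcont : Continuous (fun ω : J → ℝ => s.sup' hs (sfgZ A ω)) :=
    Continuous.finset_sup'_apply hs (f := fun a (ω : J → ℝ) => sfgZ A ω a)
      fun a _ => sfgl_continuous_Z A a
  have hbound : Integrable (fun ω : J → ℝ => ∑ a ∈ s, |sfgZ A ω a|) (stdGauss J) :=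
    integrable_finsetSum _ fun a _ => (sfgl_integrable_Z A a).abs
  refine hbound.mono' hcont.aestronglyMeasurable (Filter.Eventually.of_forall fun ω => ?_)
  rw [Real.norm_eq_abs]
  exact sfgl_abs_sup_le s hs (sfgZ A ω)

/-- soft maxima of linear forms are integrable -/
lemma sfgl_integrable_F {T J : Type} [Fintype J] (s : Finset T) (hs : s.Nonempty)
    (r : ℝ) (hr : 0 < r) (A : T → J → ℝ) :
    Integrable (fun ω => sfgF s r (sfgZ A ω)) (stdGauss J) := by
  have hmeas : Measurable (fun ω : J → ℝ => sfgF s r (sfgZ A ω)) :=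
    sfgF_measurable s r (fun ω => sfgZ A ω) fun a => (sfgl_continuous_Z A a).measurable
  have hcard : (1 : ℝ) ≤ (s.card : ℝ) := by
    exact_mod_cast Finset.card_pos.2 hs
  have hlog : 0 ≤ Real.log (s.card : ℝ) := Real.log_nonneg hcard
  have hc : 0 ≤ r⁻¹ * Real.log (s.card : ℝ) := mul_nonneg (inv_nonneg.2 hr.le) hlog
  have hbound : Integrable
      (fun ω : J → ℝ => |s.sup' hs (sfgZ A ω)| + r⁻¹ * Real.log (s.card : ℝ)) (stdGauss J) :=
    (sfgl_integrable_sup s hs A).abs.add (integrable_const _)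
  refine hbound.mono' hmeas.aestronglyMeasurable (Filter.Eventually.of_forall fun ω => ?_)
  rw [Real.norm_eq_abs]
  have h1 := sfgF_ge s hs r hr (sfgZ A ω)
  have h2 := sfgF_le s hs r hr (sfgZ A ω)
  rw [abs_le]
  constructor
  · have := neg_abs_le (s.sup' hs (sfgZ A ω))
    linarith
  · have := le_abs_self (s.sup' hs (sfgZ A ω))
    linarith

/-- from the soft maxima to the maxima -/
lemma sfgl_limit {ι κ T : Type} [Fintype ι] [Fintype κ] (s : Finset T) (hs : s.Nonempty)
    (c : T → ι → ℝ) (d : T → κ → ℝ)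
    (hmain : ∀ r : ℝ, 0 < r →
      ∫ g, sfgF s r (sfgZ c g) ∂(stdGauss ι) ≤ ∫ y, sfgF s r (sfgZ d y) ∂(stdGauss κ)) :
    ∫ g, s.sup' hs (fun a => ∑ l, c a l * g l) ∂(stdGauss ι)
      ≤ ∫ y, s.sup' hs (fun a => ∑ m, d a m * y m) ∂(stdGauss κ) := by
  change ∫ g, s.sup' hs (sfgZ c g) ∂(stdGauss ι) ≤ ∫ y, s.sup' hs (sfgZ d y) ∂(stdGauss κ)
  have hcard : (1 : ℝ) ≤ (s.card : ℝ) := by
    exact_mod_cast Finset.card_pos.2 hs
  have hlog : 0 ≤ Real.log (s.card : ℝ) := Real.log_nonneg hcard
  have hstep : ∀ ε : ℝ, 0 < ε →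
      ∫ g, s.sup' hs (sfgZ c g) ∂(stdGauss ι) ≤ ∫ y, s.sup' hs (sfgZ d y) ∂(stdGauss κ) + ε := by
    intro ε hε
    have hL : 0 < Real.log (s.card : ℝ) + 1 := by linarith
    have hr : 0 < (Real.log (s.card : ℝ) + 1) / ε := div_pos hL hε
    have hrε : ((Real.log (s.card : ℝ) + 1) / ε)⁻¹ * Real.log (s.card : ℝ) ≤ ε := by
      rw [inv_div, div_mul_eq_mul_div, div_le_iff₀ hL]
      nlinarith
    have h1 : ∫ g, s.sup' hs (sfgZ c g) ∂(stdGauss ι)
        ≤ ∫ g, sfgF s ((Real.log (s.card : ℝ) + 1) / ε) (sfgZ c g) ∂(stdGauss ι) :=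
      integral_mono (sfgl_integrable_sup s hs c) (sfgl_integrable_F s hs _ hr c)
        fun g => sfgF_ge s hs _ hr (sfgZ c g)
    have h2 := hmain _ hr
    have h3 : ∫ y, sfgF s ((Real.log (s.card : ℝ) + 1) / ε) (sfgZ d y) ∂(stdGauss κ)
        ≤ ∫ y, (s.sup' hs (sfgZ d y)
            + ((Real.log (s.card : ℝ) + 1) / ε)⁻¹ * Real.log (s.card : ℝ)) ∂(stdGauss κ) :=
      integral_mono (sfgl_integrable_F s hs _ hr d)
        ((sfgl_integrable_sup s hs d).add (integrable_const _))
        fun y => sfgF_le s hs _ hr (sfgZ d y)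
    have h4 : ∫ y, (s.sup' hs (sfgZ d y)
            + ((Real.log (s.card : ℝ) + 1) / ε)⁻¹ * Real.log (s.card : ℝ)) ∂(stdGauss κ)
        = ∫ y, s.sup' hs (sfgZ d y) ∂(stdGauss κ)
            + ((Real.log (s.card : ℝ) + 1) / ε)⁻¹ * Real.log (s.card : ℝ) := by
      rw [integral_add (sfgl_integrable_sup s hs d) (integrable_const _), integral_const]
      simp
    linarith
  by_contra hcon
  have hlt := not_le.1 hcon
  have := hstep ((∫ g, s.sup' hs (sfgZ c g) ∂(stdGauss ι)
    - ∫ y, s.sup' hs (sfgZ d y) ∂(stdGauss κ)) / 2) (by linarith)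
  linarith

end Vale.Agent.H40
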