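import Vale.Agent.H40.Res.SFGStein
import Vale.Agent.H40.Res.SFGLimit

/-!
TASK RES-SFG.  The Sudakov-Fernique comparison inequality for finitely many linear forms of
standard Gaussian vectors.

Statement: `X_a = ∑_l c a l * g_l` (`g` standard Gaussian on `ι → ℝ`) and
`Y_a = ∑_m d a m * h_m` (`h` standard Gaussian on `κ → ℝ`), `a` in a finite nonempty set `s`.
If `E (X_a - X_b)² ≤ E (Y_a - Y_b)²` for all `a, b ∈ s`, that is
`∑_l (c a l - c b l)² ≤ ∑_m (d a m - d b m)²`, then `E max_a X_a ≤ E max_a Y_a`.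

Proof (smooth maximum and interpolation), cut into five files.
* `SFGSoft.lean`: the soft maximum `sfgF s r x = r⁻¹ * log (∑_{a ∈ s} exp (r * x a))`, its
  weights `sfgW`, the bounds `max ≤ sfgF ≤ max + r⁻¹ log |s|` and the derivatives along curves.
* `SFGAux.lean`: variance identity for weights, marginals of the Gaussian measure on `ι ⊕ κ`.
* `SFGStein.lean`: Gaussian integration by parts against the weights of linear forms.
* `SFGLimit.lean`: integrability, and the passage `r → ∞`.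
* this file: on `stdGauss (ι ⊕ κ)` put `Z_a(θ) = cos θ * X_a + sin θ * Y_a` and
  `Φ(θ) = E sfgF (Z(θ))`.  `Φ` is differentiable (differentiation under the integral sign) with
  `Φ'(θ) = E ∑_a w_a(Z) (-sin θ X_a + cos θ Y_a)`, which by integration by parts equals
  `r sin θ cos θ` times the expectation of the difference of the weighted variances of `d` and
  `c`, and that difference is nonnegative by the increment condition.  So `Φ' ≥ 0` between `0`
  and `π/2`, and `Φ 0 ≤ Φ (π/2)` is the comparison of the soft maxima.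
-/

namespace Vale.Agent.H40

open MeasureTheory ProbabilityTheory Real

/-- coefficients of the interpolated linear forms `cos θ * X_a + sin θ * Y_a` -/
noncomputable def sfgA {ι κ T : Type} (c : T → ι → ℝ) (d : T → κ → ℝ) (θ : ℝ) :
    T → ι ⊕ κ → ℝ :=
  fun a => Sum.elim (fun l => Real.cos θ * c a l) (fun m => Real.sin θ * d a m)

/-- coefficients of the derivative in `θ` of the interpolated linear forms -/
noncomputable def sfgB {ι κ T : Type} (c : T → ι → ℝ) (d : T → κ → ℝ) (θ : ℝ) :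
    T → ι ⊕ κ → ℝ :=
  fun a => Sum.elim (fun l => -Real.sin θ * c a l) (fun m => Real.cos θ * d a m)

lemma sfg_meas_Z {T J : Type} [Fintype J] (A : T → J → ℝ) (a : T) :
    Measurable (fun ω : J → ℝ => sfgZ A ω a) := by
  unfold sfgZ
  exact Finset.measurable_sum _ fun j _ => (measurable_pi_apply j).const_mul _

lemma sfg_Z_hasDerivAt {ι κ T : Type} [Fintype ι] [Fintype κ] (c : T → ι → ℝ) (d : T → κ → ℝ)
    (ω : ι ⊕ κ → ℝ) (a : T) (θ : ℝ) :
    HasDerivAt (fun u => sfgZ (sfgA c d u) ω a) (sfgZ (sfgB c d θ) ω a) θ := by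
  unfold sfgZ
  simp only [Fintype.sum_sum_type, sfgA, sfgB, Sum.elim_inl, Sum.elim_inr]
  refine HasDerivAt.add ?_ ?_
  · refine HasDerivAt.fun_sum fun l _ => ?_
    exact ((Real.hasDerivAt_cos θ).mul_const (c a l)).mul_const (ω (Sum.inl l))
  · refine HasDerivAt.fun_sum fun m _ => ?_
    exact ((Real.hasDerivAt_sin θ).mul_const (d a m)).mul_const (ω (Sum.inr m))

lemma sfg_abs_B_le {ι κ T : Type} [Fintype ι] [Fintype κ] (c : T → ι → ℝ) (d : T → κ → ℝ)
    (ω : ι ⊕ κ → ℝ) (a : T) (θ : ℝ) :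
    |sfgZ (sfgB c d θ) ω a|
      ≤ ∑ l, |c a l| * |ω (Sum.inl l)| + ∑ m, |d a m| * |ω (Sum.inr m)| := by
  unfold sfgZ
  simp only [Fintype.sum_sum_type, sfgB, Sum.elim_inl, Sum.elim_inr]
  refine (abs_add_le _ _).trans (add_le_add ?_ ?_)
  · refine (Finset.abs_sum_le_sum_abs _ _).trans (Finset.sum_le_sum fun l _ => ?_)
    rw [abs_mul, abs_mul, abs_neg]
    have h1 := Real.abs_sin_le_one θ
    have h2 := abs_nonneg (c a l)
    have h3 := abs_nonneg (ω (Sum.inl l))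
    calc |Real.sin θ| * |c a l| * |ω (Sum.inl l)| ≤ 1 * |c a l| * |ω (Sum.inl l)| := by gcongr
      _ = |c a l| * |ω (Sum.inl l)| := by ring
  · refine (Finset.abs_sum_le_sum_abs _ _).trans (Finset.sum_le_sum fun m _ => ?_)
    rw [abs_mul, abs_mul]
    have h1 := Real.abs_cos_le_one θ
    have h2 := abs_nonneg (d a m)
    have h3 := abs_nonneg (ω (Sum.inr m))
    calc |Real.cos θ| * |d a m| * |ω (Sum.inr m)| ≤ 1 * |d a m| * |ω (Sum.inr m)| := by gcongr
      _ = |d a m| * |ω (Sum.inr m)| := by ring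

/-- derivative of the interpolated expectation of the soft maximum -/
lemma sfg_hasDerivAt_Phi {ι κ T : Type} [Fintype ι] [Fintype κ]
    (s : Finset T) (hs : s.Nonempty) (r : ℝ) (hr : 0 < r) (c : T → ι → ℝ) (d : T → κ → ℝ)
    (θ : ℝ) :
    HasDerivAt (fun u => ∫ ω, sfgF s r (sfgZ (sfgA c d u) ω) ∂(stdGauss (ι ⊕ κ)))
      (∫ ω, ∑ a ∈ s, sfgW s r (sfgZ (sfgA c d θ) ω) a * sfgZ (sfgB c d θ) ω a
        ∂(stdGauss (ι ⊕ κ))) θ := by
  have key := hasDerivAt_integral_of_dominated_loc_of_deriv_le (μ := stdGauss (ι ⊕ κ))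
    (F := fun u ω => sfgF s r (sfgZ (sfgA c d u) ω))
    (F' := fun u ω => ∑ a ∈ s, sfgW s r (sfgZ (sfgA c d u) ω) a * sfgZ (sfgB c d u) ω a)
    (x₀ := θ)
    (bound := fun ω => ∑ a ∈ s,
      (∑ l, |c a l| * |ω (Sum.inl l)| + ∑ m, |d a m| * |ω (Sum.inr m)|))
    (s := Set.univ) Filter.univ_mem ?_ ?_ ?_ ?_ ?_ ?_
  · exact key.2
  · exact Filter.Eventually.of_forall fun u =>
      (sfgF_measurable s r _ (fun a => sfg_meas_Z _ a)).aestronglyMeasurable
  · exact sfgl_integrable_F s hs r hr (sfgA c d θ)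
  · exact (Finset.measurable_sum s fun a _ =>
      (sfgW_measurable s r _ (fun b => sfg_meas_Z _ b) a).mul (sfg_meas_Z _ a)).aestronglyMeasurable
  · refine Filter.Eventually.of_forall fun ω u _ => ?_
    rw [Real.norm_eq_abs]
    refine (Finset.abs_sum_le_sum_abs _ _).trans (Finset.sum_le_sum fun a ha => ?_)
    rw [abs_mul]
    have h1 : |sfgW s r (sfgZ (sfgA c d u) ω) a| ≤ 1 := by
      rw [abs_of_nonneg (sfgW_nonneg s r _ a)]
      exact sfgW_le_one s r _ a ha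
    have h2 := sfg_abs_B_le c d ω a u
    calc |sfgW s r (sfgZ (sfgA c d u) ω) a| * |sfgZ (sfgB c d u) ω a|
        ≤ 1 * |sfgZ (sfgB c d u) ω a| := by gcongr
      _ = |sfgZ (sfgB c d u) ω a| := one_mul _
      _ ≤ _ := h2
  · refine integrable_finsetSum _ fun a _ => Integrable.add ?_ ?_
    · exact integrable_finsetSum _ fun l _ => (sfga_integrable_eval (Sum.inl l)).abs.const_mul _
    · exact integrable_finsetSum _ fun m _ => (sfga_integrable_eval (Sum.inr m)).abs.const_mul _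
  · exact Filter.Eventually.of_forall fun ω u _ =>
      sfgF_hasDerivAt s hs r hr (fun u => sfgZ (sfgA c d u) ω) _ u
        (fun a _ => sfg_Z_hasDerivAt c d ω a u)

/-- the derivative is nonnegative between `0` and `π / 2` -/
lemma sfg_deriv_nonneg {ι κ T : Type} [Fintype ι] [DecidableEq ι] [Fintype κ] [DecidableEq κ]
    (s : Finset T) (hs : s.Nonempty) (r : ℝ) (hr : 0 < r) (c : T → ι → ℝ) (d : T → κ → ℝ)
    (h : ∀ a ∈ s, ∀ b ∈ s, ∑ l, (c a l - c b l) ^ 2 ≤ ∑ m, (d a m - d b m) ^ 2)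
    (θ : ℝ) (h0 : 0 ≤ θ) (h1 : θ ≤ π / 2) :
    0 ≤ ∫ ω, ∑ a ∈ s, sfgW s r (sfgZ (sfgA c d θ) ω) a * sfgZ (sfgB c d θ) ω a
        ∂(stdGauss (ι ⊕ κ)) := by
  rw [sfgt_stein_sum s hs r (sfgA c d θ) (sfgB c d θ)]
  refine mul_nonneg hr.le (integral_nonneg fun ω => ?_)
  show 0 ≤ ∑ j, (∑ a ∈ s, sfgB c d θ a j * sfgA c d θ a j * sfgW s r (sfgZ (sfgA c d θ) ω) a
          - (∑ a ∈ s, sfgB c d θ a j * sfgW s r (sfgZ (sfgA c d θ) ω) a)
            * (∑ b ∈ s, sfgA c d θ b j * sfgW s r (sfgZ (sfgA c d θ) ω) b))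
  generalize hw : sfgW s r (sfgZ (sfgA c d θ) ω) = w
  have hw0 : ∀ a ∈ s, 0 ≤ w a := fun a _ => by rw [← hw]; exact sfgW_nonneg s r _ a
  have hw1 : ∑ a ∈ s, w a = 1 := by rw [← hw]; exact sfgW_sum s hs r _
  rw [Fintype.sum_sum_type]
  simp only [sfgA, sfgB, Sum.elim_inl, Sum.elim_inr]
  have e1 : ∀ l, (∑ a ∈ s, -Real.sin θ * c a l * (Real.cos θ * c a l) * w a
      - (∑ a ∈ s, -Real.sin θ * c a l * w a) * (∑ b ∈ s, Real.cos θ * c b l * w b))
      = -(Real.sin θ * Real.cos θ) * (∑ a ∈ s, c a l ^ 2 * w a - (∑ a ∈ s, c a l * w a) ^ 2) := by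
    intro l
    have a1 : ∑ a ∈ s, -Real.sin θ * c a l * (Real.cos θ * c a l) * w a
        = -(Real.sin θ * Real.cos θ) * ∑ a ∈ s, c a l ^ 2 * w a := by
      rw [Finset.mul_sum]; exact Finset.sum_congr rfl fun a _ => by ring
    have a2 : ∑ a ∈ s, -Real.sin θ * c a l * w a = -Real.sin θ * ∑ a ∈ s, c a l * w a := by
      rw [Finset.mul_sum]; exact Finset.sum_congr rfl fun a _ => by ring
    have a3 : ∑ b ∈ s, Real.cos θ * c b l * w b = Real.cos θ * ∑ a ∈ s, c a l * w a := by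
      rw [Finset.mul_sum]; exact Finset.sum_congr rfl fun a _ => by ring
    rw [a1, a2, a3]; ring
  have e2 : ∀ m, (∑ a ∈ s, Real.cos θ * d a m * (Real.sin θ * d a m) * w a
      - (∑ a ∈ s, Real.cos θ * d a m * w a) * (∑ b ∈ s, Real.sin θ * d b m * w b))
      = (Real.sin θ * Real.cos θ) * (∑ a ∈ s, d a m ^ 2 * w a - (∑ a ∈ s, d a m * w a) ^ 2) := by
    intro m
    have a1 : ∑ a ∈ s, Real.cos θ * d a m * (Real.sin θ * d a m) * w a
        = (Real.sin θ * Real.cos θ) * ∑ a ∈ s, d a m ^ 2 * w a := by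
      rw [Finset.mul_sum]; exact Finset.sum_congr rfl fun a _ => by ring
    have a2 : ∑ a ∈ s, Real.cos θ * d a m * w a = Real.cos θ * ∑ a ∈ s, d a m * w a := by
      rw [Finset.mul_sum]; exact Finset.sum_congr rfl fun a _ => by ring
    have a3 : ∑ b ∈ s, Real.sin θ * d b m * w b = Real.sin θ * ∑ a ∈ s, d a m * w a := by
      rw [Finset.mul_sum]; exact Finset.sum_congr rfl fun a _ => by ring
    rw [a1, a2, a3]; ring
  rw [Finset.sum_congr rfl fun l _ => e1 l, Finset.sum_congr rfl fun m _ => e2 m,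
    ← Finset.mul_sum, ← Finset.mul_sum]
  have hv := sfga_var_le s w hw0 hw1 c d h
  have hsc : 0 ≤ Real.sin θ * Real.cos θ :=
    mul_nonneg (Real.sin_nonneg_of_nonneg_of_le_pi h0 (by linarith [Real.pi_pos]))
      (Real.cos_nonneg_of_mem_Icc ⟨by linarith [Real.pi_pos], h1⟩)
  nlinarith

/-- comparison of the expected soft maxima -/
lemma sfg_soft_le {ι κ T : Type} [Fintype ι] [DecidableEq ι] [Fintype κ] [DecidableEq κ]
    (s : Finset T) (hs : s.Nonempty) (r : ℝ) (hr : 0 < r) (c : T → ι → ℝ) (d : T → κ → ℝ)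
    (h : ∀ a ∈ s, ∀ b ∈ s, ∑ l, (c a l - c b l) ^ 2 ≤ ∑ m, (d a m - d b m) ^ 2) :
    ∫ g, sfgF s r (sfgZ c g) ∂(stdGauss ι) ≤ ∫ y, sfgF s r (sfgZ d y) ∂(stdGauss κ) := by
  have hd := sfg_hasDerivAt_Phi s hs r hr c d
  have hmono : MonotoneOn
      (fun u => ∫ ω, sfgF s r (sfgZ (sfgA c d u) ω) ∂(stdGauss (ι ⊕ κ))) (Set.Icc 0 (π / 2)) := by
    refine monotoneOn_of_deriv_nonneg (convex_Icc _ _)
      (continuous_iff_continuousAt.2 fun x => (hd x).continuousAt).continuousOn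
      (fun x _ => (hd x).differentiableAt.differentiableWithinAt) fun x hx => ?_
    rw [(hd x).deriv]
    have hx' := interior_subset hx
    exact sfg_deriv_nonneg s hs r hr c d h x hx'.1 hx'.2
  have hle := hmono (Set.left_mem_Icc.2 (by positivity : (0 : ℝ) ≤ π / 2))
    (Set.right_mem_Icc.2 (by positivity : (0 : ℝ) ≤ π / 2)) (by positivity : (0 : ℝ) ≤ π / 2)
  have e0 : ∀ ω : ι ⊕ κ → ℝ, sfgZ (sfgA c d 0) ω = sfgZ c (fun l => ω (Sum.inl l)) := by
    intro ω
    funext a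
    simp [sfgZ, sfgA, Fintype.sum_sum_type]
  have e1 : ∀ ω : ι ⊕ κ → ℝ, sfgZ (sfgA c d (π / 2)) ω = sfgZ d (fun m => ω (Sum.inr m)) := by
    intro ω
    funext a
    simp [sfgZ, sfgA, Fintype.sum_sum_type]
  have m0 := sfga_marg_inl (κ := κ) (fun g : ι → ℝ => sfgF s r (sfgZ c g))
    (sfgF_measurable s r _ (fun a => sfg_meas_Z c a))
  have m1 := sfga_marg_inr (ι := ι) (fun y : κ → ℝ => sfgF s r (sfgZ d y))
    (sfgF_measurable s r _ (fun a => sfg_meas_Z d a))
  simp only [e0, e1] at hle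
  rw [← m0, ← m1]
  exact hle

/-- Sudakov-Fernique comparison for finitely many linear forms of standard Gaussian vectors. -/
theorem sudakov_fernique {ι κ T : Type} [Fintype ι] [DecidableEq ι] [Fintype κ] [DecidableEq κ]
    (s : Finset T) (hs : s.Nonempty) (c : T → ι → ℝ) (d : T → κ → ℝ)
    (h : ∀ a ∈ s, ∀ b ∈ s, ∑ l, (c a l - c b l) ^ 2 ≤ ∑ m, (d a m - d b m) ^ 2) :
    ∫ g, s.sup' hs (fun a => ∑ l, c a l * g l) ∂(stdGauss ι)
      ≤ ∫ y, s.sup' hs (fun a => ∑ m, d a m * y m) ∂(stdGauss κ) :=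
  sfgl_limit s hs c d fun r hr => sfg_soft_le s hs r hr c d h

end Vale.Agent.H40
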