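import Vale.Agent.H40.Res.JmatAlg
import Vale.Agent.H40.Res.SFGen

/-!
TASK RES-SFA.  The expected maximum of the quadratic form `vᵀ J v` of the coupling matrix over
any finite set of unit vectors is at most `2`.

Proof sketch.  Apply `sudakov_fernique` (stub in `SFGen.lean`, use it as a black box) with
`T = Fin n → ℝ`, `s = T`-finset of unit vectors, `ι = Fin n × Fin n`, `κ = Fin n`,
`c u p = if p.1 < p.2 then 2 * (√n)⁻¹ * u p.1 * u p.2 else 0` (so that
`∑_p c u p * g p = qform n g u`, lemma `qform_eq_sum` of `JmatAlg.lean`, black box) and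
`d u m = 2 * (√n)⁻¹ * u m`.
* Increment condition: for unit vectors `u, v`
  `∑_p (c u p - c v p)² = (4/n) ∑_{i<k} (u_i u_k - v_i v_k)² ≤ (2/n) ∑_{i,k} (u_i u_k - v_i v_k)²
     = (2/n) (|u|⁴ + |v|⁴ - 2 (u·v)²) = (4/n) (1 - (u·v)²)`,
  `∑_m (d u m - d v m)² = (4/n) |u - v|² = (8/n) (1 - u·v)`, and
  `1 - (u·v)² = (1 - u·v)(1 + u·v) ≤ 2 (1 - u·v)` because `|u·v| ≤ 1`.
  (The sum over `i < k` is at most half the sum over all ordered pairs `i ≠ k` by symmetry, and the
  diagonal terms are nonnegative.)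
* Right side: `max_u ∑_m d u m * y m = (2/√n) max_u u·y ≤ (2/√n) |y|` (Cauchy-Schwarz, `|u| = 1`)
  and `∫ |y| ≤ (∫ |y|²)^(1/2) = √n` under `stdGauss (Fin n)` (each coordinate has second moment
  one; Cauchy-Schwarz / Jensen for the probability measure).  So the right side is at most `2`.
For `n = 0` there is no unit vector (`∑ i, u i ^ 2 = 0 ≠ 1`), so `hT` gives a contradiction.
-/

namespace Vale.Agent.H40.SK

open MeasureTheory ProbabilityTheory Real

/-- Increment condition for the comparison: pairs against coordinates. -/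
lemma sfa_increment {n : ℕ} (u v : Fin n → ℝ) (hu : ∑ i, u i ^ 2 = 1) (hv : ∑ i, v i ^ 2 = 1)
    (s : ℝ) :
    ∑ p : Fin n × Fin n, ((if p.1 < p.2 then 2 * s * u p.1 * u p.2 else 0)
        - (if p.1 < p.2 then 2 * s * v p.1 * v p.2 else 0)) ^ 2
      ≤ ∑ m, (2 * s * u m - 2 * s * v m) ^ 2 := by
  obtain ⟨dot, hdot⟩ : ∃ dot : ℝ, dot = ∑ m, u m * v m := ⟨_, rfl⟩
  have hA : ∑ m, (u m - v m) ^ 2 = 2 - 2 * dot := by
    have h : ∀ m, (u m - v m) ^ 2 = u m ^ 2 + v m ^ 2 - 2 * (u m * v m) := fun m => by ring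
    rw [Finset.sum_congr rfl (fun m _ => h m), Finset.sum_sub_distrib, Finset.sum_add_distrib,
      hu, hv, ← Finset.mul_sum, ← hdot]
    ring
  have hB : ∑ p : Fin n × Fin n, (u p.1 * u p.2 - v p.1 * v p.2) ^ 2 = 2 - 2 * dot ^ 2 := by
    rw [Fintype.sum_prod_type]
    have h : ∀ i k, (u i * u k - v i * v k) ^ 2 =
        u i ^ 2 * u k ^ 2 + v i ^ 2 * v k ^ 2 - 2 * ((u i * v i) * (u k * v k)) :=
      fun i k => by ring
    have h1 : (∑ i, u i ^ 2) * (∑ k, u k ^ 2) = ∑ i, ∑ k, u i ^ 2 * u k ^ 2 :=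
      Finset.sum_mul_sum _ _ _ _
    have h2 : (∑ i, v i ^ 2) * (∑ k, v k ^ 2) = ∑ i, ∑ k, v i ^ 2 * v k ^ 2 :=
      Finset.sum_mul_sum _ _ _ _
    have h3 : (∑ i, u i * v i) * (∑ k, u k * v k) = ∑ i, ∑ k, (u i * v i) * (u k * v k) :=
      Finset.sum_mul_sum _ _ _ _
    have h4 : ∑ i, ∑ k, (u i * u k - v i * v k) ^ 2 =
        ∑ i, ∑ k, u i ^ 2 * u k ^ 2 + ∑ i, ∑ k, v i ^ 2 * v k ^ 2
          - 2 * ∑ i, ∑ k, (u i * v i) * (u k * v k) := by
      simp only [h, Finset.sum_sub_distrib, Finset.sum_add_distrib, Finset.mul_sum]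
    rw [h4, ← h1, ← h2, ← h3, hu, hv, ← hdot]
    ring
  have hC : ∑ p : Fin n × Fin n, (if p.1 < p.2 then (u p.1 * u p.2 - v p.1 * v p.2) ^ 2 else 0)
      ≤ 1 - dot ^ 2 := by
    have hsplit := sum_pairs_split (n := n)
      (fun p : Fin n × Fin n => (u p.1 * u p.2 - v p.1 * v p.2) ^ 2)
      (fun p => by
        simp only [Prod.fst_swap, Prod.snd_swap]
        ring)
    have hdiag : 0 ≤ ∑ p : Fin n × Fin n,
        (if p.1 = p.2 then (u p.1 * u p.2 - v p.1 * v p.2) ^ 2 else 0) :=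
      Finset.sum_nonneg fun p _ => by
        split_ifs
        · exact sq_nonneg _
        · exact le_rfl
    rw [hB] at hsplit
    linarith
  have hL : ∀ p : Fin n × Fin n, ((if p.1 < p.2 then 2 * s * u p.1 * u p.2 else 0)
        - (if p.1 < p.2 then 2 * s * v p.1 * v p.2 else 0)) ^ 2
      = (2 * s) ^ 2 * (if p.1 < p.2 then (u p.1 * u p.2 - v p.1 * v p.2) ^ 2 else 0) := by
    intro p
    split_ifs <;> ring
  have hR : ∀ m, (2 * s * u m - 2 * s * v m) ^ 2 = (2 * s) ^ 2 * (u m - v m) ^ 2 :=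
    fun m => by ring
  rw [Finset.sum_congr rfl (fun p _ => hL p), Finset.sum_congr rfl (fun m _ => hR m),
    ← Finset.mul_sum, ← Finset.mul_sum, hA]
  have hs : 0 ≤ (2 * s) ^ 2 := sq_nonneg _
  have hfin : 1 - dot ^ 2 ≤ 2 - 2 * dot := by nlinarith [sq_nonneg (1 - dot)]
  exact mul_le_mul_of_nonneg_left (le_trans hC hfin) hs

/-- A linear form with unit coefficient vector is at most the quadratic bound. -/
lemma sfa_linear_le {n : ℕ} (u y : Fin n → ℝ) (hu : ∑ i, u i ^ 2 = 1) (s : ℝ) :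
    ∑ m, (2 * s * u m) * y m ≤ s ^ 2 * ∑ m, y m ^ 2 + 1 := by
  have h0 : 0 ≤ ∑ m, (s * y m - u m) ^ 2 := Finset.sum_nonneg fun m _ => sq_nonneg _
  have h : ∀ m, (s * y m - u m) ^ 2 = s ^ 2 * y m ^ 2 - (2 * s * u m) * y m + u m ^ 2 :=
    fun m => by ring
  rw [Finset.sum_congr rfl (fun m _ => h m), Finset.sum_add_distrib, Finset.sum_sub_distrib, hu,
    ← Finset.mul_sum] at h0
  linarith

/-- Second moment of the standard Gaussian. -/
lemma sfa_integral_sq : ∫ x : ℝ, x ^ 2 ∂(gaussianReal 0 1) = 1 := by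
  have h1 := variance_of_integral_eq_zero (μ := gaussianReal 0 1) (X := fun x : ℝ => x)
    aemeasurable_id' integral_id_gaussianReal
  rw [← h1, variance_fun_id_gaussianReal]
  rfl

lemma sfa_integrable_sq : Integrable (fun x : ℝ => x ^ 2) (gaussianReal 0 1) :=
  (memLp_id_gaussianReal' (μ := 0) (v := 1) 2 (by simp)).integrable_sq

/-- The expected maximum of the quadratic form over any finite set of unit vectors is at most
`2`. -/
theorem integral_sup_qform_le (n : ℕ) (T : Finset (Fin n → ℝ)) (hT : T.Nonempty)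
    (hunit : ∀ u ∈ T, ∑ i, u i ^ 2 = 1) :
    ∫ g, T.sup' hT (fun u => qform n g u) ∂(stdGauss (Fin n × Fin n)) ≤ 2 := by
  have hn : 0 < n := by
    rcases Nat.eq_zero_or_pos n with h0 | h
    · exfalso
      subst h0
      obtain ⟨u, hu⟩ := hT
      have h1 := hunit u hu
      simp at h1
    · exact h
  have hnR : (0 : ℝ) < n := by exact_mod_cast hn
  obtain ⟨s, hs⟩ : ∃ s : ℝ, s = (√(n : ℝ))⁻¹ := ⟨_, rfl⟩
  have hs2 : s ^ 2 * (n : ℝ) = 1 := by
    rw [hs, inv_pow, Real.sq_sqrt hnR.le]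
    exact inv_mul_cancel₀ hnR.ne'
  have hfun : (fun g : Fin n × Fin n → ℝ => T.sup' hT (fun u => qform n g u)) =
      (fun g : Fin n × Fin n → ℝ => T.sup' hT (fun u => ∑ p : Fin n × Fin n,
        (if p.1 < p.2 then 2 * s * u p.1 * u p.2 else 0) * g p)) := by
    funext g
    congr 1
    funext u
    rw [qform_eq_sum, hs]
  rw [hfun]
  have hSF := sudakov_fernique (ι := Fin n × Fin n) (κ := Fin n) T hT
    (fun u p => if p.1 < p.2 then 2 * s * u p.1 * u p.2 else 0) (fun u m => 2 * s * u m)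
    (fun a ha b hb => sfa_increment a b (hunit a ha) (hunit b hb) s)
  refine le_trans hSF ?_
  -- the bound for the comparison process
  have hint : Integrable (fun y : Fin n → ℝ => s ^ 2 * ∑ m, y m ^ 2 + 1) (stdGauss (Fin n)) := by
    refine Integrable.add (Integrable.const_mul ?_ _) (integrable_const _)
    exact integrable_finsetSum _ fun m _ =>
      integrable_comp_eval (μ := fun _ : Fin n => gaussianReal 0 1) (i := m) sfa_integrable_sq
  have hval : ∫ y : Fin n → ℝ, (s ^ 2 * ∑ m, y m ^ 2 + 1) ∂(stdGauss (Fin n)) = 2 := by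
    have hsum : Integrable (fun y : Fin n → ℝ => ∑ m, y m ^ 2) (stdGauss (Fin n)) :=
      integrable_finsetSum _ fun m _ =>
        integrable_comp_eval (μ := fun _ : Fin n => gaussianReal 0 1) (i := m) sfa_integrable_sq
    rw [integral_add (hsum.const_mul _) (integrable_const _), integral_const_mul,
      integral_finsetSum _ (fun m _ =>
        integrable_comp_eval (μ := fun _ : Fin n => gaussianReal 0 1) (i := m) sfa_integrable_sq)]
    have h1 : ∀ m : Fin n, ∫ y : Fin n → ℝ, y m ^ 2 ∂(stdGauss (Fin n)) = 1 := by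
      intro m
      have h2 := integral_comp_eval (μ := fun _ : Fin n => gaussianReal 0 1) (i := m)
        (f := fun x : ℝ => x ^ 2) sfa_integrable_sq.aestronglyMeasurable
      rw [h2, sfa_integral_sq]
    rw [Finset.sum_congr rfl (fun m _ => h1 m)]
    have h3 : ∫ _ : Fin n → ℝ, (1 : ℝ) ∂(stdGauss (Fin n)) = 1 := by simp
    rw [h3, Finset.sum_const, Finset.card_univ, Fintype.card_fin, nsmul_eq_mul, mul_one]
    linarith
  by_cases hi : Integrable (fun y : Fin n → ℝ => T.sup' hT (fun u => ∑ m, (2 * s * u m) * y m))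
      (stdGauss (Fin n))
  · refine le_of_le_of_eq (integral_mono hi hint fun y => ?_) hval
    exact Finset.sup'_le hT _ fun u hu => sfa_linear_le u y (hunit u hu) s
  · rw [integral_undef hi]
    norm_num

end Vale.Agent.H40.SK
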