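import Mathlib

/-!
TASK RES-SFG-SOFT (sub-row of RES-SFG, owner of the sub-project: helper76; tag `sfgs_`).
Soft maximum over a finite set: definitions (fixed) and elementary calculus.  No measure theory
except the two measurability statements at the end.

`sfgS s r x = ∑_{a ∈ s} exp (r x_a)`, `sfgF s r x = r⁻¹ log (sfgS s r x)` (soft maximum),
`sfgW s r x a = exp (r x_a) / sfgS s r x` (weights).

Sketches.
* `sfgF_ge`, `sfgF_le`: with `M = max_a x_a` (attained at some `a₀ ∈ s`,
  `Finset.exists_mem_eq_sup'`), `exp (r M) ≤ sfgS ≤ card s * exp (r M)`; take logarithms and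
  multiply by `r⁻¹ > 0`.
* `sfgF_hasDerivAt`: `sfgS (z u)` has derivative `∑_a r * z' a * exp (r * z t a)`
  (`HasDerivAt.fun_sum`, `HasDerivAt.exp`, `HasDerivAt.const_mul`), then `HasDerivAt.log`
  (`sfgS > 0`) and `HasDerivAt.const_mul`; the value is rearranged with `Finset.sum_div` /
  `Finset.mul_sum` and `field_simp`.
* `sfgW_hasDerivAt`: quotient rule `HasDerivAt.div` for `exp (r * z u a) / sfgS (z u)`.
-/

namespace Vale.Agent.H40

open Real

variable {T : Type}

/-- partition sum of the soft maximum -/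
noncomputable def sfgS (s : Finset T) (r : ℝ) (x : T → ℝ) : ℝ := ∑ a ∈ s, Real.exp (r * x a)

/-- soft maximum -/
noncomputable def sfgF (s : Finset T) (r : ℝ) (x : T → ℝ) : ℝ := r⁻¹ * Real.log (sfgS s r x)

/-- soft-max weights -/
noncomputable def sfgW (s : Finset T) (r : ℝ) (x : T → ℝ) (a : T) : ℝ :=
  Real.exp (r * x a) / sfgS s r x

/-- the linear forms `ω ↦ (∑_j A a j * ω j)_a` -/
noncomputable def sfgZ {J : Type} [Fintype J] (A : T → J → ℝ) (ω : J → ℝ) : T → ℝ :=
  fun a => ∑ j, A a j * ω j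

lemma sfgS_pos (s : Finset T) (hs : s.Nonempty) (r : ℝ) (x : T → ℝ) : 0 < sfgS s r x := by
  unfold sfgS
  exact Finset.sum_pos (fun a _ => Real.exp_pos _) hs

lemma sfgW_nonneg (s : Finset T) (r : ℝ) (x : T → ℝ) (a : T) : 0 ≤ sfgW s r x a := by
  unfold sfgW sfgS
  exact div_nonneg (Real.exp_pos _).le (Finset.sum_nonneg (fun a _ => (Real.exp_pos _).le))

lemma sfgW_sum (s : Finset T) (hs : s.Nonempty) (r : ℝ) (x : T → ℝ) :
    ∑ a ∈ s, sfgW s r x a = 1 := by
  unfold sfgW
  rw [← Finset.sum_div]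
  exact div_self (sfgS_pos s hs r x).ne'

lemma sfgW_le_one (s : Finset T) (r : ℝ) (x : T → ℝ) (a : T) (ha : a ∈ s) :
    sfgW s r x a ≤ 1 := by
  have hpos : 0 < sfgS s r x := sfgS_pos s ⟨a, ha⟩ r x
  unfold sfgW
  rw [div_le_one hpos]
  unfold sfgS
  exact Finset.single_le_sum (f := fun a => Real.exp (r * x a))
    (fun a _ => (Real.exp_pos _).le) ha

lemma sfgF_ge (s : Finset T) (hs : s.Nonempty) (r : ℝ) (hr : 0 < r) (x : T → ℝ) :
    s.sup' hs x ≤ sfgF s r x := by
  obtain ⟨a₀, ha₀, hsup⟩ := Finset.exists_mem_eq_sup' hs x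
  have h1 : Real.exp (r * x a₀) ≤ sfgS s r x := by
    unfold sfgS
    exact Finset.single_le_sum (f := fun a => Real.exp (r * x a))
      (fun a _ => (Real.exp_pos _).le) ha₀
  have h2 : r * x a₀ ≤ Real.log (sfgS s r x) := by
    have := Real.log_le_log (Real.exp_pos _) h1
    rwa [Real.log_exp] at this
  rw [hsup]
  unfold sfgF
  have h3 : x a₀ = r⁻¹ * (r * x a₀) := by
    field_simp
  rw [h3]
  exact mul_le_mul_of_nonneg_left h2 (inv_pos.mpr hr).le

lemma sfgF_le (s : Finset T) (hs : s.Nonempty) (r : ℝ) (hr : 0 < r) (x : T → ℝ) :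
    sfgF s r x ≤ s.sup' hs x + r⁻¹ * Real.log s.card := by
  have hcard : (0 : ℝ) < (s.card : ℝ) := by exact_mod_cast Finset.card_pos.mpr hs
  have h1 : sfgS s r x ≤ (s.card : ℝ) * Real.exp (r * s.sup' hs x) := by
    unfold sfgS
    have := Finset.sum_le_card_nsmul s (fun a => Real.exp (r * x a))
      (Real.exp (r * s.sup' hs x)) (fun a ha =>
        Real.exp_le_exp.mpr (mul_le_mul_of_nonneg_left (Finset.le_sup' x ha) hr.le))
    rwa [nsmul_eq_mul] at this
  have h2 : Real.log (sfgS s r x) ≤ Real.log (s.card : ℝ) + r * s.sup' hs x := by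
    have := Real.log_le_log (sfgS_pos s hs r x) h1
    rwa [Real.log_mul hcard.ne' (Real.exp_pos _).ne', Real.log_exp] at this
  unfold sfgF
  have h3 : s.sup' hs x + r⁻¹ * Real.log s.card
      = r⁻¹ * (Real.log (s.card : ℝ) + r * s.sup' hs x) := by
    field_simp
    ring
  rw [h3]
  exact mul_le_mul_of_nonneg_left h2 (inv_pos.mpr hr).le

lemma sfgs_hasDerivAt_S (s : Finset T) (r : ℝ) (z : ℝ → T → ℝ) (z' : T → ℝ) (t : ℝ)
    (hz : ∀ a ∈ s, HasDerivAt (fun u => z u a) (z' a) t) :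
    HasDerivAt (fun u => sfgS s r (z u)) (r * ∑ a ∈ s, Real.exp (r * z t a) * z' a) t := by
  unfold sfgS
  have h := HasDerivAt.fun_sum (u := s) (A := fun a u => Real.exp (r * z u a))
    (A' := fun a => Real.exp (r * z t a) * (r * z' a)) (x := t)
    (fun a ha => ((hz a ha).const_mul r).exp)
  have he : ∑ a ∈ s, Real.exp (r * z t a) * (r * z' a)
      = r * ∑ a ∈ s, Real.exp (r * z t a) * z' a := by
    rw [Finset.mul_sum]
    apply Finset.sum_congr rfl
    intro a _
    ring
  rw [← he]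
  exact h

/-- derivative of the soft maximum along a curve -/
lemma sfgF_hasDerivAt (s : Finset T) (hs : s.Nonempty) (r : ℝ) (hr : 0 < r)
    (z : ℝ → T → ℝ) (z' : T → ℝ) (t : ℝ)
    (hz : ∀ a ∈ s, HasDerivAt (fun u => z u a) (z' a) t) :
    HasDerivAt (fun u => sfgF s r (z u)) (∑ a ∈ s, sfgW s r (z t) a * z' a) t := by
  have hS := sfgs_hasDerivAt_S s r z z' t hz
  have hpos : 0 < sfgS s r (z t) := sfgS_pos s hs r (z t)
  have h := (hS.log hpos.ne').const_mul r⁻¹
  have he : ∑ a ∈ s, sfgW s r (z t) a * z' a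
      = r⁻¹ * ((r * ∑ a ∈ s, Real.exp (r * z t a) * z' a) / sfgS s r (z t)) := by
    have h1 : ∑ a ∈ s, sfgW s r (z t) a * z' a
        = (∑ a ∈ s, Real.exp (r * z t a) * z' a) / sfgS s r (z t) := by
      rw [Finset.sum_div]
      apply Finset.sum_congr rfl
      intro a _
      unfold sfgW
      ring
    rw [h1]
    field_simp
  rw [he]
  unfold sfgF
  exact h

/-- derivative of a soft-max weight along a curve -/
lemma sfgW_hasDerivAt (s : Finset T) (hs : s.Nonempty) (r : ℝ)
    (z : ℝ → T → ℝ) (z' : T → ℝ) (t : ℝ)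
    (hz : ∀ a ∈ s, HasDerivAt (fun u => z u a) (z' a) t) (a : T) (ha : a ∈ s) :
    HasDerivAt (fun u => sfgW s r (z u) a)
      (r * (sfgW s r (z t) a * z' a
        - sfgW s r (z t) a * ∑ b ∈ s, sfgW s r (z t) b * z' b)) t := by
  have hS := sfgs_hasDerivAt_S s r z z' t hz
  have hpos : 0 < sfgS s r (z t) := sfgS_pos s hs r (z t)
  have hE : HasDerivAt (fun u => Real.exp (r * z u a)) (Real.exp (r * z t a) * (r * z' a)) t :=
    ((hz a ha).const_mul r).exp
  have h := hE.div hS hpos.ne'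
  have h1 : ∑ b ∈ s, sfgW s r (z t) b * z' b
      = (∑ b ∈ s, Real.exp (r * z t b) * z' b) / sfgS s r (z t) := by
    rw [Finset.sum_div]
    apply Finset.sum_congr rfl
    intro b _
    unfold sfgW
    ring
  have he : r * (sfgW s r (z t) a * z' a
        - sfgW s r (z t) a * ∑ b ∈ s, sfgW s r (z t) b * z' b)
      = (Real.exp (r * z t a) * (r * z' a) * sfgS s r (z t)
          - Real.exp (r * z t a) * (r * ∑ a ∈ s, Real.exp (r * z t a) * z' a))
        / sfgS s r (z t) ^ 2 := by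
    rw [h1]
    unfold sfgW
    field_simp
  rw [he]
  unfold sfgW
  exact h

lemma sfgF_measurable {Ω : Type} [MeasurableSpace Ω] (s : Finset T) (r : ℝ) (z : Ω → T → ℝ)
    (hz : ∀ a, Measurable (fun ω => z ω a)) : Measurable (fun ω => sfgF s r (z ω)) := by
  unfold sfgF sfgS
  exact ((Finset.measurable_sum s (fun a _ => (measurable_const.mul (hz a)).exp)).log).const_mul _

lemma sfgW_measurable {Ω : Type} [MeasurableSpace Ω] (s : Finset T) (r : ℝ) (z : Ω → T → ℝ)
    (hz : ∀ a, Measurable (fun ω => z ω a)) (a : T) :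
    Measurable (fun ω => sfgW s r (z ω) a) := by
  unfold sfgW sfgS
  exact ((measurable_const.mul (hz a)).exp).div
    (Finset.measurable_sum s (fun a _ => (measurable_const.mul (hz a)).exp))

end Vale.Agent.H40
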