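import Vale.Agent.H40.Res.SFGSoft
import Vale.Agent.H40.Res.SFGAux

/-!
TASK RES-SFG-STEIN (sub-row of RES-SFG, owner of the sub-project: helper76; tag `sfgt_`).
Gaussian integration by parts against the soft-max weights of linear forms.  Use the stubs of
`SFGSoft.lean` and `SFGAux.lean` as black boxes, and `stein_pi` of `Vale/Agent/H40/Stein.lean`.

Sketches.
* `sfgt_stein`: apply `stein_pi k F F'` with `F ω = sfgW s r (sfgZ A ω) a` and `F' ω` the
  integrand on the right.  `F`, `F'` are measurable (`sfgW_measurable`; `sfgZ A ω a` is a finite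
  sum of coordinates times constants), `|F| ≤ 1` (`sfgW_nonneg`, `sfgW_le_one`) and
  `|F'| ≤ |r| * (|A a k| + ∑_{b ∈ s} |A b k|)`; take `C` the maximum of the two bounds.  The
  derivative hypothesis is `sfgW_hasDerivAt` for the curve `z v = sfgZ A (Function.update ω k v)`
  with `z' b = A b k`: by `sfga_lin_update`, `z v b = A b k * v + const`.
* `sfgt_stein_sum`: expand `sfgZ B ω a = ∑_j B a j * ω j`, pull the finite sums and constants
  out of the integral (each `ω j * sfgW .. a` is integrable: `sfga_integrable_eval` and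
  `|sfgW| ≤ 1`, for example `Integrable.bdd_mul`), apply `sfgt_stein` to every pair `a, j`,
  and put the sums back inside (the integrands on the right are bounded and measurable, the
  measure is a probability measure).  Pointwise
  `∑_a ∑_j B a j * (w a * A a j - w a * ∑_b w b * A b j)
     = ∑_j (∑_a B a j * A a j * w a - (∑_a B a j * w a) * (∑_b A b j * w b))`.
-/

namespace Vale.Agent.H40

open MeasureTheory ProbabilityTheory Real

/-- the linear forms are measurable in the Gaussian variable -/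
lemma sfgt_measZ {T J : Type} [Fintype J] (A : T → J → ℝ) (b : T) :
    Measurable (fun ω : J → ℝ => sfgZ A ω b) := by
  unfold sfgZ
  fun_prop

/-- the soft-max weights of the linear forms are measurable -/
lemma sfgt_measW {T J : Type} [Fintype J] (s : Finset T) (r : ℝ) (A : T → J → ℝ) (b : T) :
    Measurable (fun ω : J → ℝ => sfgW s r (sfgZ A ω) b) :=
  sfgW_measurable s r (fun ω => sfgZ A ω) (fun c => sfgt_measZ A c) b

/-- the integrand on the right of the integration by parts is measurable -/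
lemma sfgt_measR {T J : Type} [Fintype J] (s : Finset T) (r : ℝ) (A : T → J → ℝ) (a : T)
    (k : J) :
    Measurable (fun ω : J → ℝ => r * (sfgW s r (sfgZ A ω) a * A a k
      - sfgW s r (sfgZ A ω) a * ∑ b ∈ s, sfgW s r (sfgZ A ω) b * A b k)) := by
  have hW := fun b => sfgt_measW s r A b
  exact (((hW a).mul_const _).sub
    ((hW a).mul (Finset.measurable_sum s fun b _ => (hW b).mul_const _))).const_mul r

/-- the integrand on the right of the integration by parts is bounded -/
lemma sfgt_boundR {T J : Type} [Fintype J] (s : Finset T) (r : ℝ) (A : T → J → ℝ) (a : T)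
    (ha : a ∈ s) (k : J) (ω : J → ℝ) :
    |r * (sfgW s r (sfgZ A ω) a * A a k
      - sfgW s r (sfgZ A ω) a * ∑ b ∈ s, sfgW s r (sfgZ A ω) b * A b k)|
      ≤ |r| * (|A a k| + ∑ b ∈ s, |A b k|) := by
  have h0 : ∀ b, 0 ≤ sfgW s r (sfgZ A ω) b := fun b => sfgW_nonneg s r _ b
  have h1 : ∀ b ∈ s, sfgW s r (sfgZ A ω) b ≤ 1 := fun b hb => sfgW_le_one s r _ b hb
  have hsum : |∑ b ∈ s, sfgW s r (sfgZ A ω) b * A b k| ≤ ∑ b ∈ s, |A b k| := by
    refine (Finset.abs_sum_le_sum_abs _ _).trans (Finset.sum_le_sum fun b hb => ?_)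
    rw [abs_mul, abs_of_nonneg (h0 b)]
    exact mul_le_of_le_one_left (abs_nonneg _) (h1 b hb)
  have hfac : sfgW s r (sfgZ A ω) a * A a k
      - sfgW s r (sfgZ A ω) a * ∑ b ∈ s, sfgW s r (sfgZ A ω) b * A b k
      = sfgW s r (sfgZ A ω) a * (A a k - ∑ b ∈ s, sfgW s r (sfgZ A ω) b * A b k) := by ring
  rw [hfac, abs_mul, abs_mul, abs_of_nonneg (h0 a)]
  refine mul_le_mul_of_nonneg_left ?_ (abs_nonneg r)
  calc sfgW s r (sfgZ A ω) a * |A a k - ∑ b ∈ s, sfgW s r (sfgZ A ω) b * A b k|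
      ≤ 1 * |A a k - ∑ b ∈ s, sfgW s r (sfgZ A ω) b * A b k| :=
        mul_le_mul_of_nonneg_right (h1 a ha) (abs_nonneg _)
    _ = |A a k - ∑ b ∈ s, sfgW s r (sfgZ A ω) b * A b k| := one_mul _
    _ ≤ |A a k| + |∑ b ∈ s, sfgW s r (sfgZ A ω) b * A b k| := abs_sub _ _
    _ ≤ |A a k| + ∑ b ∈ s, |A b k| := by linarith

/-- Gaussian integration by parts against one soft-max weight of linear forms -/
lemma sfgt_stein {T J : Type} [Fintype J] [DecidableEq J] (s : Finset T) (hs : s.Nonempty)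
    (r : ℝ) (A : T → J → ℝ) (a : T) (ha : a ∈ s) (k : J) :
    ∫ ω, ω k * sfgW s r (sfgZ A ω) a ∂(stdGauss J)
      = ∫ ω, r * (sfgW s r (sfgZ A ω) a * A a k
          - sfgW s r (sfgZ A ω) a * ∑ b ∈ s, sfgW s r (sfgZ A ω) b * A b k) ∂(stdGauss J) := by
  refine stein_pi k (fun ω => sfgW s r (sfgZ A ω) a)
    (fun ω => r * (sfgW s r (sfgZ A ω) a * A a k
      - sfgW s r (sfgZ A ω) a * ∑ b ∈ s, sfgW s r (sfgZ A ω) b * A b k))
    (sfgt_measW s r A a) (sfgt_measR s r A a k)
    (max 1 (|r| * (|A a k| + ∑ b ∈ s, |A b k|))) ?_ ?_ ?_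
  · intro ω
    rw [abs_of_nonneg (sfgW_nonneg s r _ a)]
    exact (sfgW_le_one s r _ a ha).trans (le_max_left _ _)
  · intro ω
    exact (sfgt_boundR s r A a ha k ω).trans (le_max_right _ _)
  · intro g u
    refine sfgW_hasDerivAt s hs r (fun v => sfgZ A (Function.update g k v)) (fun b => A b k) u
      (fun b _ => ?_) a ha
    have hfun : (fun v : ℝ => sfgZ A (Function.update g k v) b)
        = fun v : ℝ => A b k * v + (∑ j, A b j * g j - A b k * g k) := by
      funext v
      exact sfga_lin_update (A b) g k v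
    rw [hfun]
    simpa using ((hasDerivAt_id u).const_mul (A b k)).add_const (∑ j, A b j * g j - A b k * g k)

/-- the finite-sum algebra behind the summed form -/
lemma sfgt_alg {T J : Type} [Fintype J] (s : Finset T) (r : ℝ) (A B : T → J → ℝ) (w : T → ℝ) :
    ∑ a ∈ s, ∑ j, B a j * (r * (w a * A a j - w a * ∑ b ∈ s, w b * A b j))
      = r * ∑ j, (∑ a ∈ s, B a j * A a j * w a
          - (∑ a ∈ s, B a j * w a) * (∑ b ∈ s, A b j * w b)) := by
  rw [Finset.sum_comm]
  rw [Finset.mul_sum Finset.univ _ r]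
  refine Finset.sum_congr rfl fun j _ => ?_
  have hS : ∑ b ∈ s, w b * A b j = ∑ b ∈ s, A b j * w b :=
    Finset.sum_congr rfl fun b _ => mul_comm _ _
  rw [hS]
  generalize ∑ b ∈ s, A b j * w b = S
  rw [Finset.sum_mul, ← Finset.sum_sub_distrib, Finset.mul_sum]
  refine Finset.sum_congr rfl fun a _ => ?_
  ring

/-- summed form: the expectation of `∑_a w_a(A ω) * (B ω)_a` -/
lemma sfgt_stein_sum {T J : Type} [Fintype J] [DecidableEq J] (s : Finset T) (hs : s.Nonempty)
    (r : ℝ) (A B : T → J → ℝ) :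
    ∫ ω, ∑ a ∈ s, sfgW s r (sfgZ A ω) a * sfgZ B ω a ∂(stdGauss J)
      = r * ∫ ω, ∑ j, (∑ a ∈ s, B a j * A a j * sfgW s r (sfgZ A ω) a
          - (∑ a ∈ s, B a j * sfgW s r (sfgZ A ω) a)
            * (∑ b ∈ s, A b j * sfgW s r (sfgZ A ω) b)) ∂(stdGauss J) := by
  have hint1 : ∀ a ∈ s, ∀ j, Integrable
      (fun ω : J → ℝ => ω j * sfgW s r (sfgZ A ω) a) (stdGauss J) := by
    intro a ha j
    refine (sfga_integrable_eval j).mul_bdd (c := 1)
      (sfgt_measW s r A a).aestronglyMeasurable ?_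
    refine Filter.Eventually.of_forall fun ω => ?_
    rw [Real.norm_eq_abs, abs_of_nonneg (sfgW_nonneg s r _ a)]
    exact sfgW_le_one s r _ a ha
  have hint2 : ∀ a ∈ s, ∀ j, Integrable
      (fun ω : J → ℝ => r * (sfgW s r (sfgZ A ω) a * A a j
        - sfgW s r (sfgZ A ω) a * ∑ b ∈ s, sfgW s r (sfgZ A ω) b * A b j)) (stdGauss J) := by
    intro a ha j
    refine Integrable.of_bound (sfgt_measR s r A a j).aestronglyMeasurable
      (|r| * (|A a j| + ∑ b ∈ s, |A b j|)) ?_
    refine Filter.Eventually.of_forall fun ω => ?_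
    rw [Real.norm_eq_abs]
    exact sfgt_boundR s r A a ha j ω
  have hL : ∫ ω, ∑ a ∈ s, sfgW s r (sfgZ A ω) a * sfgZ B ω a ∂(stdGauss J)
      = ∑ a ∈ s, ∑ j, B a j * ∫ ω, ω j * sfgW s r (sfgZ A ω) a ∂(stdGauss J) := by
    have h1 : (fun ω : J → ℝ => ∑ a ∈ s, sfgW s r (sfgZ A ω) a * sfgZ B ω a)
        = fun ω : J → ℝ => ∑ a ∈ s, ∑ j, B a j * (ω j * sfgW s r (sfgZ A ω) a) := by
      funext ω
      refine Finset.sum_congr rfl fun a _ => ?_
      show sfgW s r (sfgZ A ω) a * (∑ j, B a j * ω j) = _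
      rw [Finset.mul_sum]
      refine Finset.sum_congr rfl fun j _ => ?_
      ring
    rw [h1, integral_finsetSum _ fun a ha =>
      integrable_finsetSum _ fun j _ => (hint1 a ha j).const_mul _]
    refine Finset.sum_congr rfl fun a ha => ?_
    rw [integral_finsetSum _ fun j _ => (hint1 a ha j).const_mul _]
    refine Finset.sum_congr rfl fun j _ => ?_
    rw [integral_const_mul]
  have hS : ∑ a ∈ s, ∑ j, B a j * ∫ ω, ω j * sfgW s r (sfgZ A ω) a ∂(stdGauss J)
      = ∑ a ∈ s, ∑ j, B a j * ∫ ω, r * (sfgW s r (sfgZ A ω) a * A a j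
        - sfgW s r (sfgZ A ω) a * ∑ b ∈ s, sfgW s r (sfgZ A ω) b * A b j) ∂(stdGauss J) :=
    Finset.sum_congr rfl fun a ha => Finset.sum_congr rfl fun j _ => by
      rw [sfgt_stein s hs r A a ha j]
  have hR : ∑ a ∈ s, ∑ j, B a j * ∫ ω, r * (sfgW s r (sfgZ A ω) a * A a j
        - sfgW s r (sfgZ A ω) a * ∑ b ∈ s, sfgW s r (sfgZ A ω) b * A b j) ∂(stdGauss J)
      = ∫ ω, ∑ a ∈ s, ∑ j, B a j * (r * (sfgW s r (sfgZ A ω) a * A a j
        - sfgW s r (sfgZ A ω) a * ∑ b ∈ s, sfgW s r (sfgZ A ω) b * A b j)) ∂(stdGauss J) := by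
    rw [integral_finsetSum _ fun a ha =>
      integrable_finsetSum _ fun j _ => (hint2 a ha j).const_mul _]
    refine Finset.sum_congr rfl fun a ha => ?_
    rw [integral_finsetSum _ fun j _ => (hint2 a ha j).const_mul _]
    refine Finset.sum_congr rfl fun j _ => ?_
    exact (integral_const_mul _ _).symm
  rw [hL, hS, hR, ← integral_const_mul]
  congr 1
  funext ω
  exact sfgt_alg s r A B fun b => sfgW s r (sfgZ A ω) b

end Vale.Agent.H40
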