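import Vale.Agent.H40.Res.RescStein
import Vale.Agent.H40.Res.RescErr

/-!
TASK RES-C (sub-project).  Convergence in probability of the normalised resolvent trace
`s = stieltjes n ζ g = (1/n) tr (ζ - J)⁻¹` at `ζ = τ + 1/τ` to `1/τ`
(semicircle law in Stieltjes transform form), for `Im τ > 0`, `|τ| > 1`.

Black boxes (stubs of `Resolvent.lean`, `ResolventDeriv.lean`, `JmatAlg.lean`, `SteinC.lean`):
`resolvent_mul_left/right`, `resolvent_symm`, `resolvent_opNorm_le`, `resolvent_entry_le`,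
`resolvent_hasDerivAt`, `continuous_resolvent`, `continuous_stieltjes`, `sum_Jmat_mul`,
`stieltjes_im_nonpos`, `norm_stieltjes_le`, `im_add_inv_pos`, `stein_pi_complex`.

Proof sketch.  Fix `ζ` with `η = Im ζ > 0`, write `G = resolvent n ζ g`, `s = (1/n) ∑_a G a a`,
`D = s² - ζ s + 1`.  Notation: `∂_ik` = derivative in the symmetric entry `J_ik = g p / √n`
(`p = (i,k)`, `i < k`), that is `√n` times the derivative in `g p`; Gaussian integration by parts
reads `E [J_ik Ψ] = (1/n) E [∂_ik Ψ]`.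
1. Algebra: `∑_{i,k} J_ik G_ki = ζ tr G - n = n (ζ s - 1)` (`resolvent_mul_right`), and the
   diagonal of `J` vanishes, so the sum is over `i ≠ k`, that is, over pairs `p` with both
   orientations (`sum_Jmat_mul`).
2. Derivatives (`resolvent_hasDerivAt`, `G` symmetric): `∂_ik G_ki = G_ki G_ki + G_kk G_ii`,
   `∂_ik s = (2/n) (G²)_ik`.  For `F = conj D`:  `∂_ik F = conj ((2 s - ζ) (2/n) (G²)_ik)`.
3. Integration by parts for the bounded functions `G_ki * F` (`stein_pi_complex`; all entries of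
   `G` are bounded by `1/η`, `|s| ≤ 1/η`), summed over `i ≠ k`:
   `n E[(ζ s - 1) F] = (1/n) E[(tr G² + (tr G)² - 2 ∑_i G_ii²) F] + (1/n) E[∑_{i≠k} G_ki ∂_ik F]`,
   where `tr G² = ∑_{i,k} G_ik²`.  Dividing by `n` and using ` (tr G)² = n² s²`:
   `E[D F] = -(1/n²) E[(tr G² - 2 ∑_i G_ii²) F] - (1/n²) E[∑_{i≠k} G_ki ∂_ik F]`.
   (This pointwise formula was checked numerically.)
4. Bounds: `|tr G²| ≤ ∑_{i,k} |G_ik|² ≤ n/η²` and `∑_i |G_ii|² ≤ n/η²` (`resolvent_opNorm_le` at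
   basis vectors), so `|tr G² - 2 ∑ G_ii²| ≤ 3 n/η²`;
   `|∑_{i≠k} G_ki ∂_ik F| ≤ |2 s - ζ| (2/n) (∑ |G_ki|²)^(1/2) (∑ |(G²)_ik|²)^(1/2)
      ≤ (2/η + |ζ|) (2/n) (√n/η) (√n/η²)`.
   With `F = conj D`, `E |D|² ≤ (3/(n η²)) E|D| + C₁/n² ≤ (3/(n η²)) (E|D|²)^(1/2) + C₁/n²`,
   hence `E |D|² ≤ C/n²` (any bound `C/n` is enough).
5. Root selection: for `ζ = τ + 1/τ`, `D = (s - 1/τ)(s - τ)`, and `Im s ≤ 0 < Im τ`
   (`stieltjes_im_nonpos`) gives `|s - τ| ≥ Im τ`, so `|s - 1/τ| ≤ |D| / Im τ`.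
6. Chebyshev: `P(|s - 1/τ| > ρ) ≤ P(|D| > ρ Im τ) ≤ E|D|² / (ρ Im τ)² → 0`.
You may cut this file into rows of your own (tag `resc_`); only the final statement is fixed.
-/

namespace Vale.Agent.H40.SK

open MeasureTheory ProbabilityTheory Real

/-- Pointwise form of the self-consistent equation: `n |D|² = n s² conj D - ∑' g_p c Φ_p`. -/
lemma resc_pointwise {n : ℕ} (ζ : ℂ) (hζ : ζ.im ≠ 0) (g : Fin n × Fin n → ℝ) :
    (((n : ℝ) * ‖rescD n ζ g‖ ^ 2 : ℝ) : ℂ)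
      = (n : ℂ) * stieltjes n ζ g ^ 2 * (starRingEnd ℂ) (rescD n ζ g)
        - ∑ p : Fin n × Fin n, if p.1 < p.2 then
            ((g p : ℂ) * ((√(n : ℝ))⁻¹ : ℝ)) * rescPhi n ζ p g else 0 := by
  have h1 := resc_trace ζ hζ g
  have hX : (∑ p : Fin n × Fin n, if p.1 < p.2 then
            ((g p : ℂ) * ((√(n : ℝ))⁻¹ : ℝ)) * rescPhi n ζ p g else 0)
      = ((n : ℂ) * (ζ * stieltjes n ζ g - 1)) * (starRingEnd ℂ) (rescD n ζ g) := by
    rw [h1, Finset.sum_mul]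
    refine Finset.sum_congr rfl (fun p _ => ?_)
    split_ifs
    · simp only [rescPhi]
      ring
    · simp
  have hD : ((‖rescD n ζ g‖ : ℝ) : ℂ) ^ 2 = rescD n ζ g * (starRingEnd ℂ) (rescD n ζ g) := by
    rw [Complex.mul_conj, Complex.normSq_eq_norm_sq]
    push_cast
    rfl
  rw [hX]
  push_cast
  rw [hD]
  generalize (starRingEnd ℂ) (rescD n ζ g) = Dc
  unfold rescD
  ring

/-- Second moment bound of `D = s² - ζ s + 1`. -/
lemma resc_integral_D_sq_le {n : ℕ} (ζ : ℂ) (hζ : 0 < ζ.im) (hn : 0 < n) :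
    ∫ g, ‖rescD n ζ g‖ ^ 2 ∂(stdGauss (Fin n × Fin n)) ≤ rescK ζ / n := by
  have hζ' : ζ.im ≠ 0 := hζ.ne'
  set μ := stdGauss (Fin n × Fin n) with hμ
  set P : (Fin n × Fin n → ℝ) → ℂ :=
    fun g => (n : ℂ) * stieltjes n ζ g ^ 2 * (starRingEnd ℂ) (rescD n ζ g) with hP
  set X : (Fin n × Fin n → ℝ) → ℂ := fun g => ∑ p : Fin n × Fin n, if p.1 < p.2 then
    ((g p : ℂ) * ((√(n : ℝ))⁻¹ : ℝ)) * rescPhi n ζ p g else 0 with hX
  set Y : (Fin n × Fin n → ℝ) → ℂ := fun g => ∑ p : Fin n × Fin n, if p.1 < p.2 then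
    (((√(n : ℝ))⁻¹ : ℝ) : ℂ) * rescDPhi n ζ p g else 0 with hY
  set Q : (Fin n × Fin n → ℝ) → ℝ := fun g => (n : ℝ) * ‖rescD n ζ g‖ ^ 2 with hQ
  set B : ℝ := 1 / ζ.im ^ 2 + ‖ζ‖ / ζ.im + 1 with hBdef
  have hB : ∀ g : Fin n × Fin n → ℝ, ‖rescD n ζ g‖ ≤ B := resc_norm_D_le ζ hζ
  have hs : ∀ g : Fin n × Fin n → ℝ, ‖stieltjes n ζ g‖ ≤ 1 / ζ.im := fun g => by
    have h := norm_stieltjes_le (n := n) ζ hζ' g
    rwa [abs_of_pos hζ] at h
  have hcD : Continuous (fun g : Fin n × Fin n → ℝ => rescD n ζ g) := resc_continuous_D ζ hζ'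
  have hcs : Continuous (fun g : Fin n × Fin n → ℝ => stieltjes n ζ g) :=
    continuous_stieltjes ζ hζ'
  have hPc : Continuous P :=
    (continuous_const.mul (hcs.pow 2)).mul (Complex.continuous_conj.comp hcD)
  have hPb : ∀ g, ‖P g‖ ≤ n * (1 / ζ.im) ^ 2 * B := by
    intro g
    simp only [hP, norm_mul, norm_pow, Complex.norm_natCast, RCLike.norm_conj]
    gcongr
    · exact hs g
    · exact hB g
  have hPi : Integrable P μ := Integrable.of_bound hPc.aestronglyMeasurable _ (ae_of_all _ hPb)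
  have hQc : Continuous Q := continuous_const.mul (hcD.norm.pow 2)
  have hQb : ∀ g, ‖Q g‖ ≤ n * B ^ 2 := by
    intro g
    have h0 : 0 ≤ Q g := by positivity
    rw [Real.norm_of_nonneg h0]
    simp only [hQ]
    gcongr
    exact hB g
  have hQi : Integrable Q μ := Integrable.of_bound hQc.aestronglyMeasurable _ (ae_of_all _ hQb)
  have hYc : Continuous Y := by
    refine continuous_finsetSum _ (fun p _ => ?_)
    by_cases hp : p.1 < p.2
    · simp only [hp, if_true]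
      exact continuous_const.mul (resc_continuous_DPhi ζ hζ' p)
    · simp only [hp, if_false]
      exact continuous_const
  have hYb : ∀ g, ‖Y g‖ ≤ rescK ζ + n * (1 / ζ.im) ^ 2 * B := by
    intro g
    have h := resc_err_le ζ hζ hn g
    calc ‖Y g‖ = ‖(Y g - P g) + P g‖ := by rw [sub_add_cancel]
      _ ≤ ‖Y g - P g‖ + ‖P g‖ := norm_add_le _ _
      _ ≤ rescK ζ + n * (1 / ζ.im) ^ 2 * B := add_le_add h (hPb g)
  have hYi : Integrable Y μ := Integrable.of_bound hYc.aestronglyMeasurable _ (ae_of_all _ hYb)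
  have hpt : ∀ g, ((Q g : ℝ) : ℂ) = P g - X g := fun g => resc_pointwise ζ hζ' g
  have hXi : Integrable X μ := by
    have hXeq : X = fun g => P g - ((Q g : ℝ) : ℂ) := by
      funext g
      rw [hpt g]
      ring
    rw [hXeq]
    exact hPi.sub hQi.ofReal
  have hXY : ∫ g, X g ∂μ = ∫ g, Y g ∂μ := resc_stein_sum ζ hζ
  have h1 : ((∫ g, Q g ∂μ : ℝ) : ℂ) = ∫ g, (P g - Y g) ∂μ := by
    rw [← integral_complex_ofReal, integral_sub hPi hYi, ← hXY, ← integral_sub hPi hXi]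
    exact integral_congr_ae (ae_of_all _ hpt)
  have h2 : ‖∫ g, (P g - Y g) ∂μ‖ ≤ rescK ζ := by
    calc ‖∫ g, (P g - Y g) ∂μ‖ ≤ ∫ g, ‖P g - Y g‖ ∂μ := norm_integral_le_integral_norm _
      _ ≤ ∫ _g, rescK ζ ∂μ := by
          refine integral_mono_of_nonneg (ae_of_all _ (fun g => norm_nonneg _))
            (integrable_const _) (ae_of_all _ (fun g => ?_))
          show ‖P g - Y g‖ ≤ rescK ζ
          rw [norm_sub_rev]
          exact resc_err_le ζ hζ hn g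
      _ = rescK ζ := by simp
  have h3 : ∫ g, Q g ∂μ = n * ∫ g, ‖rescD n ζ g‖ ^ 2 ∂μ := integral_const_mul _ _
  have h4 : (n : ℝ) * ∫ g, ‖rescD n ζ g‖ ^ 2 ∂μ ≤ rescK ζ := by
    rw [← h3]
    have h5 : ‖((∫ g, Q g ∂μ : ℝ) : ℂ)‖ ≤ rescK ζ := by
      rw [h1]
      exact h2
    rw [Complex.norm_real] at h5
    exact (le_abs_self _).trans h5
  have hnpos : (0 : ℝ) < n := by exact_mod_cast hn
  rw [le_div_iff₀ hnpos]
  linarith

/-- Root selection: `D = (s - 1/τ) (s - τ)` and `Im s ≤ 0 < Im τ`. -/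
lemma resc_root {n : ℕ} (τ : ℂ) (hτ : 0 < τ.im) (hτ1 : 1 < ‖τ‖) (g : Fin n × Fin n → ℝ) :
    ‖stieltjes n (τ + τ⁻¹) g - τ⁻¹‖ * τ.im ≤ ‖rescD n (τ + τ⁻¹) g‖ := by
  have hζ := im_add_inv_pos τ hτ hτ1
  have hτ0 : τ ≠ 0 := by
    intro h
    rw [h] at hτ
    simp at hτ
  have hs := stieltjes_im_nonpos (n := n) (τ + τ⁻¹) hζ g
  set s := stieltjes n (τ + τ⁻¹) g with hsdef
  have hD : rescD n (τ + τ⁻¹) g = (s - τ⁻¹) * (s - τ) := by
    unfold rescD
    rw [← hsdef]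
    field_simp
    ring
  have him : τ.im ≤ ‖s - τ‖ := by
    have h1 : (s - τ).im ≤ -τ.im := by
      rw [Complex.sub_im]
      linarith
    have h2 : |(s - τ).im| ≤ ‖s - τ‖ := Complex.abs_im_le_norm _
    have h3 : τ.im ≤ |(s - τ).im| := by
      rw [abs_of_nonpos (by linarith)]
      linarith
    linarith
  rw [hD, norm_mul]
  exact mul_le_mul_of_nonneg_left him (norm_nonneg _)

/-- For `τ` in the upper half plane with `|τ| > 1`, the normalised resolvent trace at `τ + 1/τ`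
converges in probability to `1/τ`. -/
theorem stieltjes_tendsto (τ : ℂ) (hτ : 0 < τ.im) (hτ1 : 1 < ‖τ‖) (ρ : ℝ) (hρ : 0 < ρ) :
    Filter.Tendsto (fun n : ℕ => (stdGauss (Fin n × Fin n)).real (stieltjesBad n τ ρ))
      Filter.atTop (nhds 0) := by
  have hζ := im_add_inv_pos τ hτ hτ1
  set ζ := τ + τ⁻¹ with hζdef
  set ε := (ρ * τ.im) ^ 2 with hε
  have hεpos : 0 < ε := by positivity
  have hbound : ∀ n : ℕ, 0 < n →
      (stdGauss (Fin n × Fin n)).real (stieltjesBad n τ ρ) ≤ rescK ζ / ε / n := by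
    intro n hn
    set μ := stdGauss (Fin n × Fin n) with hμ
    have hnpos : (0 : ℝ) < n := by exact_mod_cast hn
    have hcD : Continuous (fun g : Fin n × Fin n → ℝ => rescD n ζ g) :=
      resc_continuous_D ζ hζ.ne'
    have hint : Integrable (fun g : Fin n × Fin n → ℝ => ‖rescD n ζ g‖ ^ 2) μ := by
      refine Integrable.of_bound (hcD.norm.pow 2).aestronglyMeasurable
        ((1 / ζ.im ^ 2 + ‖ζ‖ / ζ.im + 1) ^ 2) (ae_of_all _ (fun g => ?_))
      rw [Real.norm_of_nonneg (by positivity)]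
      gcongr
      exact resc_norm_D_le ζ hζ g
    have hmk := mul_meas_ge_le_integral_of_nonneg (μ := μ)
      (ae_of_all _ (fun g => sq_nonneg ‖rescD n ζ g‖)) hint ε
    have hsub : stieltjesBad n τ ρ ⊆ {g | ε ≤ ‖rescD n ζ g‖ ^ 2} := by
      intro g hg
      simp only [stieltjesBad, Set.mem_ofPred_eq] at hg ⊢
      have h1 := resc_root τ hτ hτ1 g
      have h2 : ρ * τ.im ≤ ‖rescD n ζ g‖ :=
        le_trans (mul_le_mul_of_nonneg_right hg.le hτ.le) h1
      exact pow_le_pow_left₀ (by positivity) h2 2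
    have hmono : μ.real (stieltjesBad n τ ρ) ≤ μ.real {g | ε ≤ ‖rescD n ζ g‖ ^ 2} :=
      measureReal_mono hsub
    have h2m := resc_integral_D_sq_le ζ hζ hn
    rw [div_div, le_div_iff₀ (by positivity)]
    calc μ.real (stieltjesBad n τ ρ) * (ε * n)
        = n * (ε * μ.real (stieltjesBad n τ ρ)) := by ring
      _ ≤ n * (ε * μ.real {g | ε ≤ ‖rescD n ζ g‖ ^ 2}) := by gcongr
      _ ≤ n * ∫ g, ‖rescD n ζ g‖ ^ 2 ∂μ := by gcongr
      _ ≤ n * (rescK ζ / n) := by gcongr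
      _ = rescK ζ := by field_simp
  have hlim : Filter.Tendsto (fun n : ℕ => rescK ζ / ε / (n : ℝ)) Filter.atTop (nhds 0) :=
    tendsto_const_div_atTop_nhds_zero_nat _
  refine squeeze_zero' (Filter.Eventually.of_forall (fun n => measureReal_nonneg)) ?_ hlim
  filter_upwards [Filter.eventually_gt_atTop 0] with n hn
  exact hbound n hn

end Vale.Agent.H40.SK
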